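import Mathlib
import Crest.Prelude.Def_AsymptoticConvexity
import Crest.Agent.Lib.AUCGame

/-!
# S0166: abstract consequences of the RMS property

Blueprint: `RMSSq Y` says that for every `x` and `η > 0` there is a closed finite-codimensional `F`
with `2‖x‖² + ½‖y‖² - η (1 + ‖y‖) ≤ ‖x + y‖² + ‖x - y‖²` for `y ∈ F`.
From it (with Hahn-Banach) we get the three moduli of S0166.
-/

set_option autoImplicit false

namespace Crest.Agent.S0166Lib

open Crest.AnalysisR Crest.Agent.AUCGame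

variable {X : Type} [NormedAddCommGroup X] [NormedSpace ℝ X]

/-- The RMS property (squared form). -/
def RMSSq (X : Type) [NormedAddCommGroup X] [NormedSpace ℝ X] : Prop :=
  ∀ (x : X) (η : ℝ), 0 < η → ∃ F : Set X, Cof F ∧ ∀ y ∈ F,
    2 * ‖x‖ ^ 2 + (1 / 2) * ‖y‖ ^ 2 - η * (1 + ‖y‖) ≤ ‖x + y‖ ^ 2 + ‖x - y‖ ^ 2

/-- The RMS property (average form, as proved in the models). -/
def RMSAvg (X : Type) [NormedAddCommGroup X] [NormedSpace ℝ X] : Prop :=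
  ∀ (x : X) (η : ℝ), 0 < η → ∃ F : Set X, Cof F ∧ ∀ y ∈ F, ∀ a b : ℝ, 0 ≤ a → 0 ≤ b →
    a ^ 2 + b ^ 2 ≤ 1 → 2 * a * ‖x‖ + b * ‖y‖ - η ≤ ‖x + y‖ + ‖x - y‖

/-- Intersection of two closed finite-codimensional subspaces. -/
theorem Cof.inter {F G : Set X} (hF : Cof F) (hG : Cof G) : Cof (F ∩ G) := by
  obtain ⟨S, rfl, hS, hfS⟩ := hF
  obtain ⟨T, rfl, hT, hfT⟩ := hG
  refine ⟨S ⊓ T, by simp, hS.inter hT, ?_⟩
  have : FiniteDimensional ℝ (X ⧸ S) := hfS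
  have : FiniteDimensional ℝ (X ⧸ T) := hfT
  let φ : (X ⧸ (S ⊓ T)) →ₗ[ℝ] (X ⧸ S) × (X ⧸ T) :=
    (S ⊓ T).liftQ (S.mkQ.prod T.mkQ) (by
      intro z hz
      have h1 : S.mkQ z = 0 := by simpa using hz.1
      have h2 : T.mkQ z = 0 := by simpa using hz.2
      show (S.mkQ z, T.mkQ z) = 0
      rw [h1, h2]; rfl)
  refine FiniteDimensional.of_injective φ ?_
  rw [← LinearMap.ker_eq_bot, Submodule.ker_liftQ_eq_bot]
  intro z hz
  have hz' : (S.mkQ z, T.mkQ z) = 0 := hz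
  rw [Prod.mk_eq_zero] at hz'
  exact ⟨by simpa using hz'.1, by simpa using hz'.2⟩

/-- Preimage of a closed finite-codimensional subspace under a continuous linear map. -/
theorem Cof.comap {Y : Type} [NormedAddCommGroup Y] [NormedSpace ℝ Y] {G : Set Y} (hG : Cof G)
    (π : X →L[ℝ] Y) : Cof (π ⁻¹' G) := by
  obtain ⟨T, rfl, hT, hfT⟩ := hG
  refine ⟨T.comap (π : X →ₗ[ℝ] Y), by simp, hT.preimage π.continuous, ?_⟩
  have : FiniteDimensional ℝ (Y ⧸ T) := hfT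
  let φ : (X ⧸ T.comap (π : X →ₗ[ℝ] Y)) →ₗ[ℝ] (Y ⧸ T) :=
    (T.comap (π : X →ₗ[ℝ] Y)).liftQ (T.mkQ ∘ₗ (π : X →ₗ[ℝ] Y)) (by
      intro z hz
      simpa using hz)
  refine FiniteDimensional.of_injective φ ?_
  rw [← LinearMap.ker_eq_bot, Submodule.ker_liftQ_eq_bot]
  intro z hz
  simpa using hz

/-- The kernel of a continuous linear functional. -/
theorem cof_ker (φ : X →L[ℝ] ℝ) : Cof ((LinearMap.ker (φ : X →ₗ[ℝ] ℝ) : Submodule ℝ X) : Set X) := by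
  refine ⟨LinearMap.ker (φ : X →ₗ[ℝ] ℝ), rfl, ?_, ?_⟩
  · have : ((LinearMap.ker (φ : X →ₗ[ℝ] ℝ) : Submodule ℝ X) : Set X) = φ ⁻¹' {0} := by
      ext z; simp
    rw [this]
    exact isClosed_singleton.preimage φ.continuous
  · have : FiniteDimensional ℝ (LinearMap.range (φ : X →ₗ[ℝ] ℝ)) := inferInstance
    exact Module.Finite.equiv (LinearMap.quotKerEquivRange (φ : X →ₗ[ℝ] ℝ)).symm

/-- Finite intersections. -/
theorem Cof.biInter {ι : Type*} (s : Finset ι) (F : ι → Set X) (hF : ∀ i ∈ s, Cof (F i)) :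
    Cof (⋂ i ∈ s, F i) := by
  classical
  induction s using Finset.induction_on with
  | empty => simpa using (cof_univ (X := X))
  | insert a s ha ih =>
    simp only [Finset.mem_insert, Set.iInter_iInter_eq_or_left]
    exact Cof.inter (hF a (by simp)) (ih (fun i hi => hF i (by simp [hi])))

/-- Upgrading `RMSSq`: the subspace can be taken inside the kernel of a norming functional, so
that `‖x‖ ≤ ‖x ± y‖`. -/
theorem RMSSq.with_ker (h : RMSSq X) (x : X) (η : ℝ) (hη : 0 < η) :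
    ∃ F : Set X, Cof F ∧ ∀ y ∈ F,
      2 * ‖x‖ ^ 2 + (1 / 2) * ‖y‖ ^ 2 - η * (1 + ‖y‖) ≤ ‖x + y‖ ^ 2 + ‖x - y‖ ^ 2 ∧
        ‖x‖ ≤ ‖x + y‖ ∧ ‖x‖ ≤ ‖x - y‖ := by
  obtain ⟨F, hF, hFy⟩ := h x η hη
  by_cases hx : x = 0
  · subst hx
    refine ⟨F, hF, fun y hy => ⟨hFy y hy, by simp, by simp⟩⟩
  obtain ⟨φ, hφ, hφx⟩ := exists_dual_vector ℝ x (norm_ne_zero_iff.mpr hx)
  refine ⟨F ∩ _, Cof.inter hF (cof_ker φ), fun y hy => ⟨hFy y hy.1, ?_, ?_⟩⟩
  · have hφy : φ y = 0 := by simpa using hy.2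
    have h1 : φ (x + y) ≤ ‖φ‖ * ‖x + y‖ := (le_abs_self _).trans (φ.le_opNorm _)
    rw [hφ, map_add, hφy, hφx, one_mul, add_zero] at h1
    simpa using h1
  · have hφy : φ y = 0 := by simpa using hy.2
    have h1 : φ (x - y) ≤ ‖φ‖ * ‖x - y‖ := (le_abs_self _).trans (φ.le_opNorm _)
    rw [hφ, map_sub, hφy, hφx, one_mul, sub_zero] at h1
    simpa using h1

/-- Real arithmetic: from the `RMS` bound to the average. -/
theorem avg_of_rms {A B W : ℝ} (hA : 1 ≤ A) (hB : 1 ≤ B) (hW : W ≤ A ^ 2 + B ^ 2) :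
    (1 + Real.sqrt (W - 1)) / 2 ≤ (A + B) / 2 := by
  have h1 : 0 ≤ (A - 1) * (B - 1) := mul_nonneg (by linarith) (by linarith)
  have h2 : W - 1 ≤ (A + B - 1) ^ 2 := by nlinarith
  have h3 : Real.sqrt (W - 1) ≤ A + B - 1 := by
    rw [show A + B - 1 = Real.sqrt ((A + B - 1) ^ 2) from (Real.sqrt_sq (by linarith)).symm]
    exact Real.sqrt_le_sqrt h2
  linarith

/-- sqrt perturbation. -/
theorem sqrt_sub_ge {Z δ : ℝ} (hZ : 1 ≤ Z) (hδ : 0 ≤ δ) (hδZ : δ ≤ Z) :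
    Real.sqrt Z - δ ≤ Real.sqrt (Z - δ) := by
  have h0 : 0 ≤ Z - δ := by linarith
  by_cases h : Real.sqrt Z - δ ≤ 0
  · exact h.trans (Real.sqrt_nonneg _)
  · push Not at h
    apply Real.le_sqrt_of_sq_le
    have h2 : Real.sqrt Z ^ 2 = Z := Real.sq_sqrt (by linarith)
    have h3 : 1 ≤ Real.sqrt Z := Real.one_le_sqrt.mpr hZ
    nlinarith

/-- Pointwise (one `y`): the three bounds. -/
theorem three_bounds {t A B η₀ : ℝ} (ht : 0 < t) (hA : 1 ≤ A) (hB : 1 ≤ B) (hη₀ : 0 ≤ η₀)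
    (hη₀' : η₀ ≤ 1)
    (hW : 2 + (1 / 2) * t ^ 2 - η₀ ≤ A ^ 2 + B ^ 2) :
    Real.sqrt (1 + t ^ 2 / 12) - η₀ ≤ (A + B) / 2 ∧
      (Real.sqrt (1 + t ^ 2 / 4) - 1) / 2 - η₀ + 1 ≤ (A + B) / 2 ∧
      Real.sqrt (1 + t ^ 2 / 4) - η₀ ≤ max A B := by
  have hmax : Real.sqrt (1 + t ^ 2 / 4) - η₀ ≤ max A B := by
    have hZ : (1 : ℝ) ≤ 1 + t ^ 2 / 4 := by nlinarith [sq_nonneg t]
    have h1 := sqrt_sub_ge hZ hη₀ (by linarith)
    have h2 : 1 + t ^ 2 / 4 - η₀ ≤ (max A B) ^ 2 := by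
      have h3 : A ^ 2 ≤ (max A B) ^ 2 := by
        have : A ≤ max A B := le_max_left _ _
        nlinarith
      have h4 : B ^ 2 ≤ (max A B) ^ 2 := by
        have : B ≤ max A B := le_max_right _ _
        nlinarith
      nlinarith
    have h5 : Real.sqrt (1 + t ^ 2 / 4 - η₀) ≤ max A B := by
      have hm : 0 ≤ max A B := by
        have : A ≤ max A B := le_max_left _ _
        linarith
      rw [show max A B = Real.sqrt ((max A B) ^ 2) from (Real.sqrt_sq hm).symm]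
      exact Real.sqrt_le_sqrt h2
    linarith
  have hminmax : 1 ≤ min A B := le_min hA hB
  have hsum : (A + B) = max A B + min A B := by
    rcases le_total A B with h | h
    · simp [max_eq_right h, min_eq_left h, add_comm]
    · simp [max_eq_left h, min_eq_right h]
  refine ⟨?_, ?_, hmax⟩
  · have hW1 : (1 : ℝ) ≤ 2 + (1 / 2) * t ^ 2 - η₀ := by nlinarith [sq_nonneg t]
    have h1 := avg_of_rms hA hB hW
    have h2 : (1 : ℝ) ≤ 1 + (1 / 2) * t ^ 2 := by nlinarith [sq_nonneg t]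
    have h3 := sqrt_sub_ge h2 hη₀ (by linarith)
    have h4 : 2 + (1 / 2) * t ^ 2 - η₀ - 1 = 1 + (1 / 2) * t ^ 2 - η₀ := by ring
    rw [h4] at h1
    -- main inequality
    have h5 : Real.sqrt (1 + t ^ 2 / 12) ≤ (1 + Real.sqrt (1 + (1 / 2) * t ^ 2)) / 2 := by
      apply Real.sqrt_le_iff.mpr
      constructor
      · positivity
      · have hs := Real.sq_sqrt (show (0:ℝ) ≤ 1 + (1 / 2) * t ^ 2 by positivity)
        have hs2 := Real.sqrt_nonneg (1 + (1 / 2) * t ^ 2)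
        have hs3 : 1 ≤ Real.sqrt (1 + (1 / 2) * t ^ 2) := Real.one_le_sqrt.mpr h2
        nlinarith [sq_nonneg t]
    linarith
  · have h1 : (Real.sqrt (1 + t ^ 2 / 4) - η₀ + 1) / 2 ≤ (A + B) / 2 := by
      rw [hsum]
      linarith
    linarith

/-- The three bounds for a single unit centre. -/
theorem RMSSq.core (h : RMSSq X) {t : ℝ} (ht : 0 < t) (x : X) (hx : ‖x‖ = 1) (η : ℝ) (hη : 0 < η) :
    ∃ F : Set X, Cof F ∧ ∀ y ∈ F, ‖y‖ = 1 →
      Real.sqrt (1 + t ^ 2 / 12) - η ≤ (‖x + t • y‖ + ‖x - t • y‖) / 2 ∧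
      (Real.sqrt (1 + t ^ 2 / 4) - 1) / 2 - η + 1 ≤ (‖x + t • y‖ + ‖x - t • y‖) / 2 ∧
      Real.sqrt (1 + t ^ 2 / 4) - η ≤ max ‖x + t • y‖ ‖x - t • y‖ := by
  obtain ⟨η₀, hη₀⟩ : ∃ η₀ : ℝ, η₀ = min η 1 := ⟨_, rfl⟩
  have h0 : 0 < η₀ := by rw [hη₀]; exact lt_min hη one_pos
  have h1 : η₀ ≤ 1 := by rw [hη₀]; exact min_le_right _ _
  have h2 : η₀ ≤ η := by rw [hη₀]; exact min_le_left _ _
  obtain ⟨F, hF, hFy⟩ := h.with_ker x (η₀ / (1 + t)) (by positivity)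
  refine ⟨F, hF, fun y hy hyn => ?_⟩
  obtain ⟨h3, h4, h5⟩ := hFy (t • y) (hF.smul_mem hy t)
  have hnorm : ‖t • y‖ = t := by rw [norm_smul, hyn, mul_one, Real.norm_eq_abs, abs_of_pos ht]
  rw [hnorm, hx] at h3
  rw [hx] at h4 h5
  have h6 : η₀ / (1 + t) * (1 + t) = η₀ := by field_simp
  rw [h6] at h3
  have := three_bounds ht h4 h5 h0.le h1 (by nlinarith)
  obtain ⟨h7, h8, h9⟩ := this
  exact ⟨by linarith, by linarith, by linarith⟩

/-- The moduli statements of S0166. -/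
theorem RMSSq.moduli [CompleteSpace X] (h : RMSSq X) (t : ℝ) (ht : 0 < t) :
    (mkRB X).MidpointModulusGE (mkRB X).norm t (Real.sqrt (1 + t ^ 2 / 12) - 1) ∧
      (mkRB X).MidpointModulusGE (mkRB X).norm t ((Real.sqrt (1 + t ^ 2 / 4) - 1) / 2) ∧
      (mkRB X).MaxMidpointModulusGE (mkRB X).norm t (Real.sqrt (1 + t ^ 2 / 4) - 1) := by
  refine ⟨?_, ?_, ?_⟩
  · intro x hx η hη
    obtain ⟨F, hF, hFy⟩ := h.core ht x hx η hη
    refine ⟨F, hF, fun y hy hyn => ?_⟩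
    have := (hFy y hy hyn).1
    show _ ≤ (‖x + t • y‖ + ‖x - t • y‖) / 2 - 1
    linarith
  · intro x hx η hη
    obtain ⟨F, hF, hFy⟩ := h.core ht x hx η hη
    refine ⟨F, hF, fun y hy hyn => ?_⟩
    have := (hFy y hy hyn).2.1
    show _ ≤ (‖x + t • y‖ + ‖x - t • y‖) / 2 - 1
    linarith
  · intro x hx η hη
    obtain ⟨F, hF, hFy⟩ := h.core ht x hx η hη
    refine ⟨F, hF, fun y hy hyn => ?_⟩
    have := (hFy y hy hyn).2.2
    show _ ≤ max ‖x + t • y‖ ‖x - t • y‖ - 1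
    linarith

end Crest.Agent.S0166Lib

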