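import Mathlib
import Crest.Prelude.Def_Diamond
import Crest.Agent.S0166Lib.Abstract

/-!
# S0166: the diamond graphs

Blueprint. `OneLip k ψ`: `ψ` changes by at most one along every edge of `D k`.
Since `D k` is connected, `|ψ u - ψ v| ≤ dist u v`.  Lifting: `ψ' (inl v) = 2 ψ v`,
`ψ' (inr (e, i)) = ψ (src e) + ψ (tgt e)`.

`LowerB k τ g`: `τ |ψ u - ψ v| ≤ ‖g u - g v‖` for every `OneLip ψ`.

Main induction (`P k`): `LowerB k τ g`, all edges of `g` of norm `≤ B`, imply `τ²(1 + k/4) ≤ B²`.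
Step: `f` on `D (k+1)`: `g = f ∘ inl` has `LowerB k (2τ)`; midpoint lemma from `RMSSq`:
for an edge `e` of `D k` with endpoints `a, b` and midpoints `c n`,
`‖a - b‖²/4 + τ²/4 ≤ B²`.
-/

set_option autoImplicit false

namespace Crest.Agent.S0166Lib

open Crest.AnalysisR Crest.Agent.AUCGame

section graph

/-- Old vertices in the next diamond. -/
def vinl {k : ℕ} (v : DiamondVertex k) : DiamondVertex (k + 1) := Sum.inl v

/-- Midpoints in the next diamond. -/
def vinr {k : ℕ} (e : DiamondEdge k) (i : ℕ) : DiamondVertex (k + 1) := Sum.inr (e, i)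

/-- First half of a subdivided edge. -/
def eL {k : ℕ} (e : DiamondEdge k) (i : ℕ) : DiamondEdge (k + 1) := (e, i, false)

/-- Second half of a subdivided edge. -/
def eR {k : ℕ} (e : DiamondEdge k) (i : ℕ) : DiamondEdge (k + 1) := (e, i, true)

theorem src_eL {k : ℕ} (e : DiamondEdge k) (i : ℕ) :
    diamondSrc (k + 1) (eL e i) = vinl (diamondSrc k e) := rfl

theorem tgt_eL {k : ℕ} (e : DiamondEdge k) (i : ℕ) :
    diamondTgt (k + 1) (eL e i) = vinr e i := rfl

theorem src_eR {k : ℕ} (e : DiamondEdge k) (i : ℕ) :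
    diamondSrc (k + 1) (eR e i) = vinr e i := rfl

theorem tgt_eR {k : ℕ} (e : DiamondEdge k) (i : ℕ) :
    diamondTgt (k + 1) (eR e i) = vinl (diamondTgt k e) := rfl

theorem vertex_cases {k : ℕ} (w : DiamondVertex (k + 1)) :
    (∃ v, w = vinl v) ∨ (∃ e i, w = vinr e i) := by
  rcases w with v | ⟨e, i⟩
  · exact Or.inl ⟨v, rfl⟩
  · exact Or.inr ⟨e, i, rfl⟩

theorem edge_cases {k : ℕ} (e' : DiamondEdge (k + 1)) :
    ∃ e i, e' = eL e i ∨ e' = eR e i := by
  rcases e' with ⟨e, i, b⟩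
  cases b
  · exact ⟨e, i, Or.inl rfl⟩
  · exact ⟨e, i, Or.inr rfl⟩

theorem vinl_ne_vinr {k : ℕ} (v : DiamondVertex k) (e : DiamondEdge k) (i : ℕ) :
    vinl v ≠ vinr e i := Sum.inl_ne_inr

theorem vinr_inj {k : ℕ} {e e' : DiamondEdge k} {i j : ℕ} (h : vinr e i = vinr e' j) :
    e = e' ∧ i = j := by
  have : ((e, i) : DiamondEdge k × ℕ) = (e', j) := Sum.inr_injective h
  simpa using this

theorem diamond_nonempty_edge : ∀ k : ℕ, Nonempty (DiamondEdge k)
  | 0 => ⟨()⟩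
  | k + 1 => ⟨eL (diamond_nonempty_edge k).some 0⟩

/-- `ψ` changes by at most one along every edge. -/
def OneLip (k : ℕ) (ψ : DiamondVertex k → ℝ) : Prop :=
  ∀ e : DiamondEdge k, |ψ (diamondSrc k e) - ψ (diamondTgt k e)| ≤ 1

theorem diamond_src_ne_tgt : ∀ (k : ℕ) (e : DiamondEdge k), diamondSrc k e ≠ diamondTgt k e
  | 0, _ => by
    show (false : Bool) ≠ true
    decide
  | k + 1, e' => by
    obtain ⟨e, i, rfl | rfl⟩ := edge_cases e'
    · rw [src_eL, tgt_eL]; exact vinl_ne_vinr _ _ _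
    · rw [src_eR, tgt_eR]; exact (vinl_ne_vinr _ _ _).symm

theorem diamond_adj_of_edge (k : ℕ) (e : DiamondEdge k) :
    (diamondGraph k).Adj (diamondSrc k e) (diamondTgt k e) := by
  rw [diamondGraph, SimpleGraph.fromRel_adj]
  exact ⟨diamond_src_ne_tgt k e, Or.inl ⟨e, rfl, rfl⟩⟩

theorem diamond_edge_of_adj (k : ℕ) {u v : DiamondVertex k} (h : (diamondGraph k).Adj u v) :
    ∃ e : DiamondEdge k, (diamondSrc k e = u ∧ diamondTgt k e = v) ∨
      (diamondSrc k e = v ∧ diamondTgt k e = u) := by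
  rw [diamondGraph, SimpleGraph.fromRel_adj] at h
  rcases h.2 with ⟨e, h1, h2⟩ | ⟨e, h1, h2⟩
  · exact ⟨e, Or.inl ⟨h1, h2⟩⟩
  · exact ⟨e, Or.inr ⟨h1, h2⟩⟩

theorem diamond_reachable_lift (k : ℕ) {u v : DiamondVertex k}
    (h : (diamondGraph k).Reachable u v) :
    (diamondGraph (k + 1)).Reachable (vinl u) (vinl v) := by
  obtain ⟨p⟩ := h
  induction p with
  | nil => exact SimpleGraph.Reachable.refl _
  | @cons a b c hab _ ih =>
    refine SimpleGraph.Reachable.trans ?_ ih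
    obtain ⟨e, he⟩ := diamond_edge_of_adj k hab
    have h1 := (diamond_adj_of_edge (k + 1) (eL e 0))
    have h2 := (diamond_adj_of_edge (k + 1) (eR e 0))
    rw [src_eL, tgt_eL] at h1
    rw [src_eR, tgt_eR] at h2
    have h3 : (diamondGraph (k + 1)).Reachable (vinl (diamondSrc k e)) (vinl (diamondTgt k e)) :=
      h1.reachable.trans h2.reachable
    rcases he with ⟨rfl, rfl⟩ | ⟨rfl, rfl⟩
    · exact h3
    · exact h3.symm

theorem diamond_reachable : ∀ (k : ℕ) (u v : DiamondVertex k), (diamondGraph k).Reachable u v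
  | 0, u, v => by
    have h : (diamondGraph 0).Reachable (false : Bool) (true : Bool) :=
      (diamond_adj_of_edge 0 ()).reachable
    have key : ∀ b : Bool, (diamondGraph 0).Reachable false b := by
      intro b
      cases b
      · exact SimpleGraph.Reachable.refl _
      · exact h
    exact (key u).symm.trans (key v)
  | k + 1, u, v => by
    have key : ∀ w : DiamondVertex (k + 1), ∃ w' : DiamondVertex k,
        (diamondGraph (k + 1)).Reachable w (vinl w') := by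
      intro w
      rcases vertex_cases w with ⟨v, rfl⟩ | ⟨e, i, rfl⟩
      · exact ⟨v, SimpleGraph.Reachable.refl _⟩
      · refine ⟨diamondSrc k e, ?_⟩
        have h1 := (diamond_adj_of_edge (k + 1) (eL e i))
        rw [src_eL, tgt_eL] at h1
        exact h1.reachable.symm
    obtain ⟨u', hu⟩ := key u
    obtain ⟨v', hv⟩ := key v
    exact hu.trans ((diamond_reachable_lift k (diamond_reachable k u' v')).trans hv.symm)

/-- A one-Lipschitz function is bounded by the graph distance. -/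
theorem OneLip.le_dist {k : ℕ} {ψ : DiamondVertex k → ℝ} (hψ : OneLip k ψ)
    (u v : DiamondVertex k) : |ψ u - ψ v| ≤ (diamondDist k u v : ℝ) := by
  obtain ⟨p, hp⟩ := (diamond_reachable k u v).exists_walk_length_eq_dist
  rw [diamondDist, ← hp]
  clear hp
  induction p with
  | nil => simp
  | @cons a b c hab _ ih =>
    obtain ⟨e, he⟩ := diamond_edge_of_adj k hab
    have h1 : |ψ a - ψ b| ≤ 1 := by
      have := hψ e
      rcases he with ⟨rfl, rfl⟩ | ⟨rfl, rfl⟩
      · exact this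
      · rwa [abs_sub_comm]
    have h2 : |ψ a - ψ c| ≤ |ψ a - ψ b| + |ψ b - ψ c| := abs_sub_le _ _ _
    simp only [SimpleGraph.Walk.length_cons]
    push_cast
    linarith

/-- Lifting a one-Lipschitz function to the next diamond. -/
def liftLip (k : ℕ) (ψ : DiamondVertex k → ℝ) : DiamondVertex (k + 1) → ℝ :=
  fun w => Sum.elim (fun v => 2 * ψ v) (fun p => ψ (diamondSrc k p.1) + ψ (diamondTgt k p.1))
    (show DiamondVertex k ⊕ (DiamondEdge k × ℕ) from w)

theorem liftLip_vinl (k : ℕ) (ψ : DiamondVertex k → ℝ) (v : DiamondVertex k) :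
    liftLip k ψ (vinl v) = 2 * ψ v := rfl

theorem liftLip_vinr (k : ℕ) (ψ : DiamondVertex k → ℝ) (e : DiamondEdge k) (i : ℕ) :
    liftLip k ψ (vinr e i) = ψ (diamondSrc k e) + ψ (diamondTgt k e) := rfl

theorem OneLip.lift {k : ℕ} {ψ : DiamondVertex k → ℝ} (hψ : OneLip k ψ) :
    OneLip (k + 1) (liftLip k ψ) := by
  intro e'
  obtain ⟨e, i, rfl | rfl⟩ := edge_cases e'
  · have := hψ e
    rw [src_eL, tgt_eL, liftLip_vinl, liftLip_vinr]
    have h : 2 * ψ (diamondSrc k e) - (ψ (diamondSrc k e) + ψ (diamondTgt k e)) =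
        ψ (diamondSrc k e) - ψ (diamondTgt k e) := by ring
    rwa [h]
  · have := hψ e
    rw [src_eR, tgt_eR, liftLip_vinl, liftLip_vinr]
    have h : ψ (diamondSrc k e) + ψ (diamondTgt k e) - 2 * ψ (diamondTgt k e) =
        ψ (diamondSrc k e) - ψ (diamondTgt k e) := by ring
    rwa [h]

open Classical in
/-- The separating function of two midpoints. -/
noncomputable def sepFun (k : ℕ) (e : DiamondEdge k) (n m : ℕ) : DiamondVertex (k + 1) → ℝ :=
  fun v => if v = vinr e n then 1 else if v = vinr e m then -1 else 0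

theorem sepFun_lip (k : ℕ) (e : DiamondEdge k) (n m : ℕ) : OneLip (k + 1) (sepFun k e n m) := by
  have key : ∀ (v : DiamondVertex k) (e₀ : DiamondEdge k) (i : ℕ),
      |sepFun k e n m (vinl v) - sepFun k e n m (vinr e₀ i)| ≤ 1 := by
    intro v e₀ i
    have h0 : sepFun k e n m (vinl v) = 0 := by
      simp only [sepFun]
      rw [if_neg (vinl_ne_vinr _ _ _), if_neg (vinl_ne_vinr _ _ _)]
    rw [h0]
    simp only [sepFun]
    split_ifs <;> norm_num
  intro e'
  obtain ⟨e₀, i, rfl | rfl⟩ := edge_cases e'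
  · rw [src_eL, tgt_eL]
    exact key _ _ _
  · rw [src_eR, tgt_eR, abs_sub_comm]
    exact key _ _ _

theorem sepFun_left (k : ℕ) (e : DiamondEdge k) (n m : ℕ) :
    sepFun k e n m (vinr e n) = 1 := by
  simp [sepFun]

theorem sepFun_right (k : ℕ) (e : DiamondEdge k) {n m : ℕ} (h : n ≠ m) :
    sepFun k e n m (vinr e m) = -1 := by
  have : vinr e m ≠ vinr e n := fun h' => h (vinr_inj h').2.symm
  simp [sepFun, this]

end graph

section map

variable {X : Type} [NormedAddCommGroup X] [NormedSpace ℝ X]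

/-- The abstract lower bound. -/
def LowerB (k : ℕ) (τ : ℝ) (g : DiamondVertex k → X) : Prop :=
  ∀ ψ : DiamondVertex k → ℝ, OneLip k ψ → ∀ u v, τ * |ψ u - ψ v| ≤ ‖g u - g v‖

theorem LowerB.restrict {k : ℕ} {τ : ℝ} {f : DiamondVertex (k + 1) → X} (h : LowerB (k + 1) τ f) :
    LowerB k (2 * τ) (fun v => f (vinl v)) := by
  intro ψ hψ u v
  have := h (liftLip k ψ) hψ.lift (vinl u) (vinl v)
  rw [liftLip_vinl, liftLip_vinl] at this
  have h2 : |2 * ψ u - 2 * ψ v| = 2 * |ψ u - ψ v| := by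
    rw [← mul_sub, abs_mul]; simp
  rw [h2] at this
  linarith

theorem LowerB.sep {k : ℕ} {τ : ℝ} (hτ : 0 ≤ τ) {f : DiamondVertex (k + 1) → X}
    (h : LowerB (k + 1) τ f) (e : DiamondEdge k) {n m : ℕ} (hnm : n ≠ m) :
    2 * τ ≤ ‖f (vinr e n) - f (vinr e m)‖ := by
  have := h (sepFun k e n m) (sepFun_lip k e n m) (vinr e n) (vinr e m)
  rw [sepFun_left, sepFun_right k e hnm] at this
  norm_num at this
  linarith

theorem nhalf : ‖(1 / 2 : ℝ)‖ = 1 / 2 := by norm_num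

/-- Pigeonhole in a cofinite-dimensional quotient. -/
theorem pigeon {F : Set X} (hF : Cof F) {w : ℕ → X} {R : ℝ} (hw : ∀ n, ‖w n‖ ≤ R) {ε : ℝ}
    (hε : 0 < ε) : ∃ n m, n ≠ m ∧ ∃ v : X, ‖v‖ < ε ∧ (1 / 2 : ℝ) • (w n - w m) - v ∈ F := by
  obtain ⟨S, hSF, hcl, hfd⟩ := hF
  have : IsClosed (S : Set X) := by rw [hSF]; exact hcl
  have : FiniteDimensional ℝ (X ⧸ S) := hfd
  have : ProperSpace (X ⧸ S) := FiniteDimensional.proper_real _
  have hbd : ∀ n, S.mkQ (w n) ∈ Metric.closedBall (0 : X ⧸ S) R := by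
    intro n
    simp only [Metric.mem_closedBall, dist_zero_right]
    exact (Submodule.Quotient.norm_mk_le S _).trans (hw n)
  obtain ⟨q, -, φ, hφ, hlim⟩ := tendsto_subseq_of_bounded Metric.isBounded_closedBall hbd
  have hC := hlim.cauchySeq
  obtain ⟨I, hI⟩ := (Metric.cauchySeq_iff.mp hC) ε hε
  refine ⟨φ I, φ (I + 1), hφ.injective.ne (by omega), ?_⟩
  have hq : ‖S.mkQ (w (φ I)) - S.mkQ (w (φ (I + 1)))‖ < ε := by
    have := hI I le_rfl (I + 1) (by omega)
    simpa [dist_eq_norm] using this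
  have hzq : ‖S.mkQ ((1 / 2 : ℝ) • (w (φ I) - w (φ (I + 1))))‖ < ε := by
    have : S.mkQ ((1 / 2 : ℝ) • (w (φ I) - w (φ (I + 1))))
        = (1 / 2 : ℝ) • (S.mkQ (w (φ I)) - S.mkQ (w (φ (I + 1)))) := by
      rw [map_smul, map_sub]
    rw [this, norm_smul, nhalf]
    have h0 := norm_nonneg (S.mkQ (w (φ I)) - S.mkQ (w (φ (I + 1))))
    linarith
  obtain ⟨v, hv, hvn⟩ := Submodule.Quotient.norm_mk_lt (S.mkQ ((1 / 2 : ℝ) • (w (φ I) - w (φ (I + 1)))))
    (sub_pos.mpr hzq)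
  refine ⟨v, by linarith, ?_⟩
  rw [← hSF]
  have h1 : S.mkQ v = S.mkQ ((1 / 2 : ℝ) • (w (φ I) - w (φ (I + 1)))) := hv
  have h2 : S.mkQ ((1 / 2 : ℝ) • (w (φ I) - w (φ (I + 1))) - v) = 0 := by
    rw [map_sub, h1, sub_self]
  exact (Submodule.Quotient.mk_eq_zero S).mp h2

/-- Arithmetic final step of the midpoint lemma. -/
theorem midpoint_arith {x2 τ B ε δ η A B' Y : ℝ} (hτ : 0 ≤ τ) (hB0 : 0 ≤ B) (hε0 : 0 < ε) (hε1 : ε ≤ 1)
    (hεK : ε * (τ + 2 * B + 1) ≤ δ / 2) (hY0 : 0 ≤ Y)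
    (h1 : 2 * x2 + 1 / 2 * Y ^ 2 - η ≤ A ^ 2 + B' ^ 2)
    (hA0 : 0 ≤ A) (hB'0 : 0 ≤ B') (hA : A ≤ B + ε) (hB' : B' ≤ B + ε)
    (hη : η ≤ δ) (hY : τ - ε ≤ Y) : x2 + τ ^ 2 / 4 ≤ B ^ 2 + δ := by
  have hysq : τ ^ 2 - 2 * τ * ε ≤ Y ^ 2 := by
    by_cases hc : τ - ε ≤ 0
    · have : τ * (τ - 2 * ε) ≤ 0 := by
        apply mul_nonpos_of_nonneg_of_nonpos hτ
        linarith
      nlinarith [sq_nonneg Y]
    · push Not at hc
      nlinarith
  have hs1 : A ^ 2 ≤ (B + ε) ^ 2 := by gcongr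
  have hs2 : B' ^ 2 ≤ (B + ε) ^ 2 := by gcongr
  have hbig : (B + ε) ^ 2 ≤ B ^ 2 + ε * (2 * B + 1) := by nlinarith
  have hmain : 2 * x2 + (1 / 2) * (τ ^ 2 - 2 * τ * ε) - δ ≤ 2 * (B ^ 2 + ε * (2 * B + 1)) := by
    linarith
  have hfin : ε * τ + ε * (2 * B + 1) = ε * (τ + 2 * B + 1) := by ring
  have h9 : 0 ≤ ε * τ := by positivity
  linarith

/-- The midpoint lemma: from an infinite family of separated midpoints. -/
theorem midpoint_lemma (hX : RMSSq X) {a b : X} {c : ℕ → X} {τ B : ℝ} (hτ : 0 ≤ τ)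
    (hB1 : ∀ n, ‖a - c n‖ ≤ B) (hB2 : ∀ n, ‖c n - b‖ ≤ B)
    (hsep : ∀ n m, n ≠ m → 2 * τ ≤ ‖c n - c m‖) :
    ‖a - b‖ ^ 2 / 4 + τ ^ 2 / 4 ≤ B ^ 2 := by
  have hB0 : 0 ≤ B := (norm_nonneg _).trans (hB1 0)
  obtain ⟨x, hx⟩ : ∃ x : X, x = (1 / 2 : ℝ) • (b - a) := ⟨_, rfl⟩
  have hxn : ‖x‖ = ‖a - b‖ / 2 := by
    rw [hx, norm_smul, norm_sub_rev, nhalf]; ring
  obtain ⟨w, hw⟩ : ∃ w : ℕ → X, w = fun n => c n - (1 / 2 : ℝ) • (a + b) := ⟨_, rfl⟩
  have hwbd : ∀ n, ‖w n‖ ≤ B + ‖x‖ := by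
    intro n
    have e1 : w n = -(a - c n) - x := by
      simp only [hw, hx]
      module
    rw [e1]
    refine (norm_sub_le _ _).trans ?_
    rw [norm_neg]
    linarith [hB1 n]
  have key : ∀ δ : ℝ, 0 < δ → ‖x‖ ^ 2 + τ ^ 2 / 4 ≤ B ^ 2 + δ := by
    intro δ hδ
    obtain ⟨R, hR⟩ : ∃ R : ℝ, R = B + ‖x‖ + 1 := ⟨_, rfl⟩
    have hR0 : 0 < R := by rw [hR]; positivity
    obtain ⟨η, hη⟩ : ∃ η : ℝ, η = δ / (1 + R) := ⟨_, rfl⟩
    have hη0 : 0 < η := by rw [hη]; positivity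
    have hK0 : 0 < τ + 2 * B + 1 := by positivity
    obtain ⟨ε, hε⟩ : ∃ ε : ℝ, ε = min 1 (δ / 2 / (τ + 2 * B + 1)) := ⟨_, rfl⟩
    have hε0 : 0 < ε := by rw [hε]; exact lt_min one_pos (by positivity)
    have hε1 : ε ≤ 1 := by rw [hε]; exact min_le_left _ _
    have hε2 : ε * (τ + 2 * B + 1) ≤ δ / 2 := by
      have : ε ≤ δ / 2 / (τ + 2 * B + 1) := by rw [hε]; exact min_le_right _ _
      rwa [le_div_iff₀ hK0] at this
    obtain ⟨F, hF, hFy⟩ := hX x η hη0
    obtain ⟨n, m, hnm, v, hvn, hyS⟩ := pigeon hF hwbd hε0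
    obtain ⟨z, hz⟩ : ∃ z : X, z = (1 / 2 : ℝ) • (w n - w m) := ⟨_, rfl⟩
    rw [← hz] at hyS
    obtain ⟨y, hy⟩ : ∃ y : X, y = z - v := ⟨_, rfl⟩
    rw [← hy] at hyS
    have h1 := hFy y hyS
    have hzlow : τ ≤ ‖z‖ := by
      have h2 := hsep n m hnm
      have h3 : w n - w m = c n - c m := by simp [hw]
      rw [hz, h3, norm_smul, nhalf]
      linarith
    have hzup : ‖z‖ ≤ B + ‖x‖ := by
      rw [hz, norm_smul, nhalf]
      have := norm_sub_le (w n) (w m)
      have h2 := hwbd n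
      have h3 := hwbd m
      linarith
    have hxz1 : ‖x + z‖ ≤ B := by
      have e1 : x + z = (1 / 2 : ℝ) • (-(a - c n) + -(c m - b)) := by
        simp only [hx, hz, hw]
        module
      rw [e1, norm_smul, nhalf]
      have h2 := norm_add_le (-(a - c n)) (-(c m - b))
      rw [norm_neg, norm_neg] at h2
      have h3 := hB1 n
      have h4 := hB2 m
      linarith
    have hxz2 : ‖x - z‖ ≤ B := by
      have e1 : x - z = (1 / 2 : ℝ) • (-(c n - b) + -(a - c m)) := by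
        simp only [hx, hz, hw]
        module
      rw [e1, norm_smul, nhalf]
      have h2 := norm_add_le (-(c n - b)) (-(a - c m))
      rw [norm_neg, norm_neg] at h2
      have h3 := hB2 n
      have h4 := hB1 m
      linarith
    have hy1 : ‖x + y‖ ≤ B + ε := by
      have e1 : x + y = (x + z) - v := by rw [hy]; abel
      rw [e1]
      have := norm_sub_le (x + z) v
      linarith
    have hy2 : ‖x - y‖ ≤ B + ε := by
      have e1 : x - y = (x - z) + v := by rw [hy]; abel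
      rw [e1]
      have := norm_add_le (x - z) v
      linarith
    have hylow : τ - ε ≤ ‖y‖ := by
      have := norm_sub_norm_le z v
      rw [← hy] at this
      linarith
    have hyup : ‖y‖ ≤ R := by
      have := norm_sub_le z v
      rw [← hy] at this
      rw [hR]
      linarith
    have herr : η * (1 + ‖y‖) ≤ δ := by
      have h0 : η * (1 + ‖y‖) ≤ η * (1 + R) := by
        gcongr
      have h5 : η * (1 + R) = δ := by
        rw [hη]; field_simp
      linarith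
    exact midpoint_arith hτ hB0 hε0 hε1 hε2 (norm_nonneg y) h1 (norm_nonneg _) (norm_nonneg _) hy1 hy2 herr hylow
  have hle : ‖x‖ ^ 2 + τ ^ 2 / 4 ≤ B ^ 2 := le_of_forall_pos_le_add key
  rw [hxn] at hle
  have e : (‖a - b‖ / 2) ^ 2 = ‖a - b‖ ^ 2 / 4 := by ring
  rw [e] at hle
  exact hle

/-- The main induction. -/
theorem diamond_main (hX : RMSSq X) : ∀ (k : ℕ) (τ B : ℝ) (g : DiamondVertex k → X),
    0 ≤ τ → LowerB k τ g →
    (∀ e : DiamondEdge k, ‖g (diamondSrc k e) - g (diamondTgt k e)‖ ≤ B) →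
    τ ^ 2 * (1 + (k : ℝ) / 4) ≤ B ^ 2
  | 0, τ, B, g, hτ, hg, hB => by
    have h1 : ‖g (false : Bool) - g (true : Bool)‖ ≤ B := hB ()
    let ψ : DiamondVertex 0 → ℝ := fun v => cond (show Bool from v) 1 0
    have hψ : OneLip 0 ψ := by
      intro e
      show |ψ (false : Bool) - ψ (true : Bool)| ≤ 1
      simp [ψ]
    have h2 := hg ψ hψ (true : Bool) (false : Bool)
    have e1 : ψ (true : Bool) = 1 := rfl
    have e2 : ψ (false : Bool) = 0 := rfl
    rw [e1, e2] at h2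
    norm_num at h2
    rw [norm_sub_rev] at h1
    have h3 : τ ≤ B := h2.trans h1
    simp only [Nat.cast_zero, zero_div, add_zero, mul_one]
    gcongr
  | k + 1, τ, B, f, hτ, hf, hB => by
    -- midpoint lemma on each edge of `D k`
    have hmid : ∀ e : DiamondEdge k,
        ‖f (vinl (diamondSrc k e)) - f (vinl (diamondTgt k e))‖ ^ 2 / 4 + τ ^ 2 / 4 ≤ B ^ 2 := by
      intro e
      refine midpoint_lemma hX (c := fun n => f (vinr e n)) hτ ?_ ?_ ?_
      · intro n
        have := hB (eL e n)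
        rwa [src_eL, tgt_eL] at this
      · intro n
        have := hB (eR e n)
        rwa [src_eR, tgt_eR] at this
      · intro n m hnm
        exact hf.sep hτ e hnm
    set C : ℝ := Real.sqrt (4 * B ^ 2 - τ ^ 2) with hC
    have hC1 : ∀ e : DiamondEdge k,
        ‖f (vinl (diamondSrc k e)) - f (vinl (diamondTgt k e))‖ ≤ C := by
      intro e
      apply Real.le_sqrt_of_sq_le
      have := hmid e
      linarith
    have hrec := diamond_main hX k (2 * τ) C (fun v => f (vinl v)) (by positivity) hf.restrict hC1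
    have hC2 : 0 ≤ 4 * B ^ 2 - τ ^ 2 := by
      obtain ⟨e⟩ := diamond_nonempty_edge k
      have := hmid e
      have h0 := sq_nonneg ‖f (vinl (diamondSrc k e)) - f (vinl (diamondTgt k e))‖
      linarith
    rw [hC, Real.sq_sqrt hC2] at hrec
    push_cast
    nlinarith

/-- The distortion bound. -/
theorem distortion_bound (hX : RMSSq X) [CompleteSpace X] (k : ℕ) (f : DiamondVertex k → X) (D : ℝ)
    (hf : (mkRB X).HasDistortionLE k f D) : 1 + (k : ℝ) / 4 ≤ D ^ 2 := by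
  obtain ⟨s, hs, hfs⟩ := hf
  have hfs' : ∀ u v : DiamondVertex k, s * (diamondDist k u v : ℝ) ≤ ‖f u - f v‖ ∧
      ‖f u - f v‖ ≤ D * s * (diamondDist k u v : ℝ) := hfs
  have hLB : LowerB k s f := by
    intro ψ hψ u v
    have h1 := hψ.le_dist u v
    have h2 := (hfs' u v).1
    have h3 : s * |ψ u - ψ v| ≤ s * (diamondDist k u v : ℝ) := by gcongr
    linarith
  have hedge : ∀ e : DiamondEdge k, ‖f (diamondSrc k e) - f (diamondTgt k e)‖ ≤ D * s := by
    intro e
    have h1 := (hfs' (diamondSrc k e) (diamondTgt k e)).2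
    have h2 : diamondDist k (diamondSrc k e) (diamondTgt k e) = 1 := by
      rw [diamondDist, SimpleGraph.dist_eq_one_iff_adj]
      exact diamond_adj_of_edge k e
    rw [h2] at h1
    simpa using h1
  have h := diamond_main hX k s (D * s) f hs.le hLB hedge
  have h2 : s ^ 2 * (1 + (k : ℝ) / 4) ≤ s ^ 2 * D ^ 2 := by
    calc s ^ 2 * (1 + (k : ℝ) / 4) ≤ (D * s) ^ 2 := h
      _ = s ^ 2 * D ^ 2 := by ring
  exact le_of_mul_le_mul_left h2 (by positivity)

end map

end Crest.Agent.S0166Lib
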