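import Crest.Agent.S0166Lib.Reflexive
import Crest.Agent.S0166Lib.Diamond
import Crest.Agent.S0166Lib.Abstract

/-!
# Separability, infinite dimension, the moduli and the squared RMS property
-/

set_option autoImplicit false

namespace Crest.Agent.S0166Lib

open Crest.AnalysisR Crest.AnalysisR.TreePotential Crest.Agent.AUCGame

lemma sibling_sum_le (k : ℕ) (r : List ℕ) (A : Finset ℕ) :
    ‖∑ n ∈ A, uu k (n :: r)‖ ≤ 1 * Real.sqrt A.card := by
  classical
  have := norm_sum_uu_sq_le k (A.image (fun n => n :: r)) (fun _ => 1)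
  have hi : Function.Injective (fun n : ℕ => n :: r) := fun a b h => by
    simpa using (List.cons.inj h).1
  rw [Finset.sum_image (fun a _ b _ h => hi h), Finset.sum_image (fun a _ b _ h => hi h)] at this
  simp only [one_smul, one_pow, Finset.sum_const, mul_one, nsmul_eq_mul] at this
  rw [one_mul]
  exact Real.le_sqrt_of_sq_le this

lemma xx_not_finiteDimensional : ¬ FiniteDimensional ℝ XX :=
  not_finiteDimensional_of_sqrt_bound (fun n => uu 1 [n]) 1 1 one_pos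
    (fun n => one_le_norm_uu (by simp)) (sibling_sum_le 1 [])

instance xx_separable : TopologicalSpace.SeparableSpace XX := by
  have hc : uSet.Countable := by
    refine (Set.countable_range (fun p : ℕ × List ℕ => uu p.1 p.2)).mono ?_
    rintro _ ⟨k, s, -, rfl⟩
    exact ⟨(k, s), rfl⟩
  have hs : TopologicalSpace.IsSeparable (Submodule.span ℝ uSet : Set XX) := hc.isSeparable.span
  have h2 := hs.closure
  rw [dense_span_uSet.closure_eq] at h2
  exact TopologicalSpace.isSeparable_univ_iff.1 h2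

/-- The squared RMS property of the space. -/
lemma xx_rmsSq : RMSSq XX := by
  intro x η hη
  set η' := η / (2 * ‖x‖ + 1) with hη'
  have hpos : 0 < 2 * ‖x‖ + 1 := by positivity
  have hη'0 : 0 < η' := by positivity
  obtain ⟨S, hcl, hfd, hS⟩ := rms x hη'0
  refine ⟨(S : Set XX), ⟨S, rfl, hcl, hfd⟩, fun y hy => ?_⟩
  have h1 := hS y hy
  set W := Real.sqrt (4 * ‖x‖ ^ 2 + ‖y‖ ^ 2) with hW
  have hW0 : 0 ≤ W := Real.sqrt_nonneg _
  have hWW : W ^ 2 = 4 * ‖x‖ ^ 2 + ‖y‖ ^ 2 := Real.sq_sqrt (by positivity)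
  set a := ‖x + y‖ with ha
  set b := ‖x - y‖ with hb
  have ha0 : 0 ≤ a := norm_nonneg _
  have hb0 : 0 ≤ b := norm_nonneg _
  have hWle : W ≤ 2 * ‖x‖ + ‖y‖ := by
    rw [hW]
    refine Real.sqrt_le_iff.2 ⟨by positivity, ?_⟩
    nlinarith [norm_nonneg x, norm_nonneg y, mul_nonneg (norm_nonneg x) (norm_nonneg y)]
  have hkey : W ^ 2 / 2 - η' * W ≤ a ^ 2 + b ^ 2 := by
    by_cases hv : 0 ≤ W - η'
    · have h2 : (W - η') ^ 2 ≤ (a + b) ^ 2 := pow_le_pow_left₀ hv h1 2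
      nlinarith [sq_nonneg (a - b), sq_nonneg η']
    · push Not at hv
      have : W * (W / 2 - η') ≤ 0 := mul_nonpos_of_nonneg_of_nonpos hW0 (by linarith)
      nlinarith [sq_nonneg a, sq_nonneg b]
  have hη'W : η' * W ≤ η * (1 + ‖y‖) := by
    calc η' * W ≤ η' * (2 * ‖x‖ + ‖y‖) := mul_le_mul_of_nonneg_left hWle hη'0.le
      _ ≤ η' * ((2 * ‖x‖ + 1) * (1 + ‖y‖)) := by
          refine mul_le_mul_of_nonneg_left ?_ hη'0.le
          nlinarith [norm_nonneg x, norm_nonneg y, mul_nonneg (norm_nonneg x) (norm_nonneg y)]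
      _ = η * (1 + ‖y‖) := by
          rw [hη']; field_simp
  have : 2 * ‖x‖ ^ 2 + 1 / 2 * ‖y‖ ^ 2 = W ^ 2 / 2 := by rw [hWW]; ring
  linarith

/-- Moduli bound at a pair. -/
lemma xx_avg {x : XX} (hx : ‖x‖ = 1) {η : ℝ} (hη : 0 < η) :
    ∃ S : Submodule ℝ XX, IsClosed (S : Set XX) ∧ FiniteDimensional ℝ (XX ⧸ S) ∧
      ∀ y ∈ S, ∀ t : ℝ, 0 < t → ‖y‖ = 1 →
        Real.sqrt (1 + t ^ 2 / 4) - η / 2 ≤ (‖x + t • y‖ + ‖x - t • y‖) / 2 := by
  obtain ⟨S, hcl, hfd, hS⟩ := rms x hη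
  refine ⟨S, hcl, hfd, fun y hy t ht hy1 => ?_⟩
  have h1 := hS (t • y) (S.smul_mem t hy)
  have e : Real.sqrt (4 * ‖x‖ ^ 2 + ‖t • y‖ ^ 2) = 2 * Real.sqrt (1 + t ^ 2 / 4) := by
    rw [hx, norm_smul, hy1, Real.norm_of_nonneg ht.le]
    have : (4 : ℝ) * 1 ^ 2 + (t * 1) ^ 2 = 2 ^ 2 * (1 + t ^ 2 / 4) := by ring
    rw [this, Real.sqrt_mul (by norm_num), Real.sqrt_sq (by norm_num)]
  rw [e] at h1
  linarith

end Crest.Agent.S0166Lib
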