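import Mathlib
import Crest.Prelude.Def_AsymptoticConvexity
import Crest.Prelude.Def_Diamond
import Crest.Prelude.Def_TreePotentials

/-!
# The space of S0166: the ℓ²-sum of height-`k` tree spaces, realised in one sup-norm

Vertices: pairs `(k, s)`, `k : ℕ` the component, `s : List ℕ` a vertex of the countably branching
tree of height `k` (valid when `s.length ≤ k`).  A test is a coefficient family `h k s` with a
budget `c k` per component, `∑ c k ^ 2 ≤ 1`, potentials on component `k` bounded by `c k`, and square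
sum on component `k` bounded by `c k ^ 2`.  The space is the closure of the span of the coordinate
vectors (valid vertices only) inside the bounded functions on the test set.
-/

set_option autoImplicit false

namespace Crest.Agent.S0166Lib

open Crest.AnalysisR Crest.AnalysisR.TreePotential
open scoped ENNReal

/-- A test: a coefficient family with component budgets. -/
def IsTest (h : ℕ → List ℕ → ℝ) : Prop :=
  ∃ c : ℕ → ℝ, (∀ k, 0 ≤ c k) ∧ (∀ K : Finset ℕ, ∑ k ∈ K, c k ^ 2 ≤ 1) ∧
    ∀ k, (∀ s, |pathPotential (h k) s| ≤ c k) ∧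
      ∀ A : Finset (List ℕ), ∑ s ∈ A, h k s ^ 2 ≤ c k ^ 2

/-- The test set. -/
def Test : Type := {h : ℕ → List ℕ → ℝ // IsTest h}

lemma IsTest.abs_le_one {h : ℕ → List ℕ → ℝ} (hh : IsTest h) (k : ℕ) (s : List ℕ) :
    |h k s| ≤ 1 := by
  obtain ⟨c, h0, h1, h2⟩ := hh
  have a1 := (h2 k).2 {s}
  have a2 := h1 {k}
  simp only [Finset.sum_singleton] at a1 a2
  have : h k s ^ 2 ≤ 1 := a1.trans a2
  exact (sq_le_one_iff_abs_le_one _).1 this

/-- the zero test -/
lemma isTest_zero : IsTest (fun _ _ => 0) := by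
  refine ⟨fun _ => 0, fun _ => le_rfl, fun K => by simp, fun k => ⟨fun s => ?_, fun A => by simp⟩⟩
  have : ∀ s : List ℕ, pathPotential (fun _ => (0 : ℝ)) s = 0 := by
    intro s
    induction s with
    | nil => rfl
    | cons a v ih => simp [pathPotential, ih]
  simp [this]

instance : Nonempty Test := ⟨⟨_, isTest_zero⟩⟩

/-- The ambient Banach space. -/
abbrev Ambient : Type := lp (fun _ : Test => ℝ) ⊤

/-- Coordinate vector of a vertex. -/
noncomputable def coordV (k : ℕ) (s : List ℕ) : Ambient :=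
  ⟨fun h => h.1 k s, memℓp_infty ⟨1, by
    rintro _ ⟨h, rfl⟩
    simpa [Real.norm_eq_abs] using h.2.abs_le_one k s⟩⟩

@[simp] lemma coordV_apply (k : ℕ) (s : List ℕ) (h : Test) : (coordV k s : Test → ℝ) h = h.1 k s := rfl

/-- The generators: coordinate vectors of valid vertices. -/
def gens : Set Ambient := {x | ∃ k s, List.length s ≤ k ∧ x = coordV k s}

/-- The space, as a closed subspace of the ambient space. -/
noncomputable def spaceS : Submodule ℝ Ambient :=
  (Submodule.span ℝ gens).topologicalClosure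

/-- The underlying type of the space. -/
abbrev XX : Type := ↥spaceS

lemma coordV_mem {k : ℕ} {s : List ℕ} (hs : s.length ≤ k) : coordV k s ∈ spaceS :=
  Submodule.le_topologicalClosure _ (Submodule.subset_span ⟨k, s, hs, rfl⟩)

/-- The coordinate vectors inside the space (zero on invalid vertices). -/
noncomputable def uu (k : ℕ) (s : List ℕ) : XX :=
  if hs : s.length ≤ k then ⟨coordV k s, coordV_mem hs⟩ else 0

lemma uu_of_valid {k : ℕ} {s : List ℕ} (hs : s.length ≤ k) :
    uu k s = ⟨coordV k s, coordV_mem hs⟩ := dif_pos hs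

lemma uu_of_invalid {k : ℕ} {s : List ℕ} (hs : ¬ s.length ≤ k) : uu k s = 0 := dif_neg hs

/-- Evaluation at a test, a continuous linear functional of norm at most one. -/
noncomputable def ev (h : Test) : XX →L[ℝ] ℝ :=
  (lp.evalCLM ℝ (fun _ : Test => ℝ) ⊤ h).comp spaceS.subtypeL

@[simp] lemma ev_apply (h : Test) (y : XX) : ev h y = (y : Ambient) h := rfl

lemma abs_ev_le (h : Test) (y : XX) : |ev h y| ≤ ‖y‖ := by
  have := lp.norm_apply_le_norm (p := ⊤) (by simp) (y : Ambient) h
  simpa [Real.norm_eq_abs] using this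

lemma ev_le (h : Test) (y : XX) : ev h y ≤ ‖y‖ := (le_abs_self _).trans (abs_ev_le h y)

lemma ev_uu (h : Test) {k : ℕ} {s : List ℕ} (hs : s.length ≤ k) : ev h (uu k s) = h.1 k s := by
  rw [uu_of_valid hs]; rfl

/-- Norm bound from bounds on all tests. -/
lemma norm_le_of_forall_ev {y : XX} {C : ℝ} (hC : 0 ≤ C) (H : ∀ h, ev h y ≤ C)
    (H' : ∀ h, - ev h y ≤ C) : ‖y‖ ≤ C := by
  have : ‖(y : Ambient)‖ ≤ C := by
    refine lp.norm_le_of_forall_le hC fun h => ?_
    have h1 := H h
    have h2 := H' h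
    simp only [ev_apply] at h1 h2
    rw [Real.norm_eq_abs, abs_le]
    constructor <;> linarith
  simpa using this

/-- The set of valid coordinate vectors in the space. -/
def uSet : Set XX := {x | ∃ k s, List.length s ≤ k ∧ x = uu k s}

lemma exists_lift_span {z : Ambient} (hz : z ∈ Submodule.span ℝ gens) :
    ∃ a ∈ Submodule.span ℝ uSet, (a : Ambient) = z := by
  induction hz using Submodule.span_induction with
  | mem z hz =>
      obtain ⟨k, s, hs, rfl⟩ := hz
      exact ⟨uu k s, Submodule.subset_span ⟨k, s, hs, rfl⟩, by rw [uu_of_valid hs]⟩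
  | zero => exact ⟨0, Submodule.zero_mem _, rfl⟩
  | add a b _ _ ha hb =>
      obtain ⟨a', ha', rfl⟩ := ha
      obtain ⟨b', hb', rfl⟩ := hb
      exact ⟨a' + b', Submodule.add_mem _ ha' hb', rfl⟩
  | smul c a _ ha =>
      obtain ⟨a', ha', rfl⟩ := ha
      exact ⟨c • a', Submodule.smul_mem _ c ha', rfl⟩

lemma dense_span_uSet : Dense (Submodule.span ℝ uSet : Set XX) := by
  rw [Topology.IsInducing.subtypeVal.dense_iff]
  intro x
  have hx : (x : Ambient) ∈ closure ((Submodule.span ℝ gens : Submodule ℝ Ambient) : Set Ambient) := x.2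
  refine closure_mono ?_ hx
  intro z hz
  obtain ⟨a, ha, rfl⟩ := exists_lift_span hz
  exact ⟨a, ha, rfl⟩

/-- Continuous linear maps out of the space are determined by the coordinate vectors. -/
lemma clm_ext {F : Type*} [NormedAddCommGroup F] [NormedSpace ℝ F] {f g : XX →L[ℝ] F}
    (H : ∀ k s, List.length s ≤ k → f (uu k s) = g (uu k s)) : f = g := by
  refine ContinuousLinearMap.ext_on dense_span_uSet ?_
  rintro _ ⟨k, s, hs, rfl⟩
  exact H k s hs

/-- Near-norming tests exist (with sign). -/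
lemma exists_test_near (y : XX) {ε : ℝ} (hε : 0 < ε) : ∃ h : Test, ‖y‖ - ε < |ev h y| := by
  have := lp.isLUB_norm (y : Ambient)
  have h1 : ‖y‖ - ε < ‖(y : Ambient)‖ := by
    have : ‖y‖ = ‖(y : Ambient)‖ := rfl
    rw [← this]; linarith
  obtain ⟨_, ⟨h, rfl⟩, hh⟩ := (lt_isLUB_iff this).1 h1
  exact ⟨h, by simpa [Real.norm_eq_abs] using hh⟩

/-! ### Operations on tests -/

/-- A family with per-component bounds is a test. -/
lemma isTest_of (h : ℕ → List ℕ → ℝ) (c : ℕ → ℝ) (h0 : ∀ k, 0 ≤ c k)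
    (h1 : ∀ K : Finset ℕ, ∑ k ∈ K, c k ^ 2 ≤ 1)
    (h2 : ∀ k s, |pathPotential (h k) s| ≤ c k)
    (h3 : ∀ k (A : Finset (List ℕ)), ∑ s ∈ A, h k s ^ 2 ≤ c k ^ 2) : IsTest h :=
  ⟨c, h0, h1, fun k => ⟨h2 k, h3 k⟩⟩

lemma pathPotential_smul (a : ℝ) (f : List ℕ → ℝ) (s : List ℕ) :
    pathPotential (fun t => a * f t) s = a * pathPotential f s := by
  induction s with
  | nil => rfl
  | cons b v ih => simp [pathPotential, ih, mul_add]

lemma pathPotential_zero (s : List ℕ) : pathPotential (fun _ => (0 : ℝ)) s = 0 := by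
  induction s with
  | nil => rfl
  | cons b v ih => simp [pathPotential, ih]

/-- Scaling a test. -/
lemma IsTest.smul {h : ℕ → List ℕ → ℝ} (hh : IsTest h) {a : ℝ} (ha : |a| ≤ 1) :
    IsTest (fun k s => a * h k s) := by
  obtain ⟨c, h0, h1, h2⟩ := hh
  refine ⟨fun k => |a| * c k, fun k => mul_nonneg (abs_nonneg _) (h0 k), fun K => ?_, fun k => ⟨fun s => ?_, fun A => ?_⟩⟩
  · calc ∑ k ∈ K, (|a| * c k) ^ 2 = a ^ 2 * ∑ k ∈ K, c k ^ 2 := by
          rw [Finset.mul_sum]; refine Finset.sum_congr rfl fun k _ => ?_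
          rw [mul_pow, sq_abs]
      _ ≤ 1 * 1 := by
          have : a ^ 2 ≤ 1 := by
            rw [← sq_abs]; exact pow_le_one₀ (abs_nonneg _) ha
          exact mul_le_mul this (h1 K) (Finset.sum_nonneg fun _ _ => sq_nonneg _) zero_le_one
      _ = 1 := one_mul 1
  · rw [pathPotential_smul, abs_mul]
    exact mul_le_mul_of_nonneg_left ((h2 k).1 s) (abs_nonneg _)
  · calc ∑ s ∈ A, (a * h k s) ^ 2 = a ^ 2 * ∑ s ∈ A, h k s ^ 2 := by
          rw [Finset.mul_sum]; refine Finset.sum_congr rfl fun k _ => ?_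
          rw [mul_pow]
      _ ≤ a ^ 2 * c k ^ 2 := mul_le_mul_of_nonneg_left ((h2 k).2 A) (sq_nonneg _)
      _ = (|a| * c k) ^ 2 := by rw [mul_pow, sq_abs]

/-- The scaled test. -/
noncomputable def Test.smul (h : Test) (a : ℝ) (ha : |a| ≤ 1) : Test :=
  ⟨fun k s => a * h.1 k s, h.2.smul ha⟩

/-- Evaluation at a scaled test. -/
lemma ev_smul (h : Test) (a : ℝ) (ha : |a| ≤ 1) (y : XX) : ev (h.smul a ha) y = a * ev h y := by
  have : ev (h.smul a ha) = a • ev h := by
    refine clm_ext fun k s hs => ?_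
    simp [ev_uu _ hs, Test.smul]
  rw [this]; simp

/-- Near-norming tests without sign. -/
lemma exists_test_near' (y : XX) {ε : ℝ} (hε : 0 < ε) : ∃ h : Test, ‖y‖ - ε < ev h y := by
  obtain ⟨h, hh⟩ := exists_test_near y hε
  rcases le_total 0 (ev h y) with h0 | h0
  · exact ⟨h, by rwa [abs_of_nonneg h0] at hh⟩
  · refine ⟨h.smul (-1) (by simp), ?_⟩
    rw [ev_smul, abs_of_nonpos h0] at *
    linarith

/-- The norm is the supremum of evaluations. -/
lemma norm_le_iff_ev {y : XX} {C : ℝ} : ‖y‖ ≤ C ↔ ∀ h, ev h y ≤ C := by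
  constructor
  · intro H h; exact (ev_le h y).trans H
  · intro H
    refine le_of_forall_pos_lt_add fun ε hε => ?_
    obtain ⟨h, hh⟩ := exists_test_near' y hε
    have := H h
    linarith

end Crest.Agent.S0166Lib
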