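import Crest.Agent.S0166Lib.Defs

/-!
# S0166 library, part 2: the block midpoint inequality.

For `G` ancestor-closed, `x` supported on `G`, `y` vanishing on `G`:
`√(N x ^ 2 + N y ^ 2 / 4) ≤ (N (x + y) + N (x - y)) / 2`.
-/

set_option autoImplicit false

namespace Crest.Agent.S0166Lib

open scoped InnerProductSpace
open Classical

/-- The potential of `f` over ancestors lying in `G`. -/
noncomputable def sPot (G : Set (List ℕ)) (f : List ℕ → ℝ) : List ℕ → ℝ
  | [] => if [] ∈ G then f [] else 0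
  | c :: v => sPot G f v + (if c :: v ∈ G then f (c :: v) else 0)

/-- The potential of `g` over ancestors lying outside `G`. -/
noncomputable def qPot (G : Set (List ℕ)) (g : List ℕ → ℝ) : List ℕ → ℝ
  | [] => if [] ∈ G then 0 else g []
  | c :: v => qPot G g v + (if c :: v ∈ G then 0 else g (c :: v))

/-- Increments of a potential. -/
noncomputable def incr (Φ : List ℕ → ℝ) : List ℕ → ℝ
  | [] => Φ []
  | c :: v => Φ (c :: v) - Φ v

lemma pot_incr (Φ : List ℕ → ℝ) (u : List ℕ) : pot (incr Φ) u = Φ u := by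
  induction u with
  | nil => simp [pot, incr]
  | cons a v ih => simp [pot, incr, ih]

section
variable {G : Set (List ℕ)} (hG : ∀ a v, (a :: v) ∈ G → v ∈ G) {f g : List ℕ → ℝ} {k : ℕ}

include hG in
lemma sPot_of_mem {u : List ℕ} (hu : u ∈ G) : sPot G f u = pot f u := by
  induction u with
  | nil => simp [sPot, pot, hu]
  | cons c v ih => simp [sPot, pot, hu, ih (hG _ _ hu)]

include hG in
lemma qPot_of_mem {u : List ℕ} (hu : u ∈ G) : qPot G g u = 0 := by
  induction u with
  | nil => simp [qPot, hu]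
  | cons c v ih => simp [qPot, hu, ih (hG _ _ hu)]

include hG in
lemma sPot_abs_le (hf : ∀ u : List ℕ, u.length ≤ k → |pot f u| ≤ 1) :
    ∀ u : List ℕ, u.length ≤ k → |sPot G f u| ≤ 1 := by
  intro u
  induction u with
  | nil =>
    intro hu
    by_cases h : [] ∈ G
    · simpa [sPot, h, pot] using hf [] hu
    · simp [sPot, h]
  | cons c v ih =>
    intro hu
    by_cases h : c :: v ∈ G
    · rw [sPot_of_mem hG h]; exact hf _ hu
    · have : v.length ≤ k := by simp at hu; omega
      simpa [sPot, h] using ih this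

include hG in
lemma qPot_repr (hg : ∀ u : List ℕ, u.length ≤ k → |pot g u| ≤ 1) :
    ∀ u : List ℕ, u.length ≤ k → ∃ c : ℝ, |c| ≤ 1 ∧ qPot G g u = pot g u - c := by
  intro u
  induction u with
  | nil =>
    intro hu
    by_cases h : [] ∈ G
    · exact ⟨pot g [], hg [] hu, by simp [qPot, h]⟩
    · exact ⟨0, by simp, by simp [qPot, h, pot]⟩
  | cons c v ih =>
    intro hu
    by_cases h : c :: v ∈ G
    · exact ⟨pot g (c :: v), hg _ hu, by rw [qPot_of_mem hG h]; ring⟩
    · have hv : v.length ≤ k := by simp at hu; omega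
      obtain ⟨d, hd, hq⟩ := ih hv
      exact ⟨d, hd, by simp only [qPot, h, if_false, pot, hq]; ring⟩

include hG in
lemma qPot_abs_le (hg : ∀ u : List ℕ, u.length ≤ k → |pot g u| ≤ 1) (u : List ℕ)
    (hu : u.length ≤ k) : |qPot G g u| ≤ 2 := by
  obtain ⟨c, hc, h⟩ := qPot_repr hG hg u hu
  rw [h]
  have h1 := hg u hu
  rw [abs_le] at *
  constructor <;> linarith [h1.1, h1.2, hc.1, hc.2]

end

/-- First potential. -/
noncomputable def Phi1 (G : Set (List ℕ)) (f g : List ℕ → ℝ) (a b : ℝ) (u : List ℕ) : ℝ :=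
  a * sPot G f u +
    if 0 ≤ sPot G f u then b * min (qPot G g u) 0 else b * max (qPot G g u) 0

/-- Second potential. -/
noncomputable def Phi2 (G : Set (List ℕ)) (f g : List ℕ → ℝ) (a b : ℝ) (u : List ℕ) : ℝ :=
  a * sPot G f u +
    if 0 ≤ sPot G f u then -(b * max (qPot G g u) 0) else -(b * min (qPot G g u) 0)

lemma Phi1_sub_Phi2 (G : Set (List ℕ)) (f g : List ℕ → ℝ) (a b : ℝ) (u : List ℕ) :
    Phi1 G f g a b u - Phi2 G f g a b u = b * qPot G g u := by
  unfold Phi1 Phi2
  have h := min_add_max (qPot G g u) 0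
  split_ifs <;> linear_combination b * h

section
variable {G : Set (List ℕ)} (hG : ∀ a v, (a :: v) ∈ G → v ∈ G) {f g : List ℕ → ℝ} {k : ℕ}
  {a b : ℝ}

lemma Phi1_abs_le (ha : 0 ≤ a) (hb : 0 ≤ b) (ha1 : a ≤ 1) (hb2 : 2 * b ≤ 1) {s q : ℝ}
    (hs : |s| ≤ 1) (hq : |q| ≤ 2) :
    |a * s + if 0 ≤ s then b * min q 0 else b * max q 0| ≤ 1 := by
  rw [abs_le] at hs hq ⊢
  have h1 : -2 ≤ min q 0 := le_min hq.1 (by norm_num)
  have h2 : min q 0 ≤ 0 := min_le_right _ _
  have h3 : 0 ≤ max q 0 := le_max_right _ _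
  have h4 : max q 0 ≤ 2 := max_le hq.2 (by norm_num)
  split_ifs with h
  · have h5 : a * s ≤ 1 := by nlinarith
    have h6 : 0 ≤ a * s := mul_nonneg ha h
    constructor <;> nlinarith
  · push Not at h
    have h5 : -1 ≤ a * s := by nlinarith
    have h6 : a * s ≤ 0 := mul_nonpos_of_nonneg_of_nonpos ha h.le
    constructor <;> nlinarith

lemma Phi2_abs_le (ha : 0 ≤ a) (hb : 0 ≤ b) (ha1 : a ≤ 1) (hb2 : 2 * b ≤ 1) {s q : ℝ}
    (hs : |s| ≤ 1) (hq : |q| ≤ 2) :
    |a * s + if 0 ≤ s then -(b * max q 0) else -(b * min q 0)| ≤ 1 := by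
  rw [abs_le] at hs hq ⊢
  have h1 : -2 ≤ min q 0 := le_min hq.1 (by norm_num)
  have h2 : min q 0 ≤ 0 := min_le_right _ _
  have h3 : 0 ≤ max q 0 := le_max_right _ _
  have h4 : max q 0 ≤ 2 := max_le hq.2 (by norm_num)
  split_ifs with h
  · have h5 : a * s ≤ 1 := by nlinarith
    have h6 : 0 ≤ a * s := mul_nonneg ha h
    constructor <;> nlinarith
  · push Not at h
    have h5 : -1 ≤ a * s := by nlinarith
    have h6 : a * s ≤ 0 := mul_nonpos_of_nonneg_of_nonpos ha h.le
    constructor <;> nlinarith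

include hG in
lemma incr_Phi1_of_mem {u : List ℕ} (hu : u ∈ G) : incr (Phi1 G f g a b) u = a * f u := by
  cases u with
  | nil =>
    simp only [incr, Phi1]
    rw [qPot_of_mem hG hu]
    simp [sPot, hu]
  | cons c v =>
    have hv := hG _ _ hu
    simp only [incr, Phi1]
    rw [qPot_of_mem hG hu, qPot_of_mem hG hv]
    simp only [min_self, max_self, mul_zero, ite_self, add_zero]
    simp only [sPot, hu, if_true]
    ring

include hG in
lemma incr_Phi2_of_mem {u : List ℕ} (hu : u ∈ G) : incr (Phi2 G f g a b) u = a * f u := by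
  cases u with
  | nil =>
    simp only [incr, Phi2]
    rw [qPot_of_mem hG hu]
    simp [sPot, hu]
  | cons c v =>
    have hv := hG _ _ hu
    simp only [incr, Phi2]
    rw [qPot_of_mem hG hu, qPot_of_mem hG hv]
    simp only [min_self, max_self, mul_zero, ite_self, add_zero, neg_zero]
    simp only [sPot, hu, if_true]
    ring

lemma abs_min_zero_sub (p q : ℝ) : |min p 0 - min q 0| ≤ |p - q| := by
  have := abs_min_sub_min_le_max p 0 q 0
  simpa using this

lemma abs_max_zero_sub (p q : ℝ) : |max p 0 - max q 0| ≤ |p - q| := by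
  have := abs_max_sub_max_le_max p 0 q 0
  simpa using this

lemma incr_Phi1_not_mem (hb : 0 ≤ b) {u : List ℕ} (hu : u ∉ G) :
    |incr (Phi1 G f g a b) u| ≤ b * |g u| := by
  cases u with
  | nil =>
    simp only [incr, Phi1, sPot, hu, if_false, qPot, mul_zero, zero_add, le_refl, if_true]
    rw [abs_mul, abs_of_nonneg hb]
    refine mul_le_mul_of_nonneg_left ?_ hb
    have := abs_min_zero_sub (g []) 0
    rwa [min_self, sub_zero, sub_zero] at this
  | cons c v =>
    simp only [incr, Phi1, sPot, qPot, hu, if_false, add_zero]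
    split_ifs with h
    · have : a * sPot G f v + b * min (qPot G g v + g (c :: v)) 0 -
          (a * sPot G f v + b * min (qPot G g v) 0) =
          b * (min (qPot G g v + g (c :: v)) 0 - min (qPot G g v) 0) := by ring
      rw [this, abs_mul, abs_of_nonneg hb]
      refine mul_le_mul_of_nonneg_left ?_ hb
      have := abs_min_zero_sub (qPot G g v + g (c :: v)) (qPot G g v)
      rwa [add_sub_cancel_left] at this
    · have : a * sPot G f v + b * max (qPot G g v + g (c :: v)) 0 -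
          (a * sPot G f v + b * max (qPot G g v) 0) =
          b * (max (qPot G g v + g (c :: v)) 0 - max (qPot G g v) 0) := by ring
      rw [this, abs_mul, abs_of_nonneg hb]
      refine mul_le_mul_of_nonneg_left ?_ hb
      have := abs_max_zero_sub (qPot G g v + g (c :: v)) (qPot G g v)
      rwa [add_sub_cancel_left] at this

lemma incr_Phi2_not_mem (hb : 0 ≤ b) {u : List ℕ} (hu : u ∉ G) :
    |incr (Phi2 G f g a b) u| ≤ b * |g u| := by
  cases u with
  | nil =>
    simp only [incr, Phi2, sPot, hu, if_false, qPot, mul_zero, zero_add, le_refl, if_true]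
    rw [abs_neg, abs_mul, abs_of_nonneg hb]
    refine mul_le_mul_of_nonneg_left ?_ hb
    have := abs_max_zero_sub (g []) 0
    rwa [max_self, sub_zero, sub_zero] at this
  | cons c v =>
    simp only [incr, Phi2, sPot, qPot, hu, if_false, add_zero]
    split_ifs with h
    · have : a * sPot G f v + -(b * max (qPot G g v + g (c :: v)) 0) -
          (a * sPot G f v + -(b * max (qPot G g v) 0)) =
          -(b * (max (qPot G g v + g (c :: v)) 0 - max (qPot G g v) 0)) := by ring
      rw [this, abs_neg, abs_mul, abs_of_nonneg hb]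
      refine mul_le_mul_of_nonneg_left ?_ hb
      have := abs_max_zero_sub (qPot G g v + g (c :: v)) (qPot G g v)
      rwa [add_sub_cancel_left] at this
    · have : a * sPot G f v + -(b * min (qPot G g v + g (c :: v)) 0) -
          (a * sPot G f v + -(b * min (qPot G g v) 0)) =
          -(b * (min (qPot G g v + g (c :: v)) 0 - min (qPot G g v) 0)) := by ring
      rw [this, abs_neg, abs_mul, abs_of_nonneg hb]
      refine mul_le_mul_of_nonneg_left ?_ hb
      have := abs_min_zero_sub (qPot G g v + g (c :: v)) (qPot G g v)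
      rwa [add_sub_cancel_left] at this

lemma incr_diff_not_mem {u : List ℕ} (hu : u ∉ G) :
    incr (Phi1 G f g a b) u - incr (Phi2 G f g a b) u = b * g u := by
  cases u with
  | nil =>
    simp only [incr]
    rw [Phi1_sub_Phi2]
    simp [qPot, hu]
  | cons c v =>
    simp only [incr]
    have h1 := Phi1_sub_Phi2 G f g a b (c :: v)
    have h2 := Phi1_sub_Phi2 G f g a b v
    simp only [qPot, hu, if_false] at h1
    linear_combination h1 - h2

end

/-- Squares of increments are dominated. -/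
lemma incr_sq_le {w a b fu gu : ℝ} (hb : 0 ≤ b) (h : w = a * fu ∨ |w| ≤ b * |gu|) :
    w ^ 2 ≤ a ^ 2 * fu ^ 2 + b ^ 2 * gu ^ 2 := by
  rcases h with h | h
  · rw [h]; nlinarith [mul_nonneg (sq_nonneg b) (sq_nonneg gu)]
  · have h1 : w ^ 2 ≤ (b * |gu|) ^ 2 := by
      rw [← sq_abs w]
      exact pow_le_pow_left₀ (abs_nonneg w) h 2
    rw [mul_pow, sq_abs] at h1
    nlinarith [mul_nonneg (sq_nonneg a) (sq_nonneg fu)]

/-- Assemble a test from a potential whose increments are dominated. -/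
lemma exists_test_of_incr {k : ℕ} {f g : H} {a b : ℝ} (hb : 0 ≤ b) (hab : a ^ 2 + b ^ 2 ≤ 1)
    (hf1 : ‖f‖ ≤ 1) (hg1 : ‖g‖ ≤ 1) (Φ : List ℕ → ℝ)
    (hΦ : ∀ u, (incr Φ u) ^ 2 ≤ a ^ 2 * f u ^ 2 + b ^ 2 * g u ^ 2)
    (hpot : ∀ u : List ℕ, u.length ≤ k → |Φ u| ≤ 1) :
    ∃ h : H, IsTest k h ∧ ∀ u, h u = incr Φ u := by
  have hsum : Summable fun u => a ^ 2 * f u ^ 2 + b ^ 2 * g u ^ 2 :=
    ((H_summable_sq f).mul_left _).add ((H_summable_sq g).mul_left _)
  have hs : Summable fun u => (incr Φ u) ^ 2 :=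
    Summable.of_nonneg_of_le (fun _ => sq_nonneg _) hΦ hsum
  refine ⟨mkH (incr Φ) hs, ⟨?_, fun u hu => ?_⟩, fun u => rfl⟩
  · have h1 : ‖mkH (incr Φ) hs‖ ^ 2 ≤ 1 := by
      rw [H_norm_sq]
      calc ∑' u, (mkH (incr Φ) hs u) ^ 2 ≤ ∑' u, (a ^ 2 * f u ^ 2 + b ^ 2 * g u ^ 2) :=
            hs.tsum_le_tsum hΦ hsum
        _ = a ^ 2 * ‖f‖ ^ 2 + b ^ 2 * ‖g‖ ^ 2 := by
            rw [(H_summable_sq f |>.mul_left _).tsum_add (H_summable_sq g |>.mul_left _),
              tsum_mul_left, tsum_mul_left, H_norm_sq, H_norm_sq]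
        _ ≤ a ^ 2 * 1 + b ^ 2 * 1 := by
            gcongr
            · exact pow_le_one₀ (norm_nonneg _) hf1
            · exact pow_le_one₀ (norm_nonneg _) hg1
        _ ≤ 1 := by linarith
    exact (sq_le_one_iff₀ (norm_nonneg _)).mp h1
  · have : ⇑(mkH (incr Φ) hs) = incr Φ := rfl
    rw [this, pot_incr]
    exact hpot u hu

/-- The key pairing inequality. -/
lemma block_pair {k : ℕ} {G : Set (List ℕ)} (hG : ∀ a v, (a :: v) ∈ G → v ∈ G) {f g : H}
    (hf : IsTest k f) (hg : IsTest k g) {a b : ℝ} (ha : 0 ≤ a) (hb : 0 ≤ b)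
    (hab : a ^ 2 + b ^ 2 ≤ 1) (hb2 : 2 * b ≤ 1) {x y : H} (hx : ∀ u, u ∉ G → x u = 0)
    (hy : ∀ u, u ∈ G → y u = 0) :
    2 * a * ⟪f, x⟫_ℝ + b * ⟪g, y⟫_ℝ ≤ N k (x + y) + N k (x - y) := by
  have ha1 : a ≤ 1 := by nlinarith [sq_nonneg b, sq_nonneg (a - 1)]
  obtain ⟨h1, ht1, he1⟩ := exists_test_of_incr (k := k) (f := f) (g := g) hb hab hf.1 hg.1
    (Phi1 G f g a b) (fun u => by
      apply incr_sq_le hb
      by_cases hu : u ∈ G
      · exact Or.inl (incr_Phi1_of_mem hG hu)
      · exact Or.inr (incr_Phi1_not_mem hb hu))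
    (fun u hu => Phi1_abs_le ha hb ha1 hb2 (sPot_abs_le hG hf.2 u hu)
      (qPot_abs_le hG hg.2 u hu))
  obtain ⟨h2, ht2, he2⟩ := exists_test_of_incr (k := k) (f := f) (g := g) hb hab hf.1 hg.1
    (Phi2 G f g a b) (fun u => by
      apply incr_sq_le hb
      by_cases hu : u ∈ G
      · exact Or.inl (incr_Phi2_of_mem hG hu)
      · exact Or.inr (incr_Phi2_not_mem hb hu))
    (fun u hu => Phi2_abs_le ha hb ha1 hb2 (sPot_abs_le hG hf.2 u hu)
      (qPot_abs_le hG hg.2 u hu))
  have e1 : ⟪h1, x⟫_ℝ = a * ⟪f, x⟫_ℝ := by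
    rw [H_inner, H_inner, ← tsum_mul_left]
    refine tsum_congr fun u => ?_
    by_cases hu : u ∈ G
    · rw [he1, incr_Phi1_of_mem hG hu]; ring
    · rw [hx u hu]; ring
  have e2 : ⟪h2, x⟫_ℝ = a * ⟪f, x⟫_ℝ := by
    rw [H_inner, H_inner, ← tsum_mul_left]
    refine tsum_congr fun u => ?_
    by_cases hu : u ∈ G
    · rw [he2, incr_Phi2_of_mem hG hu]; ring
    · rw [hx u hu]; ring
  have e3 : ⟪h1, y⟫_ℝ - ⟪h2, y⟫_ℝ = b * ⟪g, y⟫_ℝ := by
    rw [← inner_sub_left, H_inner, H_inner, ← tsum_mul_left]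
    refine tsum_congr fun u => ?_
    by_cases hu : u ∈ G
    · rw [hy u hu]; ring
    · have : ((h1 - h2 : H) : List ℕ → ℝ) u = b * g u := by
        rw [lp.coeFn_sub, Pi.sub_apply, he1, he2]
        exact incr_diff_not_mem hu
      rw [this]; ring
  have i1 := inner_le_N ht1 (x + y)
  have i2 := inner_le_N ht2 (x - y)
  rw [inner_add_right] at i1
  rw [inner_sub_right] at i2
  nlinarith

lemma exists_test_gt (k : ℕ) (x : H) (ε : ℝ) (hε : 0 < ε) :
    ∃ f, IsTest k f ∧ N k x - ε < ⟪f, x⟫_ℝ := by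
  have h : N k x - ε < ⨆ f : {f : H // IsTest k f}, ⟪f.1, x⟫_ℝ := by
    change N k x - ε < N k x
    linarith
  obtain ⟨f, hf⟩ := exists_lt_of_lt_ciSup h
  exact ⟨f.1, f.2, hf⟩

/-- Supremum form of the pairing inequality. -/
lemma block_pair_N {k : ℕ} {G : Set (List ℕ)} (hG : ∀ a v, (a :: v) ∈ G → v ∈ G)
    {a b : ℝ} (ha : 0 ≤ a) (hb : 0 ≤ b)
    (hab : a ^ 2 + b ^ 2 ≤ 1) (hb2 : 2 * b ≤ 1) {x y : H} (hx : ∀ u, u ∉ G → x u = 0)
    (hy : ∀ u, u ∈ G → y u = 0) :
    2 * a * N k x + b * N k y ≤ N k (x + y) + N k (x - y) := by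
  have ha1 : a ≤ 1 := by nlinarith [sq_nonneg b, sq_nonneg (a - 1)]
  refine le_of_forall_pos_le_add fun ε hε => ?_
  obtain ⟨f, hf, hf2⟩ := exists_test_gt k x (ε / 4) (by positivity)
  obtain ⟨g, hg, hg2⟩ := exists_test_gt k y (ε / 4) (by positivity)
  have key := block_pair hG hf hg ha hb hab hb2 hx hy
  have hb1 : b ≤ 1 / 2 := by linarith
  have h1 : 2 * a * (N k x - ε / 4) ≤ 2 * a * ⟪f, x⟫_ℝ := by
    apply mul_le_mul_of_nonneg_left hf2.le (by positivity)
  have h2 : b * (N k y - ε / 4) ≤ b * ⟪g, y⟫_ℝ := by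
    apply mul_le_mul_of_nonneg_left hg2.le hb
  nlinarith

/-- The block midpoint inequality. -/
lemma block_ineq {k : ℕ} {G : Set (List ℕ)} (hG : ∀ a v, (a :: v) ∈ G → v ∈ G)
    {x y : H} (hx : ∀ u, u ∉ G → x u = 0) (hy : ∀ u, u ∈ G → y u = 0) :
    2 * Real.sqrt (N k x ^ 2 + N k y ^ 2 / 4) ≤ N k (x + y) + N k (x - y) := by
  have hA := N_nonneg k x
  have hB := N_nonneg k y
  by_cases hcase : N k x ^ 2 ≤ 3 / 4 * N k y ^ 2
  · -- triangle inequality
    have h1 : 2 * N k y ≤ N k (x + y) + N k (x - y) := by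
      have h2 : (2 : ℝ) • y = (x + y) + -(x - y) := by
        rw [two_smul]; abel
      have h3 := N_smul k 2 y
      rw [h2] at h3
      have h4 := N_add_le k (x + y) (-(x - y))
      rw [N_neg] at h4
      rw [abs_of_nonneg (by norm_num : (0 : ℝ) ≤ 2)] at h3
      linarith
    have h5 : Real.sqrt (N k x ^ 2 + N k y ^ 2 / 4) ≤ N k y := by
      apply Real.sqrt_le_iff.mpr
      exact ⟨hB, by nlinarith⟩
    linarith
  · push Not at hcase
    have hApos : 0 < N k x := by
      by_contra h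
      have h0 : N k x = 0 := le_antisymm (not_lt.mp h) hA
      rw [h0] at hcase
      nlinarith [sq_nonneg (N k y)]
    set R := Real.sqrt (N k x ^ 2 + N k y ^ 2 / 4) with hR
    have hR2 : R ^ 2 = N k x ^ 2 + N k y ^ 2 / 4 := Real.sq_sqrt (by positivity)
    have hRpos : 0 < R := Real.sqrt_pos.mpr (by positivity)
    have hNyR : N k y ≤ R := by
      apply Real.le_sqrt_of_sq_le
      nlinarith
    have key := block_pair_N (k := k) hG (a := N k x / R) (b := N k y / 2 / R)
      (by positivity) (by positivity)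
      (by
        have : (N k x / R) ^ 2 + (N k y / 2 / R) ^ 2 = (N k x ^ 2 + N k y ^ 2 / 4) / R ^ 2 := by
          field_simp
          ring
        rw [this, hR2, div_self (by positivity)])
      (by
        have : 2 * (N k y / 2 / R) = N k y / R := by field_simp
        rw [this, div_le_one hRpos]
        exact hNyR) hx hy
    have : 2 * (N k x / R) * N k x + N k y / 2 / R * N k y = 2 * R := by
      have : 2 * (N k x / R) * N k x + N k y / 2 / R * N k y =
          2 * (N k x ^ 2 + N k y ^ 2 / 4) / R := by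
        field_simp
        ring
      rw [this, ← hR2]
      field_simp
    rw [this] at key
    exact key

end Crest.Agent.S0166Lib
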