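import Mathlib

/-!
# An abstract reflexivity criterion for `ℓ²`-type sums
-/

set_option autoImplicit false

namespace Crest.Agent.S0166Lib

open Filter Topology

section summ

variable {F : Type*} [NormedAddCommGroup F] [NormedSpace ℝ F]

/-- A summability criterion by comparison with squares. -/
lemma summable_of_sq [CompleteSpace F] {ι : Type*} (e : ι → F) (τ : ι → ℝ) (hτ : ∀ i, 0 ≤ τ i) (B : ℝ)
    (hB : ∀ A : Finset ι, ∑ i ∈ A, τ i ≤ B)
    (he : ∀ A : Finset ι, ‖∑ i ∈ A, e i‖ ^ 2 ≤ ∑ i ∈ A, τ i) : Summable e := by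
  have hs : Summable τ := summable_of_sum_le hτ hB
  rw [summable_iff_vanishing_norm]
  intro ε hε
  obtain ⟨s, hs'⟩ := summable_iff_vanishing_norm.1 hs (ε ^ 2) (by positivity)
  refine ⟨s, fun t ht => ?_⟩
  have h1 := hs' t ht
  have h2 := he t
  rw [Real.norm_eq_abs, abs_of_nonneg (Finset.sum_nonneg fun i _ => hτ i)] at h1
  exact lt_of_pow_lt_pow_left₀ 2 hε.le (h2.trans_lt h1)

/-- Near-norming vectors for functionals. -/
lemma exists_near_opNorm {E : Type*} [NormedAddCommGroup E] [NormedSpace ℝ E] (f : StrongDual ℝ E)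
    {ε : ℝ} (hε : 0 < ε) : ∃ y : E, ‖y‖ ≤ 1 ∧ ‖f‖ - ε < f y := by
  obtain ⟨x, hx, hfx⟩ := f.exists_lt_apply_of_lt_opNorm (r := ‖f‖ - ε) (by linarith)
  rw [Real.norm_eq_abs] at hfx
  rcases le_total 0 (f x) with h0 | h0
  · exact ⟨x, hx.le, by rwa [abs_of_nonneg h0] at hfx⟩
  · refine ⟨-x, by simpa using hx.le, ?_⟩
    rw [abs_of_nonpos h0] at hfx
    simpa using hfx

/-- From `S² ≤ M √(S²)` to `S² ≤ M²`. -/
lemma sq_le_of_le_mul_sqrt {S2 M : ℝ} (hM : 0 ≤ M) (h : S2 ≤ M * Real.sqrt S2) : S2 ≤ M ^ 2 := by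
  by_cases hS : S2 ≤ 0
  · exact hS.trans (sq_nonneg _)
  push Not at hS
  have hr : 0 < Real.sqrt S2 := Real.sqrt_pos.2 hS
  have h2 : Real.sqrt S2 * Real.sqrt S2 = S2 := Real.mul_self_sqrt hS.le
  have h3 : Real.sqrt S2 ≤ M := by
    by_contra hcon
    push Not at hcon
    have : M * Real.sqrt S2 < Real.sqrt S2 * Real.sqrt S2 := mul_lt_mul_of_pos_right hcon hr
    linarith
  calc S2 = Real.sqrt S2 ^ 2 := by rw [sq]; exact h2.symm
    _ ≤ M ^ 2 := pow_le_pow_left₀ hr.le h3 2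

end summ

section main

variable {E : Type*} [NormedAddCommGroup E] [NormedSpace ℝ E] [CompleteSpace E]

/-- The abstract criterion. -/
theorem exists_rep_of_two_level (P : ℕ → E →L[ℝ] E)
    (hPP : ∀ k y, P k (P k y) = P k y)
    (ha : ∀ (K : Finset ℕ) (y : E), ∑ k ∈ K, ‖P k y‖ ^ 2 ≤ ‖y‖ ^ 2)
    (hb : ∀ (K : Finset ℕ) (w : ℕ → E), (∀ k ∈ K, P k (w k) = w k) →
      ‖∑ k ∈ K, w k‖ ^ 2 ≤ ∑ k ∈ K, ‖w k‖ ^ 2)
    (hc : ∀ y : E, Tendsto (fun L => ∑ k ∈ Finset.range L, P k y) atTop (𝓝 y))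
    (hd : ∀ (Φ : StrongDual ℝ (StrongDual ℝ E)) (k : ℕ), ∃ x : E, P k x = x ∧
      ∀ φ : StrongDual ℝ E, Φ (φ.comp (P k)) = φ x)
    (Φ : StrongDual ℝ (StrongDual ℝ E)) : ∃ x : E, ∀ φ : StrongDual ℝ E, Φ φ = φ x := by
  classical
  choose x hPx hx using hd Φ
  -- H2
  have h2 : ∀ K : Finset ℕ, ∑ k ∈ K, ‖x k‖ ^ 2 ≤ ‖Φ‖ ^ 2 := by
    intro K
    have hdual : ∀ k, ∃ g : StrongDual ℝ E, ‖g‖ ≤ 1 ∧ g (x k) = ‖x k‖ := fun k => by
      simpa using exists_dual_vector'' ℝ (x k)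
    choose g hg1 hg2 using hdual
    set ψ : StrongDual ℝ E := ∑ k ∈ K, ‖x k‖ • (g k).comp (P k) with hψ
    set S2 := ∑ k ∈ K, ‖x k‖ ^ 2 with hS2
    have hS0 : 0 ≤ S2 := Finset.sum_nonneg fun _ _ => sq_nonneg _
    have hψ1 : ‖ψ‖ ≤ Real.sqrt S2 := by
      refine ContinuousLinearMap.opNorm_le_bound _ (Real.sqrt_nonneg _) fun y => ?_
      have e : ψ y = ∑ k ∈ K, ‖x k‖ * g k (P k y) := by
        simp [hψ]
      rw [e]
      refine (Finset.abs_sum_le_sum_abs _ _).trans ?_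
      have l1 : ∀ k ∈ K, |‖x k‖ * g k (P k y)| ≤ ‖x k‖ * ‖P k y‖ := by
        intro k _
        rw [abs_mul, abs_of_nonneg (norm_nonneg _)]
        refine mul_le_mul_of_nonneg_left ?_ (norm_nonneg _)
        calc |g k (P k y)| ≤ ‖g k‖ * ‖P k y‖ := (g k).le_opNorm _
          _ ≤ 1 * ‖P k y‖ := mul_le_mul_of_nonneg_right (hg1 k) (norm_nonneg _)
          _ = ‖P k y‖ := one_mul _
      refine (Finset.sum_le_sum l1).trans ?_
      refine (Real.sum_mul_le_sqrt_mul_sqrt _ _ _).trans ?_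
      refine mul_le_mul_of_nonneg_left ?_ (Real.sqrt_nonneg _)
      refine Real.sqrt_le_iff.2 ⟨norm_nonneg _, ha K y⟩
    have hΦψ : Φ ψ = S2 := by
      rw [hψ, map_sum, hS2]
      refine Finset.sum_congr rfl fun k _ => ?_
      rw [map_smul, hx, hg2, smul_eq_mul, sq]
    have : S2 ≤ ‖Φ‖ * Real.sqrt S2 := by
      calc S2 = Φ ψ := hΦψ.symm
        _ ≤ |Φ ψ| := le_abs_self _
        _ ≤ ‖Φ‖ * ‖ψ‖ := Φ.le_opNorm _
        _ ≤ ‖Φ‖ * Real.sqrt S2 := mul_le_mul_of_nonneg_left hψ1 Φ.opNorm_nonneg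
    exact sq_le_of_le_mul_sqrt Φ.opNorm_nonneg this
  -- H3
  have hxs : Summable x := summable_of_sq x (fun k => ‖x k‖ ^ 2) (fun _ => sq_nonneg _) _ h2
    (fun K => hb K x (fun k _ => hPx k))
  refine ⟨∑' k, x k, fun φ => ?_⟩
  -- H4
  set M : ℕ → ℝ := fun k => ‖φ.comp (P k)‖ with hM
  have hM0 : ∀ k, 0 ≤ M k := fun k => norm_nonneg _
  have h4 : ∀ K : Finset ℕ, ∑ k ∈ K, M k ^ 2 ≤ ‖φ‖ ^ 2 := by
    intro K
    set S2 := ∑ k ∈ K, M k ^ 2 with hS2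
    have hS0 : 0 ≤ S2 := Finset.sum_nonneg fun _ _ => sq_nonneg _
    have key : S2 ≤ ‖φ‖ * Real.sqrt S2 := by
      refine le_of_forall_pos_le_add fun ε' hε' => ?_
      set T := ∑ k ∈ K, M k with hT
      have hT0 : 0 ≤ T := Finset.sum_nonneg fun k _ => hM0 k
      set ε := ε' / (T + 1) with hε
      have hε0 : 0 < ε := by positivity
      have hnear : ∀ k, ∃ y : E, ‖y‖ ≤ 1 ∧ M k - ε < (φ.comp (P k)) y := fun k =>
        exists_near_opNorm _ hε0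
      choose y hy1 hy2 using hnear
      set w : ℕ → E := fun k => M k • P k (y k) with hw
      have hwP : ∀ k ∈ K, P k (w k) = w k := by
        intro k _
        simp only [hw, map_smul, hPP]
      have hPnorm : ∀ k, ‖P k (y k)‖ ≤ 1 := by
        intro k
        have := ha {k} (y k)
        simp only [Finset.sum_singleton] at this
        have h1 : ‖P k (y k)‖ ^ 2 ≤ 1 := this.trans (pow_le_one₀ (norm_nonneg _) (hy1 k))
        nlinarith [norm_nonneg (P k (y k))]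
      have hwn : ‖∑ k ∈ K, w k‖ ≤ Real.sqrt S2 := by
        refine Real.le_sqrt_of_sq_le ((hb K w hwP).trans ?_)
        refine Finset.sum_le_sum fun k _ => ?_
        simp only [hw]
        rw [norm_smul, Real.norm_of_nonneg (hM0 k), mul_pow]
        have : ‖P k (y k)‖ ^ 2 ≤ 1 := pow_le_one₀ (norm_nonneg _) (hPnorm k)
        nlinarith [sq_nonneg (M k)]
      have h5 : φ (∑ k ∈ K, w k) = ∑ k ∈ K, M k * φ (P k (y k)) := by
        rw [map_sum]
        refine Finset.sum_congr rfl fun k _ => ?_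
        simp only [hw, map_smul, smul_eq_mul]
      have h6 : S2 - ε * T ≤ φ (∑ k ∈ K, w k) := by
        rw [h5, hS2, hT, Finset.mul_sum, ← Finset.sum_sub_distrib]
        refine Finset.sum_le_sum fun k _ => ?_
        have := (hy2 k).le
        simp only [ContinuousLinearMap.comp_apply] at this
        nlinarith [hM0 k]
      have h7 : φ (∑ k ∈ K, w k) ≤ ‖φ‖ * Real.sqrt S2 := by
        calc _ ≤ |φ (∑ k ∈ K, w k)| := le_abs_self _
          _ ≤ ‖φ‖ * ‖∑ k ∈ K, w k‖ := φ.le_opNorm _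
          _ ≤ _ := mul_le_mul_of_nonneg_left hwn (norm_nonneg _)
      have h8 : ε * T ≤ ε' := by
        rw [hε]
        rw [div_mul_eq_mul_div, div_le_iff₀ (by positivity)]
        nlinarith
      linarith
    exact sq_le_of_le_mul_sqrt (norm_nonneg _) key
  -- H5
  have hsub : ∀ k y, |(φ.comp (P k)) y| ≤ M k * ‖P k y‖ := by
    intro k y
    -- the norm of `φ ∘ P k` controls `φ` on the range of `P k`
    have := (φ.comp (P k)).le_opNorm (P k y)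
    simpa [hPP] using this
  have hφs : Summable (fun k => φ.comp (P k)) := by
    refine summable_of_sq _ (fun k => M k ^ 2) (fun _ => sq_nonneg _) _ h4 fun K => ?_
    set S2 := ∑ k ∈ K, M k ^ 2 with hS2
    have hS0 : 0 ≤ S2 := Finset.sum_nonneg fun _ _ => sq_nonneg _
    have : ‖∑ k ∈ K, φ.comp (P k)‖ ≤ Real.sqrt S2 := by
      refine ContinuousLinearMap.opNorm_le_bound _ (Real.sqrt_nonneg _) fun y => ?_
      have e : (∑ k ∈ K, φ.comp (P k)) y = ∑ k ∈ K, (φ.comp (P k)) y := by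
        simp
      rw [e, Real.norm_eq_abs]
      refine (Finset.abs_sum_le_sum_abs _ _).trans ?_
      have l1 : ∀ k ∈ K, |(φ.comp (P k)) y| ≤ M k * ‖P k y‖ := by
        intro k _
        exact hsub k y
      refine (Finset.sum_le_sum l1).trans ?_
      refine (Real.sum_mul_le_sqrt_mul_sqrt _ _ _).trans ?_
      refine mul_le_mul_of_nonneg_left ?_ (Real.sqrt_nonneg _)
      refine Real.sqrt_le_iff.2 ⟨norm_nonneg _, ha K y⟩
    calc _ ≤ Real.sqrt S2 ^ 2 := pow_le_pow_left₀ (norm_nonneg _) this 2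
      _ = S2 := Real.sq_sqrt hS0
  -- H6: the series sums to `φ`
  have hsum : ∑' k, φ.comp (P k) = φ := by
    refine ContinuousLinearMap.ext fun y => ?_
    have h1 : HasSum (fun k => (φ.comp (P k)) y) ((∑' k, φ.comp (P k)) y) :=
      hφs.hasSum.mapL (ContinuousLinearMap.apply ℝ ℝ y)
    have h2 := h1.tendsto_sum_nat
    have h3 : Tendsto (fun L => ∑ k ∈ Finset.range L, (φ.comp (P k)) y) atTop (𝓝 (φ y)) := by
      have := φ.continuous.tendsto y |>.comp (hc y)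
      refine this.congr fun L => ?_
      simp [map_sum]
    exact tendsto_nhds_unique h2 h3
  calc Φ φ = Φ (∑' k, φ.comp (P k)) := by rw [hsum]
    _ = ∑' k, Φ (φ.comp (P k)) := Φ.map_tsum hφs
    _ = ∑' k, φ (x k) := tsum_congr fun k => hx k φ
    _ = φ (∑' k, x k) := (φ.map_tsum hxs).symm

/-- Representation on one component, from upper `ℓ²` estimates for a system and its dual system. -/
theorem exists_rep_component {ι : Type*} (C : ℝ) (hC : 0 ≤ C) (u : ι → E) (a : ι → StrongDual ℝ E)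
    (Q : E →L[ℝ] E)
    (hu : ∀ (A : Finset ι) (γ : ι → ℝ), ‖∑ s ∈ A, γ s • u s‖ ^ 2 ≤ ∑ s ∈ A, γ s ^ 2)
    (hdual : ∀ (A : Finset ι) (γ : ι → ℝ), ‖∑ s ∈ A, γ s • a s‖ ^ 2 ≤ ∑ s ∈ A, (C * γ s ^ 2))
    (hQ : ∀ s, Q (u s) = u s)
    (hrep : ∀ φ ψ : StrongDual ℝ E, HasSum (fun s => φ (u s) • a s) ψ → ψ = φ.comp Q)
    (Φ : StrongDual ℝ (StrongDual ℝ E)) :
    ∃ x : E, Q x = x ∧ ∀ φ : StrongDual ℝ E, Φ (φ.comp Q) = φ x := by
  classical
  set ξ : ι → ℝ := fun s => Φ (a s) with hξ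
  have hξ2 : ∀ A : Finset ι, ∑ s ∈ A, ξ s ^ 2 ≤ C * ‖Φ‖ ^ 2 := by
    intro A
    set S2 := ∑ s ∈ A, ξ s ^ 2 with hS2
    have hS0 : 0 ≤ S2 := Finset.sum_nonneg fun _ _ => sq_nonneg _
    set Z : StrongDual ℝ E := ∑ s ∈ A, ξ s • a s with hZ
    have e1 : Φ Z = S2 := by
      rw [hZ, map_sum, hS2]
      refine Finset.sum_congr rfl fun s _ => ?_
      rw [map_smul, smul_eq_mul, sq]
    have e2 : ‖Z‖ ^ 2 ≤ C * S2 := by
      have := hdual A ξ
      rwa [← Finset.mul_sum] at this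
    have h3 : ‖Z‖ ≤ Real.sqrt C * Real.sqrt S2 := by
      rw [← Real.sqrt_mul hC]
      exact Real.le_sqrt_of_sq_le e2
    have h4 : S2 ≤ (‖Φ‖ * Real.sqrt C) * Real.sqrt S2 := by
      calc S2 = Φ Z := e1.symm
        _ ≤ |Φ Z| := le_abs_self _
        _ ≤ ‖Φ‖ * ‖Z‖ := Φ.le_opNorm _
        _ ≤ ‖Φ‖ * (Real.sqrt C * Real.sqrt S2) :=
          mul_le_mul_of_nonneg_left h3 Φ.opNorm_nonneg
        _ = _ := by ring
    have h5 := sq_le_of_le_mul_sqrt (mul_nonneg Φ.opNorm_nonneg (Real.sqrt_nonneg _)) h4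
    rw [mul_pow, Real.sq_sqrt hC] at h5
    linarith
  have hxs : Summable (fun s => ξ s • u s) :=
    summable_of_sq _ (fun s => ξ s ^ 2) (fun _ => sq_nonneg _) _ hξ2 (fun A => hu A ξ)
  refine ⟨∑' s, ξ s • u s, ?_, fun φ => ?_⟩
  · rw [Q.map_tsum hxs]
    refine tsum_congr fun s => ?_
    rw [map_smul, hQ]
  set b : ι → ℝ := fun s => φ (u s) with hb
  have hb2 : ∀ A : Finset ι, ∑ s ∈ A, b s ^ 2 ≤ ‖φ‖ ^ 2 := by
    intro A
    set S2 := ∑ s ∈ A, b s ^ 2 with hS2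
    have e1 : φ (∑ s ∈ A, b s • u s) = S2 := by
      rw [map_sum, hS2]
      refine Finset.sum_congr rfl fun s _ => ?_
      rw [map_smul, smul_eq_mul, sq]
    have e2 : ‖∑ s ∈ A, b s • u s‖ ≤ Real.sqrt S2 :=
      Real.le_sqrt_of_sq_le (hu A b)
    have h4 : S2 ≤ ‖φ‖ * Real.sqrt S2 := by
      calc S2 = φ (∑ s ∈ A, b s • u s) := e1.symm
        _ ≤ |φ (∑ s ∈ A, b s • u s)| := le_abs_self _
        _ ≤ ‖φ‖ * ‖∑ s ∈ A, b s • u s‖ := φ.le_opNorm _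
        _ ≤ _ := mul_le_mul_of_nonneg_left e2 φ.opNorm_nonneg
    exact sq_le_of_le_mul_sqrt φ.opNorm_nonneg h4
  have hbs : Summable (fun s => b s • a s) :=
    summable_of_sq _ (fun s => C * b s ^ 2) (fun _ => mul_nonneg hC (sq_nonneg _))
      (C * ‖φ‖ ^ 2)
      (fun A => by
        rw [← Finset.mul_sum]
        exact mul_le_mul_of_nonneg_left (hb2 A) hC)
      (fun A => hdual A b)
  have hΨ : φ.comp Q = ∑' s, b s • a s := (hrep φ _ hbs.hasSum).symm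
  rw [hΨ, Φ.map_tsum hbs, φ.map_tsum hxs]
  refine tsum_congr fun s => ?_
  rw [map_smul, map_smul, smul_eq_mul, smul_eq_mul]
  exact mul_comm _ _

/-- The criterion: reflexivity. -/
theorem surjective_of_two_level (P : ℕ → E →L[ℝ] E)
    (hPP : ∀ k y, P k (P k y) = P k y)
    (ha : ∀ (K : Finset ℕ) (y : E), ∑ k ∈ K, ‖P k y‖ ^ 2 ≤ ‖y‖ ^ 2)
    (hb : ∀ (K : Finset ℕ) (w : ℕ → E), (∀ k ∈ K, P k (w k) = w k) →
      ‖∑ k ∈ K, w k‖ ^ 2 ≤ ∑ k ∈ K, ‖w k‖ ^ 2)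
    (hc : ∀ y : E, Tendsto (fun L => ∑ k ∈ Finset.range L, P k y) atTop (𝓝 y))
    {ι : Type*} (C : ℕ → ℝ) (hC : ∀ k, 0 ≤ C k) (u : ℕ → ι → E) (a : ℕ → ι → StrongDual ℝ E)
    (hu : ∀ k (A : Finset ι) (γ : ι → ℝ), ‖∑ s ∈ A, γ s • u k s‖ ^ 2 ≤ ∑ s ∈ A, γ s ^ 2)
    (hdual : ∀ k (A : Finset ι) (γ : ι → ℝ), ‖∑ s ∈ A, γ s • a k s‖ ^ 2 ≤ ∑ s ∈ A, (C k * γ s ^ 2))
    (hQ : ∀ k s, P k (u k s) = u k s)
    (hrep : ∀ k, ∀ φ ψ : StrongDual ℝ E, HasSum (fun s => φ (u k s) • a k s) ψ → ψ = φ.comp (P k)) :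
    Function.Surjective (NormedSpace.inclusionInDoubleDual ℝ E) := by
  intro Φ
  obtain ⟨x, hx⟩ := exists_rep_of_two_level P hPP ha hb hc
    (fun Φ k => exists_rep_component (C k) (hC k) (u k) (a k) (P k) (hu k) (hdual k) (hQ k) (hrep k) Φ) Φ
  exact ⟨x, ContinuousLinearMap.ext fun φ => by
    rw [NormedSpace.dual_def]; exact (hx φ).symm⟩

end main

end Crest.Agent.S0166Lib
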