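import Crest.Agent.S0166Lib.Game
import Crest.Agent.S0166Lib.TwoLevel

/-!
# Component projections of the space, and reflexivity
-/

set_option autoImplicit false

namespace Crest.Agent.S0166Lib

open Crest.AnalysisR Crest.AnalysisR.TreePotential Filter Topology

/-- A coefficient function with potentials and `ℓ²` norm bounded by one. -/
def UnitF (f : List ℕ → ℝ) : Prop :=
  (∀ s, |pathPotential f s| ≤ 1) ∧ ∀ A : Finset (List ℕ), ∑ s ∈ A, f s ^ 2 ≤ 1

lemma Test.unitF (h : Test) (k : ℕ) : UnitF (h.1 k) :=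
  ⟨h.2.potential_abs_le_one k, h.2.sum_sq_le_one k⟩

lemma isTest_comb (β : ℕ → ℝ) (hβ : ∀ K : Finset ℕ, ∑ k ∈ K, β k ^ 2 ≤ 1) (f : ℕ → List ℕ → ℝ)
    (hf : ∀ k, UnitF (f k)) : IsTest (fun k s => β k * f k s) := by
  refine isTest_of _ (fun k => |β k|) (fun k => abs_nonneg _)
    (fun K => by simpa only [sq_abs] using hβ K) (fun k s => ?_) (fun k A => ?_)
  · rw [pathPotential_smul, abs_mul]
    have := (hf k).1 s
    nlinarith [abs_nonneg (β k), abs_nonneg (pathPotential (f k) s)]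
  · have e : ∑ s ∈ A, (β k * f k s) ^ 2 = β k ^ 2 * ∑ s ∈ A, f k s ^ 2 := by
      rw [Finset.mul_sum]; exact Finset.sum_congr rfl fun s _ => mul_pow _ _ _
    rw [e, sq_abs]
    have := (hf k).2 A
    nlinarith [sq_nonneg (β k)]

/-- Combination test. -/
noncomputable def combT (β : ℕ → ℝ) (hβ : ∀ K : Finset ℕ, ∑ k ∈ K, β k ^ 2 ≤ 1)
    (f : ℕ → List ℕ → ℝ) (hf : ∀ k, UnitF (f k)) : Test := ⟨_, isTest_comb β hβ f hf⟩

lemma delta_budget (k : ℕ) (K : Finset ℕ) :
    ∑ j ∈ K, (if j = k then (1 : ℝ) else 0) ^ 2 ≤ 1 := by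
  have : ∀ j ∈ K, ((if j = k then (1 : ℝ) else 0) ^ 2) = if j = k then 1 else 0 := by
    intro j _; split_ifs <;> norm_num
  rw [Finset.sum_congr rfl this, Finset.sum_ite_eq' K k]
  split_ifs <;> norm_num

/-- A test supported on one component. -/
noncomputable def compT (k : ℕ) (f : List ℕ → ℝ) (hf : UnitF f) : Test :=
  combT (fun j => if j = k then 1 else 0) (delta_budget k) (fun _ => f) (fun _ => hf)

lemma compT_apply (k : ℕ) (f : List ℕ → ℝ) (hf : UnitF f) (j : ℕ) (t : List ℕ) :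
    (compT k f hf).1 j t = if j = k then f t else 0 := by
  show (if j = k then (1 : ℝ) else 0) * f t = _
  split_ifs <;> simp

/-- Restriction of a test to a component. -/
noncomputable def restrictT (k : ℕ) (h : Test) : Test := compT k (h.1 k) (h.unitF k)

lemma restrictT_apply (k : ℕ) (h : Test) (j : ℕ) (t : List ℕ) :
    (restrictT k h).1 j t = if j = k then h.1 k t else 0 := compT_apply _ _ _ _ _

lemma restrictT_idem (k : ℕ) (h : Test) : restrictT k (restrictT k h) = restrictT k h := by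
  apply Subtype.ext
  funext j t
  rw [restrictT_apply, restrictT_apply, restrictT_apply]
  simp

/-- Budget decomposition of a test. -/
lemma exists_decomp (h : Test) : ∃ (c : ℕ → ℝ) (f : ℕ → List ℕ → ℝ), (∀ k, 0 ≤ c k) ∧
    (∀ K : Finset ℕ, ∑ k ∈ K, c k ^ 2 ≤ 1) ∧ (∀ k, UnitF (f k)) ∧ ∀ k s, h.1 k s = c k * f k s := by
  obtain ⟨c, h0, h1, h2⟩ := h.2
  refine ⟨c, fun k s => (c k)⁻¹ * h.1 k s, h0, h1, fun k => ⟨fun s => ?_, fun A => ?_⟩, fun k s => ?_⟩
  · rw [pathPotential_smul, abs_mul, abs_of_nonneg (inv_nonneg.2 (h0 k))]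
    by_cases hc : c k = 0
    · simp [hc]
    · have hpos : 0 < c k := lt_of_le_of_ne (h0 k) (Ne.symm hc)
      rw [inv_mul_le_iff₀ hpos, mul_one]
      exact (h2 k).1 s
  · have e : ∑ s ∈ A, ((c k)⁻¹ * h.1 k s) ^ 2 = ((c k)⁻¹) ^ 2 * ∑ s ∈ A, h.1 k s ^ 2 := by
      rw [Finset.mul_sum]; exact Finset.sum_congr rfl fun s _ => mul_pow _ _ _
    rw [e]
    by_cases hc : c k = 0
    · simp [hc]
    · have hpos : 0 < c k := lt_of_le_of_ne (h0 k) (Ne.symm hc)
      have h3 := (h2 k).2 A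
      have h4 : ((c k)⁻¹) ^ 2 * c k ^ 2 = 1 := by field_simp
      calc _ ≤ ((c k)⁻¹) ^ 2 * c k ^ 2 := mul_le_mul_of_nonneg_left h3 (sq_nonneg _)
        _ = 1 := h4
  · by_cases hc : c k = 0
    · have h3 := (h2 k).2 {s}
      simp only [Finset.sum_singleton, hc] at h3
      have h4 : h.1 k s = 0 := by
        have : h.1 k s ^ 2 ≤ 0 := by simpa using h3
        nlinarith [sq_nonneg (h.1 k s)]
      simp [hc, h4]
    · field_simp

/-! ### The operators -/

/-- Precomposition with a map of tests. -/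
noncomputable def compAmb (r : Test → Test) : Ambient →L[ℝ] Ambient :=
  LinearMap.mkContinuous
    { toFun := fun y => ⟨fun h => (y : Test → ℝ) (r h), memℓp_infty ⟨‖y‖, by
        rintro _ ⟨h, rfl⟩
        exact lp.norm_apply_le_norm (by simp) y (r h)⟩⟩
      map_add' := fun a b => by ext h; rfl
      map_smul' := fun c a => by ext h; rfl } 1 (by
        intro y
        rw [one_mul]
        refine lp.norm_le_of_forall_le (norm_nonneg _) fun h => ?_
        exact lp.norm_apply_le_norm (by simp) y (r h))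

lemma compAmb_apply (r : Test → Test) (y : Ambient) (h : Test) :
    (compAmb r y : Test → ℝ) h = (y : Test → ℝ) (r h) := rfl

lemma compAmb_coordV (k j : ℕ) (t : List ℕ) :
    compAmb (restrictT k) (coordV j t) = if j = k then coordV j t else 0 := by
  ext h
  rw [compAmb_apply, coordV_apply, restrictT_apply]
  split_ifs with hj
  · subst hj; simp
  · simp

lemma compAmb_span (k : ℕ) {z : Ambient} (hz : z ∈ Submodule.span ℝ gens) :
    compAmb (restrictT k) z ∈ Submodule.span ℝ gens := by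
  induction hz using Submodule.span_induction with
  | mem z hz =>
      obtain ⟨j, t, ht, rfl⟩ := hz
      rw [compAmb_coordV]
      split_ifs
      · exact Submodule.subset_span ⟨j, t, ht, rfl⟩
      · exact Submodule.zero_mem _
  | zero => rw [map_zero]; exact Submodule.zero_mem _
  | add a b _ _ iha ihb =>
      rw [map_add]; exact Submodule.add_mem _ iha ihb
  | smul c a _ iha =>
      rw [map_smul]; exact Submodule.smul_mem _ c iha

lemma compAmb_mem (k : ℕ) (y : XX) : compAmb (restrictT k) (y : Ambient) ∈ spaceS := by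
  have hmaps : Set.MapsTo (compAmb (restrictT k))
      (Submodule.span ℝ gens : Set Ambient) (Submodule.span ℝ gens : Set Ambient) :=
    fun z hz => compAmb_span k hz
  exact map_mem_closure (compAmb (restrictT k)).continuous y.2 hmaps

/-- The component projection. -/
noncomputable def P (k : ℕ) : XX →L[ℝ] XX :=
  ((compAmb (restrictT k)).comp spaceS.subtypeL).codRestrict spaceS (fun y => compAmb_mem k y)

lemma ev_P (h : Test) (k : ℕ) (y : XX) : ev h (P k y) = ev (restrictT k h) y := rfl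

lemma XX_ext {y z : XX} (H : ∀ h, ev h y = ev h z) : y = z := by
  apply Subtype.ext
  ext h
  exact H h

lemma P_uu (k j : ℕ) (t : List ℕ) : P k (uu j t) = if j = k then uu j t else 0 := by
  apply XX_ext
  intro h
  rw [ev_P, ev_uu']
  by_cases ht : t.length ≤ j
  · rw [if_pos ht, restrictT_apply]
    by_cases hj : j = k
    · subst hj; simp [ev_uu _ ht]
    · simp [hj]
  · rw [if_neg ht, uu_of_invalid ht]
    simp

lemma P_idem (k : ℕ) (y : XX) : P k (P k y) = P k y := by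
  apply XX_ext
  intro h
  rw [ev_P, ev_P, ev_P, restrictT_idem]

/-! ### The two estimates -/

lemma sum_ev_restrict_le (K : Finset ℕ) (β : ℕ → ℝ) (hβ : ∑ k ∈ K, β k ^ 2 ≤ 1) (g : ℕ → Test)
    (y : XX) : ∑ k ∈ K, β k * ev (restrictT k (g k)) y ≤ ‖y‖ := by
  classical
  have hβ' : ∀ K' : Finset ℕ, ∑ k ∈ K', (if k ∈ K then β k else 0) ^ 2 ≤ 1 := by
    intro K'
    have e : ∀ k ∈ K', (if k ∈ K then β k else 0) ^ 2 = if k ∈ K then β k ^ 2 else 0 := by
      intro k _; split_ifs <;> simp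
    rw [Finset.sum_congr rfl e, Finset.sum_ite_mem]
    refine le_trans (Finset.sum_le_sum_of_subset_of_nonneg Finset.inter_subset_right
      fun _ _ _ => sq_nonneg _) hβ
  set H : Test := combT (fun k => if k ∈ K then β k else 0) hβ' (fun k => (g k).1 k)
    (fun k => (g k).unitF k) with hH
  have e : ev H = ∑ k ∈ K, β k • ev (restrictT k (g k)) := by
    refine clm_ext fun j t ht => ?_
    rw [ev_uu _ ht]
    have e1 : H.1 j t = (if j ∈ K then β j else 0) * (g j).1 j t := rfl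
    rw [e1, _root_.sum_apply]
    have e2 : ∀ k ∈ K, (β k • ev (restrictT k (g k))) (uu j t)
        = if j = k then β k * (g k).1 k t else 0 := by
      intro k _
      rw [_root_.smul_apply, ev_uu _ ht, restrictT_apply, smul_eq_mul]
      split_ifs <;> simp
    rw [Finset.sum_congr rfl e2, Finset.sum_ite_eq K j]
    split_ifs <;> simp
  have := ev_le H y
  rw [e, _root_.sum_apply] at this
  simpa using this

lemma sum_norm_P_le (K : Finset ℕ) (β : ℕ → ℝ) (hβ0 : ∀ k, 0 ≤ β k) (hβ : ∑ k ∈ K, β k ^ 2 ≤ 1)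
    (y : XX) : ∑ k ∈ K, β k * ‖P k y‖ ≤ ‖y‖ := by
  refine le_of_forall_pos_le_add fun ε' hε' => ?_
  set T := ∑ k ∈ K, β k with hT
  have hT0 : 0 ≤ T := Finset.sum_nonneg fun k _ => hβ0 k
  set ε := ε' / (T + 1) with hε
  have hε0 : 0 < ε := by positivity
  have hnear : ∀ k, ∃ g : Test, ‖P k y‖ - ε < ev (restrictT k g) y := fun k => by
    obtain ⟨g, hg⟩ := exists_test_near' (P k y) hε0
    exact ⟨g, by rwa [ev_P] at hg⟩
  choose g hg using hnear
  have h1 := sum_ev_restrict_le K β hβ g y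
  have h2 : ∑ k ∈ K, β k * ‖P k y‖ ≤ ∑ k ∈ K, β k * ev (restrictT k (g k)) y + ε * T := by
    rw [hT, Finset.mul_sum, ← Finset.sum_add_distrib]
    refine Finset.sum_le_sum fun k _ => ?_
    have := (hg k).le
    nlinarith [hβ0 k]
  have h3 : ε * T ≤ ε' := by
    rw [hε, div_mul_eq_mul_div, div_le_iff₀ (by positivity)]
    nlinarith
  linarith

/-- `(F3)` -/
lemma sum_norm_P_sq_le (K : Finset ℕ) (y : XX) : ∑ k ∈ K, ‖P k y‖ ^ 2 ≤ ‖y‖ ^ 2 := by
  set S2 := ∑ k ∈ K, ‖P k y‖ ^ 2 with hS2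
  by_cases hS : S2 ≤ 0
  · exact hS.trans (sq_nonneg _)
  push Not at hS
  have hR : 0 < Real.sqrt S2 := Real.sqrt_pos.2 hS
  have hRR : Real.sqrt S2 ^ 2 = S2 := Real.sq_sqrt hS.le
  have h1 := sum_norm_P_le K (fun k => ‖P k y‖ / Real.sqrt S2) (fun k => by positivity) (by
    have e : ∑ k ∈ K, (‖P k y‖ / Real.sqrt S2) ^ 2 = S2 / Real.sqrt S2 ^ 2 := by
      rw [hS2, Finset.sum_div]
      refine Finset.sum_congr rfl fun k _ => ?_
      rw [div_pow]
    rw [e, hRR, div_self hS.ne']) y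
  have e2 : ∑ k ∈ K, ‖P k y‖ / Real.sqrt S2 * ‖P k y‖ = S2 / Real.sqrt S2 := by
    rw [hS2, Finset.sum_div]
    refine Finset.sum_congr rfl fun k _ => ?_
    ring
  rw [e2, div_le_iff₀ hR] at h1
  refine sq_le_of_le_mul_sqrt (norm_nonneg _) h1

lemma ev_restrict_le (h : Test) (c : ℕ → ℝ) (f : ℕ → List ℕ → ℝ) (hc : ∀ k, 0 ≤ c k)
    (hf : ∀ k, UnitF (f k)) (hh : ∀ k s, h.1 k s = c k * f k s) (k : ℕ) (w : XX) :
    ev (restrictT k h) w ≤ c k * ‖w‖ := by
  have e : ev (restrictT k h) = c k • ev (compT k (f k) (hf k)) := by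
    refine clm_ext fun j t ht => ?_
    rw [_root_.smul_apply, ev_uu _ ht, ev_uu _ ht, restrictT_apply, compT_apply,
      smul_eq_mul]
    split_ifs
    · exact hh k t
    · simp
  rw [e, _root_.smul_apply, smul_eq_mul]
  exact mul_le_mul_of_nonneg_left (ev_le _ _) (hc k)

/-- `(F4)` -/
lemma norm_sum_sq_le (K : Finset ℕ) (w : ℕ → XX) (hw : ∀ k ∈ K, P k (w k) = w k) :
    ‖∑ k ∈ K, w k‖ ^ 2 ≤ ∑ k ∈ K, ‖w k‖ ^ 2 := by
  set S2 := ∑ k ∈ K, ‖w k‖ ^ 2 with hS2
  have hS0 : 0 ≤ S2 := Finset.sum_nonneg fun _ _ => sq_nonneg _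
  have : ‖∑ k ∈ K, w k‖ ≤ Real.sqrt S2 := by
    rw [norm_le_iff_ev]
    intro h
    obtain ⟨c, f, hc0, hc1, hf, hh⟩ := exists_decomp h
    rw [map_sum]
    have l1 : ∀ k ∈ K, ev h (w k) ≤ c k * ‖w k‖ := by
      intro k hk
      rw [← hw k hk, ev_P, hw k hk]
      exact ev_restrict_le h c f hc0 hf hh k (w k)
    refine (Finset.sum_le_sum l1).trans ?_
    refine (Real.sum_mul_le_sqrt_mul_sqrt _ _ _).trans ?_
    have l2 : Real.sqrt (∑ k ∈ K, c k ^ 2) ≤ 1 := Real.sqrt_le_one.2 (hc1 K)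
    calc _ ≤ 1 * Real.sqrt (∑ k ∈ K, ‖w k‖ ^ 2) := mul_le_mul_of_nonneg_right l2 (Real.sqrt_nonneg _)
      _ = _ := one_mul _
  calc _ ≤ Real.sqrt S2 ^ 2 := pow_le_pow_left₀ (norm_nonneg _) this 2
    _ = S2 := Real.sq_sqrt hS0

lemma norm_sum_P_le (L : ℕ) (y : XX) : ‖∑ k ∈ Finset.range L, P k y‖ ≤ ‖y‖ := by
  have h1 := norm_sum_sq_le (Finset.range L) (fun k => P k y) (fun k _ => P_idem k y)
  have h2 := sum_norm_P_sq_le (Finset.range L) y
  exact le_of_sq_le_sq (h1.trans h2) (norm_nonneg _)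

lemma eventually_fixed {z : XX} (hz : z ∈ Submodule.span ℝ uSet) :
    ∃ L0, ∀ L, L0 ≤ L → ∑ k ∈ Finset.range L, P k z = z := by
  classical
  induction hz using Submodule.span_induction with
  | mem z hz =>
      obtain ⟨j, t, ht, rfl⟩ := hz
      refine ⟨j + 1, fun L hL => ?_⟩
      have e : ∀ k ∈ Finset.range L, P k (uu j t) = if j = k then uu j t else 0 :=
        fun k _ => P_uu k j t
      rw [Finset.sum_congr rfl e, Finset.sum_ite_eq (Finset.range L) j]
      rw [if_pos (Finset.mem_range.2 (by omega))]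
  | zero => exact ⟨0, fun L _ => by simp⟩
  | add a b _ _ ha hb =>
      obtain ⟨La, hLa⟩ := ha
      obtain ⟨Lb, hLb⟩ := hb
      refine ⟨max La Lb, fun L hL => ?_⟩
      simp only [map_add, Finset.sum_add_distrib]
      rw [hLa L (le_trans (le_max_left _ _) hL), hLb L (le_trans (le_max_right _ _) hL)]
  | smul c a _ ha =>
      obtain ⟨La, hLa⟩ := ha
      refine ⟨La, fun L hL => ?_⟩
      simp only [map_smul, ← Finset.smul_sum]
      rw [hLa L hL]

/-- `(F5)` -/
lemma tendsto_sum_P (y : XX) : Tendsto (fun L => ∑ k ∈ Finset.range L, P k y) atTop (𝓝 y) := by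
  rw [Metric.tendsto_atTop]
  intro ε hε
  obtain ⟨z, hzy, hz⟩ := Metric.dense_iff.1 dense_span_uSet y (ε / 3) (by positivity)
  obtain ⟨L0, hL0⟩ := eventually_fixed hz
  refine ⟨L0, fun L hL => ?_⟩
  have hd : ‖y - z‖ < ε / 3 := by
    have : dist z y < ε / 3 := hzy
    rwa [dist_comm, dist_eq_norm] at this
  have e : (∑ k ∈ Finset.range L, P k y) - y = (∑ k ∈ Finset.range L, P k (y - z)) + (z - y) := by
    simp only [map_sub, Finset.sum_sub_distrib]
    rw [hL0 L hL]
    abel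
  rw [dist_eq_norm, e]
  have h1 := norm_sum_P_le L (y - z)
  have h2 : ‖z - y‖ = ‖y - z‖ := norm_sub_rev _ _
  calc _ ≤ ‖∑ k ∈ Finset.range L, P k (y - z)‖ + ‖z - y‖ := norm_add_le _ _
    _ < ε := by linarith

end Crest.Agent.S0166Lib
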