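import Mathlib

/-!
# S0166 library, part 1: the tree norms.

`H = ℓ²(List ℕ)`.  A test of height `k` is `f : H` with `‖f‖ ≤ 1` and with potentials
(`pot f u`, the sum of `f` over the suffixes of `u`) bounded by one at depth `≤ k`.
`N k x` is the supremum of `⟪f, x⟫` over tests; `‖x‖ / (k+1) ≤ N k x ≤ ‖x‖`.
`X k` is the type synonym of `H` with norm `N k`.
-/

set_option autoImplicit false

namespace Crest.Agent.S0166Lib

open scoped ENNReal InnerProductSpace

/-- The Hilbert space `ℓ²(List ℕ)`. -/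
abbrev H : Type := lp (fun _ : List ℕ => ℝ) 2

lemma H_hasSum_inner (f g : H) : HasSum (fun u => f u * g u) ⟪f, g⟫_ℝ := by
  have h := lp.hasSum_inner (𝕜 := ℝ) f g
  have h2 : (fun u => f u * g u) = fun u => ⟪f u, g u⟫_ℝ := by
    funext u
    rw [RCLike.inner_apply]
    simp [mul_comm]
  rw [h2]
  exact h

lemma H_inner (f g : H) : ⟪f, g⟫_ℝ = ∑' u, f u * g u :=
  (H_hasSum_inner f g).tsum_eq.symm

lemma H_summable_sq (f : H) : Summable fun u => f u ^ 2 := by
  have := (H_hasSum_inner f f).summable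
  simpa [sq] using this

lemma H_norm_sq (f : H) : ‖f‖ ^ 2 = ∑' u, f u ^ 2 := by
  have h1 : ‖f‖ ^ 2 = ⟪f, f⟫_ℝ := (real_inner_self_eq_norm_sq f).symm
  rw [h1, H_inner]
  simp [sq]

lemma H_apply_le (f : H) (u : List ℕ) : |f u| ≤ ‖f‖ := by
  have := lp.norm_apply_le_norm (p := 2) (by norm_num) f u
  simpa using this

/-- Build an element of `H` from a square summable function. -/
noncomputable def mkH (φ : List ℕ → ℝ) (hφ : Summable fun u => φ u ^ 2) : H :=
  ⟨φ, by
    apply memℓp_gen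
    simpa using hφ⟩

@[simp] lemma mkH_apply (φ : List ℕ → ℝ) (hφ : Summable fun u => φ u ^ 2) (u : List ℕ) :
    mkH φ hφ u = φ u := rfl

/-- The potential of `f` at a vertex: the sum of `f` over the vertex and its ancestors. -/
noncomputable def pot (f : List ℕ → ℝ) : List ℕ → ℝ
  | [] => f []
  | a :: v => pot f v + f (a :: v)

lemma pot_abs_le (f : H) (u : List ℕ) : |pot f u| ≤ (u.length + 1) * ‖f‖ := by
  induction u with
  | nil => simpa [pot] using H_apply_le f []
  | cons a v ih =>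
    simp only [pot, List.length_cons]
    have h1 := H_apply_le f (a :: v)
    have h2 := abs_add_le (pot f v) (f (a :: v))
    push_cast
    nlinarith [norm_nonneg f]

lemma pot_neg_fun (f : List ℕ → ℝ) (u : List ℕ) : pot (-f) u = - pot f u := by
  induction u with
  | nil => simp [pot]
  | cons a v ih => simp only [pot, ih, Pi.neg_apply]; ring

lemma pot_neg (f : H) (u : List ℕ) : pot (⇑(-f)) u = - pot f u := by
  rw [lp.coeFn_neg, pot_neg_fun]

lemma pot_zero_fun (u : List ℕ) : pot (0 : List ℕ → ℝ) u = 0 := by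
  induction u with
  | nil => simp [pot]
  | cons a v ih => simp [pot, ih]

/-- Tests of height `k`. -/
def IsTest (k : ℕ) (f : H) : Prop :=
  ‖f‖ ≤ 1 ∧ ∀ u : List ℕ, u.length ≤ k → |pot f u| ≤ 1

lemma isTest_zero (k : ℕ) : IsTest k (0 : H) := by
  refine ⟨by simp, fun u _ => ?_⟩
  have h0 : ⇑(0 : H) = (0 : List ℕ → ℝ) := rfl
  rw [h0, pot_zero_fun]
  simp

lemma IsTest.neg {k : ℕ} {f : H} (hf : IsTest k f) : IsTest k (-f) := by
  refine ⟨by simpa using hf.1, fun u hu => ?_⟩
  rw [pot_neg, abs_neg]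
  exact hf.2 u hu

/-- The test norm. -/
noncomputable def N (k : ℕ) (x : H) : ℝ := ⨆ f : {f : H // IsTest k f}, ⟪f.1, x⟫_ℝ

instance (k : ℕ) : Nonempty {f : H // IsTest k f} := ⟨⟨0, isTest_zero k⟩⟩

lemma N_bdd (k : ℕ) (x : H) : BddAbove (Set.range fun f : {f : H // IsTest k f} => ⟪f.1, x⟫_ℝ) := by
  refine ⟨‖x‖, ?_⟩
  rintro _ ⟨f, rfl⟩
  calc ⟪f.1, x⟫_ℝ ≤ ‖f.1‖ * ‖x‖ := real_inner_le_norm _ _
    _ ≤ 1 * ‖x‖ := by gcongr; exact f.2.1
    _ = ‖x‖ := one_mul _

lemma inner_le_N {k : ℕ} {f : H} (hf : IsTest k f) (x : H) : ⟪f, x⟫_ℝ ≤ N k x :=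
  le_ciSup (N_bdd k x) ⟨f, hf⟩

lemma N_le_of_forall {k : ℕ} {x : H} {c : ℝ} (h : ∀ f, IsTest k f → ⟪f, x⟫_ℝ ≤ c) : N k x ≤ c :=
  ciSup_le fun f => h f.1 f.2

lemma N_le_norm (k : ℕ) (x : H) : N k x ≤ ‖x‖ := by
  refine N_le_of_forall fun f hf => ?_
  calc ⟪f, x⟫_ℝ ≤ ‖f‖ * ‖x‖ := real_inner_le_norm _ _
    _ ≤ 1 * ‖x‖ := by gcongr; exact hf.1
    _ = ‖x‖ := one_mul _

lemma N_nonneg (k : ℕ) (x : H) : 0 ≤ N k x := by
  have := inner_le_N (isTest_zero k) x
  simpa using this

lemma N_add_le (k : ℕ) (x y : H) : N k (x + y) ≤ N k x + N k y := by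
  refine N_le_of_forall fun f hf => ?_
  rw [inner_add_right]
  exact add_le_add (inner_le_N hf x) (inner_le_N hf y)

lemma N_neg (k : ℕ) (x : H) : N k (-x) = N k x := by
  apply le_antisymm
  · refine N_le_of_forall fun f hf => ?_
    rw [inner_neg_right, ← inner_neg_left]
    exact inner_le_N hf.neg x
  · refine N_le_of_forall fun f hf => ?_
    have := inner_le_N hf.neg (-x)
    simpa using this

lemma N_smul_le (k : ℕ) (c : ℝ) (x : H) : N k (c • x) ≤ |c| * N k x := by
  refine N_le_of_forall fun f hf => ?_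
  rw [inner_smul_right]
  rcases le_total 0 c with h | h
  · rw [abs_of_nonneg h]
    exact mul_le_mul_of_nonneg_left (inner_le_N hf x) h
  · rw [abs_of_nonpos h]
    have := inner_le_N hf.neg x
    rw [inner_neg_left] at this
    nlinarith

lemma N_smul (k : ℕ) (c : ℝ) (x : H) : N k (c • x) = |c| * N k x := by
  apply le_antisymm (N_smul_le k c x)
  rcases eq_or_ne c 0 with rfl | hc
  · simp [N_nonneg]
  · have h := N_smul_le k c⁻¹ (c • x)
    rw [smul_smul, inv_mul_cancel₀ hc, one_smul, abs_inv] at h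
    have hc' : 0 < |c| := abs_pos.mpr hc
    calc |c| * N k x ≤ |c| * (|c|⁻¹ * N k (c • x)) := by gcongr
      _ = N k (c • x) := by field_simp

/-- Lower bound: `‖x‖ ≤ (k+1) N k x`. -/
lemma norm_le_N (k : ℕ) (x : H) : ‖x‖ ≤ (k + 1) * N k x := by
  rcases eq_or_ne x 0 with rfl | hx
  · simpa using mul_nonneg (by positivity : (0 : ℝ) ≤ (k : ℝ) + 1) (N_nonneg k 0)
  have hxpos : 0 < ‖x‖ := norm_pos_iff.mpr hx
  set c : ℝ := ((k : ℝ) + 1)⁻¹ * ‖x‖⁻¹ with hc
  have hcpos : 0 < c := by positivity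
  have hf : IsTest k (c • x) := by
    refine ⟨?_, fun u hu => ?_⟩
    · rw [norm_smul, Real.norm_of_nonneg hcpos.le, hc]
      have : ((k : ℝ) + 1)⁻¹ ≤ 1 := inv_le_one_of_one_le₀ (by linarith [(Nat.cast_nonneg k : (0:ℝ) ≤ k)])
      calc ((k : ℝ) + 1)⁻¹ * ‖x‖⁻¹ * ‖x‖ = ((k : ℝ) + 1)⁻¹ := by field_simp
        _ ≤ 1 := this
    · have h1 := pot_abs_le (c • x) u
      rw [norm_smul, Real.norm_of_nonneg hcpos.le] at h1
      have h2 : c * ‖x‖ = ((k : ℝ) + 1)⁻¹ := by rw [hc]; field_simp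
      rw [h2] at h1
      have h3 : ((u.length : ℝ) + 1) ≤ (k : ℝ) + 1 := by
        have : (u.length : ℝ) ≤ k := by exact_mod_cast hu
        linarith
      calc |pot (c • x : H) u| ≤ ((u.length : ℝ) + 1) * ((k : ℝ) + 1)⁻¹ := h1
        _ ≤ ((k : ℝ) + 1) * ((k : ℝ) + 1)⁻¹ := by gcongr
        _ = 1 := by field_simp
  have h := inner_le_N hf x
  rw [inner_smul_left, real_inner_self_eq_norm_sq] at h
  simp only [conj_trivial] at h
  have h4 : c * ‖x‖ ^ 2 = ‖x‖ * ((k : ℝ) + 1)⁻¹ := by rw [hc]; field_simp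
  rw [h4] at h
  have hk : (0 : ℝ) < (k : ℝ) + 1 := by positivity
  calc ‖x‖ = ((k : ℝ) + 1) * (‖x‖ * ((k : ℝ) + 1)⁻¹) := by field_simp
    _ ≤ ((k : ℝ) + 1) * N k x := by gcongr

lemma N_eq_zero {k : ℕ} {x : H} (h : N k x = 0) : x = 0 := by
  have := norm_le_N k x
  rw [h, mul_zero] at this
  exact norm_le_zero_iff.mp this

/-- `X k`: the space `H` with the norm `N k`. -/
def X (_k : ℕ) : Type := H

noncomputable instance (k : ℕ) : AddCommGroup (X k) := inferInstanceAs (AddCommGroup H)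

noncomputable instance (k : ℕ) : Module ℝ (X k) := inferInstanceAs (Module ℝ H)

/-- The identity map from `X k` to `H`, linearly. -/
noncomputable def toH (k : ℕ) : X k ≃ₗ[ℝ] H := LinearEquiv.refl ℝ H

/-- The additive group norm `N k` on `X k`. -/
noncomputable def NGroupNorm (k : ℕ) : AddGroupNorm (X k) where
  toFun x := N k (toH k x)
  map_zero' := by
    have h := N_le_norm k 0
    have h2 := N_nonneg k 0
    simp only [map_zero]
    exact le_antisymm (by simpa using h) h2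
  add_le' x y := by
    rw [map_add]
    exact N_add_le k _ _
  neg' x := by
    rw [map_neg]
    exact N_neg k _
  eq_zero_of_map_eq_zero' x hx := by
    have := N_eq_zero hx
    exact (toH k).map_eq_zero_iff.mp this

noncomputable instance (k : ℕ) : NormedAddCommGroup (X k) :=
  (NGroupNorm k).toNormedAddCommGroup

lemma X_norm (k : ℕ) (x : X k) : ‖x‖ = N k (toH k x) := rfl

noncomputable instance (k : ℕ) : NormedSpace ℝ (X k) where
  norm_smul_le c x := by
    rw [X_norm, X_norm, map_smul]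
    exact N_smul_le k c _

/-- The identity map `X k → H` is bounded. -/
noncomputable def toHL (k : ℕ) : X k →L[ℝ] H :=
  LinearMap.mkContinuous (toH k).toLinearMap ((k : ℝ) + 1) fun x => by
    rw [X_norm]
    exact norm_le_N k _

/-- The identity map `H → X k` is bounded. -/
noncomputable def ofHL (k : ℕ) : H →L[ℝ] X k :=
  LinearMap.mkContinuous (toH k).symm.toLinearMap 1 fun x => by
    rw [one_mul, X_norm]
    simpa using N_le_norm k x

/-- The linear homeomorphism between `X k` and `H`. -/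
noncomputable def XequivH (k : ℕ) : X k ≃L[ℝ] H :=
  { toH k with
    continuous_toFun := (toHL k).continuous
    continuous_invFun := (ofHL k).continuous }

@[simp] lemma XequivH_apply (k : ℕ) (x : X k) : XequivH k x = toH k x := rfl

instance (k : ℕ) : CompleteSpace (X k) :=
  (completeSpace_congr (e := (XequivH k).toEquiv) (XequivH k).isUniformEmbedding).mpr inferInstance

end Crest.Agent.S0166Lib
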