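import Crest.Agent.S0166Lib.RMS
import Crest.Agent.Lib.AUCGame

/-!
# Coordinate estimates and the branching game: no equivalent norm is AUC
-/

set_option autoImplicit false

namespace Crest.Agent.S0166Lib

open Crest.AnalysisR Crest.AnalysisR.TreePotential

lemma IsTest.potential_abs_le_one {h : ℕ → List ℕ → ℝ} (hh : IsTest h) (k : ℕ) (s : List ℕ) :
    |pathPotential (h k) s| ≤ 1 := by
  obtain ⟨c, h0, h1, h2⟩ := hh
  have a1 := (h2 k).1 s
  have a2 := h1 {k}
  simp only [Finset.sum_singleton] at a2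
  have : c k ≤ 1 := by nlinarith [h0 k]
  exact a1.trans this

lemma IsTest.sum_sq_le_one {h : ℕ → List ℕ → ℝ} (hh : IsTest h) (k : ℕ) (A : Finset (List ℕ)) :
    ∑ s ∈ A, h k s ^ 2 ≤ 1 := by
  obtain ⟨c, h0, h1, h2⟩ := hh
  have a1 := (h2 k).2 A
  have a2 := h1 {k}
  simp only [Finset.sum_singleton] at a2
  exact a1.trans a2

/-- Upper estimate of a finite combination in one component. -/
lemma norm_sum_uu_sq_le (k : ℕ) (A : Finset (List ℕ)) (γ : List ℕ → ℝ) :
    ‖∑ s ∈ A, γ s • uu k s‖ ^ 2 ≤ ∑ s ∈ A, γ s ^ 2 := by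
  have hγ : 0 ≤ ∑ s ∈ A, γ s ^ 2 := Finset.sum_nonneg fun _ _ => sq_nonneg _
  have : ‖∑ s ∈ A, γ s • uu k s‖ ≤ Real.sqrt (∑ s ∈ A, γ s ^ 2) := by
    rw [norm_le_iff_ev]
    intro h
    have e : ev h (∑ s ∈ A, γ s • uu k s) = ∑ s ∈ A, γ s * (if s.length ≤ k then h.1 k s else 0) := by
      rw [map_sum]
      refine Finset.sum_congr rfl fun s _ => ?_
      rw [map_smul, ev_uu', smul_eq_mul]
    rw [e]
    apply Real.le_sqrt_of_sq_le
    refine (Finset.sum_mul_sq_le_sq_mul_sq _ _ _).trans ?_
    have h2 : ∑ s ∈ A, (if s.length ≤ k then h.1 k s else 0) ^ 2 ≤ 1 := by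
      refine le_trans (Finset.sum_le_sum fun s _ => ?_) (h.2.sum_sq_le_one k A)
      split_ifs
      · exact le_rfl
      · simpa using sq_nonneg _
    calc _ ≤ (∑ s ∈ A, γ s ^ 2) * 1 := mul_le_mul_of_nonneg_left h2 hγ
      _ = _ := mul_one _
  calc ‖∑ s ∈ A, γ s • uu k s‖ ^ 2 ≤ (Real.sqrt (∑ s ∈ A, γ s ^ 2)) ^ 2 := by
        exact pow_le_pow_left₀ (norm_nonneg _) this 2
    _ = _ := Real.sq_sqrt hγ

lemma norm_uu_le (k : ℕ) (s : List ℕ) : ‖uu k s‖ ≤ 1 := by
  have := norm_sum_uu_sq_le k {s} (fun _ => 1)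
  simp only [Finset.sum_singleton, one_smul] at this
  have h0 := norm_nonneg (uu k s)
  nlinarith

lemma one_le_norm_uu {k : ℕ} {s : List ℕ} (hs : s.length ≤ k) : 1 ≤ ‖uu k s‖ := by
  have := ev_le (deltaT k s) (uu k s)
  rw [ev_delta_uu hs] at this
  simpa using this

/-- Branch sums. -/
noncomputable def pathSum (k : ℕ) : List ℕ → XX
  | [] => uu k []
  | n :: v => pathSum k v + uu k (n :: v)

lemma ev_pathSum (h : Test) {k : ℕ} {r : List ℕ} (hr : r.length ≤ k) :
    ev h (pathSum k r) = pathPotential (h.1 k) r := by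
  induction r with
  | nil => simp only [pathSum, pathPotential]; exact ev_uu h hr
  | cons n v ih =>
      have hv : v.length ≤ k := by
        simp only [List.length_cons] at hr; omega
      simp only [pathSum, pathPotential, map_add, ih hv, ev_uu h hr]

lemma norm_pathSum_le {k : ℕ} {r : List ℕ} (hr : r.length ≤ k) : ‖pathSum k r‖ ≤ 1 := by
  rw [norm_le_iff_ev]
  intro h
  rw [ev_pathSum h hr]
  exact (le_abs_self _).trans (h.2.potential_abs_le_one k r)

lemma one_le_norm_pathSum {k : ℕ} {r : List ℕ} (hr : r.length ≤ k) : 1 ≤ ‖pathSum k r‖ := by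
  have := ev_le (deltaT k r) (pathSum k r)
  rw [ev_pathSum _ hr] at this
  have e : (deltaT k r).1 k = fun t => if t = r then (1 : ℝ) else 0 := by
    funext t; simp [deltaT]
  rw [e, pathPotential_delta] at this
  simpa using this

/-- Siblings get arbitrarily close to any closed finite-codimensional subspace. -/
lemma exists_sibling_near (S : Submodule ℝ XX) (hS : IsClosed (S : Set XX))
    (hfd : FiniteDimensional ℝ (XX ⧸ S)) (k : ℕ) (r : List ℕ) {δ : ℝ} (hδ : 0 < δ) :
    ∃ n, ∃ y ∈ S, ‖uu k (n :: r) - y‖ < δ := by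
  classical
  have hu : ∀ A : Finset ℕ, ‖∑ n ∈ A, uu k (n :: r)‖ ≤ 1 * Real.sqrt A.card := by
    intro A
    have := norm_sum_uu_sq_le k (A.image (fun n => n :: r)) (fun _ => 1)
    have hi : Function.Injective (fun n : ℕ => n :: r) := fun a b h => by
      simpa using (List.cons.inj h).1
    rw [Finset.sum_image (fun a _ b _ h => hi h), Finset.sum_image (fun a _ b _ h => hi h)] at this
    simp only [one_smul, one_pow, Finset.sum_const, smul_eq_mul, mul_one, nsmul_eq_mul] at this
    rw [one_mul]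
    exact Real.le_sqrt_of_sq_le this
  obtain ⟨n, y, hy, hyn⟩ := Crest.Agent.AUCGame.exists_near_of_sqrt_bound
    (fun n => uu k (n :: r)) 1 hu (F := (S : Set XX)) ⟨S, rfl, hS, hfd⟩ hδ
  exact ⟨n, y, hy, by rw [norm_sub_rev]; exact hyn⟩

/-- The branching game: no equivalent norm is AUC. The hypotheses are the unfolded forms. -/
theorem no_auc (N : XX → ℝ) (hsub : ∀ x y : XX, N (x + y) ≤ N x + N y)
    (hhom : ∀ (c : ℝ) (x : XX), N (c • x) = |c| * N x)
    {a b : ℝ} (ha : 0 < a) (hN : ∀ x : XX, a * ‖x‖ ≤ N x ∧ N x ≤ b * ‖x‖)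
    (hauc : ∀ t : ℝ, 0 < t → ∃ c : ℝ, 0 < c ∧ ∀ x : XX, N x = 1 →
      ∃ S : Submodule ℝ XX, IsClosed (S : Set XX) ∧ FiniteDimensional ℝ (XX ⧸ S) ∧
        ∀ y ∈ S, N y = 1 → c ≤ N (x + t • y) - 1) : False := by
  have hb : 0 < b := by
    have h1 := hN (uu 0 [])
    have h2 : (1 : ℝ) ≤ ‖uu 0 []‖ := one_le_norm_uu (by simp)
    have h3 : a * ‖uu 0 []‖ ≤ b * ‖uu 0 []‖ := h1.1.trans h1.2
    have h4 : a ≤ b := le_of_mul_le_mul_right h3 (by linarith)
    linarith
  obtain ⟨c, hc, hauc⟩ := hauc (a / (2 * b)) (by positivity)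
  -- one step of the game
  have step : ∀ x : XX, a ≤ N x → N x ≤ b →
      ∃ S : Submodule ℝ XX, IsClosed (S : Set XX) ∧ FiniteDimensional ℝ (XX ⧸ S) ∧
        ∀ z ∈ S, a / 2 ≤ N z → (1 + c) * N x ≤ N (x + z) := by
    intro x hx1 hx2
    have hx0 : 0 < N x := lt_of_lt_of_le ha hx1
    have hunit : N ((N x)⁻¹ • x) = 1 := by
      rw [hhom, abs_of_pos (inv_pos.2 hx0)]
      exact inv_mul_cancel₀ hx0.ne'
    obtain ⟨S, hS, hfd, hSy⟩ := hauc _ hunit
    refine ⟨S, hS, hfd, fun z hz hzN => ?_⟩
    have hz0 : 0 < N z := by linarith [half_pos ha]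
    have hyS : (N z)⁻¹ • z ∈ S := S.smul_mem _ hz
    have hyN : N ((N z)⁻¹ • z) = 1 := by
      rw [hhom, abs_of_pos (inv_pos.2 hz0)]
      exact inv_mul_cancel₀ hz0.ne'
    have key := hSy _ hyS hyN
    set τ := a / (2 * b) * N x / N z with hτ
    have hτ0 : 0 < τ := by positivity
    have hτ1 : τ ≤ 1 := by
      rw [hτ, div_le_one hz0]
      calc a / (2 * b) * N x ≤ a / (2 * b) * b := mul_le_mul_of_nonneg_left hx2 (by positivity)
        _ = a / 2 := by field_simp
        _ ≤ N z := hzN
    -- scale the inequality by `N x`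
    have e1 : (N x) • ((N x)⁻¹ • x + (a / (2 * b)) • (N z)⁻¹ • z) = x + τ • z := by
      rw [smul_add, smul_smul, smul_smul, mul_inv_cancel₀ hx0.ne', one_smul, smul_smul]
      congr 2
      rw [hτ]; field_simp
    have e2 : N (x + τ • z) = N x * N ((N x)⁻¹ • x + (a / (2 * b)) • (N z)⁻¹ • z) := by
      rw [← e1, hhom, abs_of_pos hx0]
    have h1 : (1 + c) * N x ≤ N (x + τ • z) := by
      rw [e2]
      have : 1 + c ≤ N ((N x)⁻¹ • x + (a / (2 * b)) • (N z)⁻¹ • z) := by linarith
      nlinarith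
    -- convexity along the segment
    have conv : N (x + τ • z) ≤ (1 - τ) * N x + τ * N (x + z) := by
      have e3 : x + τ • z = (1 - τ) • x + τ • (x + z) := by
        simp only [smul_add, sub_smul, one_smul]; abel
      rw [e3]
      refine (hsub _ _).trans ?_
      rw [hhom, hhom, abs_of_nonneg (by linarith), abs_of_pos hτ0]
    have h2 : (c + τ) * N x ≤ τ * N (x + z) := by nlinarith
    have h3 : τ * ((1 + c) * N x) ≤ τ * N (x + z) := by
      have : τ * c * N x ≤ c * N x := by
        have : τ * c ≤ c := by nlinarith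
        exact mul_le_mul_of_nonneg_right this hx0.le
      nlinarith
    exact le_of_mul_le_mul_left h3 hτ0
  have hgrow : 1 < 1 + c / 2 := by linarith
  obtain ⟨k, hk⟩ := pow_unbounded_of_one_lt (b / a) hgrow
  have hk' : b < (1 + c / 2) ^ k * a := by
    rwa [div_lt_iff₀ ha] at hk
  -- the induction along a branch
  have main : ∀ j, j ≤ k → ∃ r : List ℕ, r.length = j ∧ (1 + c / 2) ^ j * a ≤ N (pathSum k r) := by
    intro j
    induction j with
    | zero =>
        intro _
        refine ⟨[], rfl, ?_⟩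
        have h1 := (hN (pathSum k [])).1
        have h2 : 1 ≤ ‖pathSum k []‖ := one_le_norm_pathSum (by simp)
        simp only [pow_zero, one_mul]
        nlinarith
    | succ j ih =>
        intro hj
        obtain ⟨r, hr, hN1⟩ := ih (by omega)
        have hrv : r.length ≤ k := by omega
        have hx1 : a ≤ N (pathSum k r) := by
          have h1 := (hN (pathSum k r)).1
          have h2 := one_le_norm_pathSum hrv
          nlinarith
        have hx2 : N (pathSum k r) ≤ b := by
          have h1 := (hN (pathSum k r)).2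
          have h2 := norm_pathSum_le hrv
          nlinarith
        obtain ⟨S, hS, hfd, hSz⟩ := step _ hx1 hx2
        set δ := min (1 / 2) (c * a / (2 * b)) with hδ
        have hδ0 : 0 < δ := lt_min (by norm_num) (by positivity)
        obtain ⟨n, y, hy, hyn⟩ := exists_sibling_near S hS hfd k r hδ0
        have hvn : (n :: r).length ≤ k := by simp; omega
        have hy1 : 1 / 2 ≤ ‖y‖ := by
          have h1 := one_le_norm_uu hvn
          have h2 : ‖uu k (n :: r)‖ ≤ ‖uu k (n :: r) - y‖ + ‖y‖ := by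
            have := norm_sub_le (uu k (n :: r) - y) (-y)
            simpa using this
          have h3 : δ ≤ 1 / 2 := min_le_left _ _
          linarith
        have hyN : a / 2 ≤ N y := by
          have := (hN y).1
          nlinarith
        have hstep := hSz y hy hyN
        refine ⟨n :: r, by simp [hr], ?_⟩
        have hdiff : N (y - uu k (n :: r)) ≤ c * a / 2 := by
          have h1 := (hN (y - uu k (n :: r))).2
          have h2 : ‖y - uu k (n :: r)‖ < δ := by rw [norm_sub_rev]; exact hyn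
          have h3 : δ ≤ c * a / (2 * b) := min_le_right _ _
          calc N (y - uu k (n :: r)) ≤ b * ‖y - uu k (n :: r)‖ := h1
            _ ≤ b * (c * a / (2 * b)) := mul_le_mul_of_nonneg_left (h2.le.trans h3) hb.le
            _ = c * a / 2 := by field_simp
        have htri : N (pathSum k r + y) ≤ N (pathSum k (n :: r)) + N (y - uu k (n :: r)) := by
          have e : pathSum k r + y = pathSum k (n :: r) + (y - uu k (n :: r)) := by
            simp only [pathSum]; abel
          rw [e]; exact hsub _ _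
        have h4 : (1 + c / 2) * N (pathSum k r) ≤ N (pathSum k (n :: r)) := by
          nlinarith
        calc (1 + c / 2) ^ (j + 1) * a = (1 + c / 2) * ((1 + c / 2) ^ j * a) := by ring
          _ ≤ (1 + c / 2) * N (pathSum k r) := mul_le_mul_of_nonneg_left hN1 (by positivity)
          _ ≤ _ := h4
  obtain ⟨r, hr, hfin⟩ := main k le_rfl
  have h1 := (hN (pathSum k r)).2
  have h2 := norm_pathSum_le (k := k) (r := r) hr.le
  nlinarith

end Crest.Agent.S0166Lib
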