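import Mathlib
import Crest.Agent.S0166Lib.Abstract

/-!
# ℓ₂-sums: squares of norms, RMS, reflexivity, separability
-/

set_option autoImplicit false

namespace Crest.Agent.S0166Lib

open Crest.AnalysisR Crest.Agent.AUCGame

/-- The halved RMS form. -/
def RMSHalf (X : Type) [NormedAddCommGroup X] [NormedSpace ℝ X] : Prop :=
  ∀ (x : X) (η : ℝ), 0 < η → ∃ F : Set X, Cof F ∧ ∀ y ∈ F,
    Real.sqrt (‖x‖ ^ 2 + ‖y‖ ^ 2 / 4) - η ≤ (‖x + y‖ + ‖x - y‖) / 2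

/-- Termwise arithmetic. -/
theorem rms_term {p q A B e M : ℝ} (hA : 0 ≤ A) (hB : 0 ≤ B) (he : 0 ≤ e) (hM0 : 0 ≤ M)
    (hM : M ^ 2 = p ^ 2 + q ^ 2 / 4) (h : M - e ≤ (A + B) / 2) :
    2 * p ^ 2 + (1 / 2) * q ^ 2 - 4 * M * e ≤ A ^ 2 + B ^ 2 := by
  have hsq : 2 * p ^ 2 + (1 / 2) * q ^ 2 = 2 * M ^ 2 := by rw [hM]; ring
  rw [hsq]
  by_cases hc : M ≤ e
  · have : 2 * M ^ 2 - 4 * M * e ≤ 0 := by nlinarith
    nlinarith [sq_nonneg A, sq_nonneg B]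
  · push Not at hc
    have h1 : 0 ≤ M - e := by linarith
    have h2 : (M - e) ^ 2 ≤ ((A + B) / 2) ^ 2 := by gcongr
    nlinarith [sq_nonneg (A - B), sq_nonneg e]

section lpsum

variable {X : ℕ → Type} [∀ k, NormedAddCommGroup (X k)] [∀ k, NormedSpace ℝ (X k)]

theorem hasSum_sq (v : lp X 2) : HasSum (fun k => ‖v k‖ ^ 2) (‖v‖ ^ 2) := by
  have := lp.hasSum_norm (p := 2) (by norm_num) v
  simpa [ENNReal.toReal_ofNat, Real.rpow_two] using this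

theorem sum_sq_le (v : lp X 2) (A : Finset ℕ) : ∑ k ∈ A, ‖v k‖ ^ 2 ≤ ‖v‖ ^ 2 :=
  sum_le_hasSum A (fun _ _ => by positivity) (hasSum_sq v)

theorem apply_norm_le (v : lp X 2) (k : ℕ) : ‖v k‖ ≤ ‖v‖ :=
  lp.norm_apply_le_norm (by norm_num) v k

/-- The RMS property passes to ℓ₂-sums. -/
theorem rmsSq_lp (h : ∀ k, RMSHalf (X k)) : RMSSq (lp X 2) := by
  intro x η hη
  -- a large finite set
  obtain ⟨s, hs⟩ : ∃ s : Finset ℕ, ‖x‖ ^ 2 - η / 4 ≤ ∑ k ∈ s, ‖x k‖ ^ 2 := by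
    have hx := hasSum_sq x
    have := (hx.eventually (lt_mem_nhds (show ‖x‖ ^ 2 - η / 4 < ‖x‖ ^ 2 by linarith))).exists
    obtain ⟨s, hs⟩ := this
    exact ⟨s, hs.le⟩
  obtain ⟨e, he⟩ : ∃ e : ℝ, e = η / (8 * ((s.card : ℝ) + 1) * (1 + ‖x‖)) := ⟨_, rfl⟩
  have he0 : 0 < e := by rw [he]; positivity
  have hee : ∀ Y : ℝ, 0 ≤ Y → (s.card : ℝ) * (4 * (‖x‖ + Y) * e) ≤ η / 2 * (1 + Y) := by
    intro Y hY
    rw [he]
    have hx0 := norm_nonneg x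
    have hc0 : (0 : ℝ) ≤ s.card := by positivity
    have e1 : (s.card : ℝ) * (4 * (‖x‖ + Y) * (η / (8 * ((s.card : ℝ) + 1) * (1 + ‖x‖))))
        = η / 2 * ((s.card : ℝ) / ((s.card : ℝ) + 1) * ((‖x‖ + Y) / (1 + ‖x‖))) := by
      field_simp
      ring
    rw [e1]
    have h2 : (s.card : ℝ) / ((s.card : ℝ) + 1) ≤ 1 := by
      rw [div_le_one (by positivity)]; linarith
    have h3 : (‖x‖ + Y) / (1 + ‖x‖) ≤ 1 + Y := by
      rw [div_le_iff₀ (by positivity)]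
      nlinarith [mul_nonneg hx0 hY]
    have h4 : 0 ≤ (‖x‖ + Y) / (1 + ‖x‖) := by positivity
    have h5 : (s.card : ℝ) / ((s.card : ℝ) + 1) * ((‖x‖ + Y) / (1 + ‖x‖)) ≤ 1 + Y := by
      calc _ ≤ 1 * ((‖x‖ + Y) / (1 + ‖x‖)) := by gcongr
        _ ≤ 1 + Y := by rw [one_mul]; exact h3
    gcongr
  choose F hF hFy using fun k => h k (x k) e he0
  refine ⟨⋂ k ∈ s, (lp.evalCLM ℝ X 2 k) ⁻¹' (F k),
    Cof.biInter _ _ (fun k _ => Cof.comap (hF k) _), fun y hy => ?_⟩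
  have hyk : ∀ k ∈ s, y k ∈ F k := by
    intro k hk
    have := Set.mem_iInter₂.mp hy k hk
    exact this
  -- the sum
  have hg : HasSum (fun k => ‖(x + y) k‖ ^ 2 + ‖(x - y) k‖ ^ 2 - (1 / 2) * ‖y k‖ ^ 2)
      (‖x + y‖ ^ 2 + ‖x - y‖ ^ 2 - (1 / 2) * ‖y‖ ^ 2) :=
    ((hasSum_sq (x + y)).add (hasSum_sq (x - y))).sub ((hasSum_sq y).mul_left (1 / 2))
  have hnn : ∀ k, 0 ≤ ‖(x + y) k‖ ^ 2 + ‖(x - y) k‖ ^ 2 - (1 / 2) * ‖y k‖ ^ 2 := by
    intro k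
    have h1 : (2 : ℝ) * ‖y k‖ ≤ ‖(x + y) k‖ + ‖(x - y) k‖ := by
      have e1 : (2 : ℝ) • y k = (x + y) k - (x - y) k := by
        simp only [lp.coeFn_add, lp.coeFn_sub, Pi.add_apply, Pi.sub_apply]
        module
      have e2 := norm_sub_le ((x + y) k) ((x - y) k)
      rw [← e1, norm_smul] at e2
      simpa using e2
    nlinarith [sq_nonneg (‖(x + y) k‖ - ‖(x - y) k‖), sq_nonneg ‖y k‖, norm_nonneg (y k)]
  have hle := sum_le_hasSum s (fun k _ => hnn k) hg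
  have hterm : ∀ k ∈ s, 2 * ‖x k‖ ^ 2 - 4 * (‖x‖ + ‖y‖) * e ≤
      ‖(x + y) k‖ ^ 2 + ‖(x - y) k‖ ^ 2 - (1 / 2) * ‖y k‖ ^ 2 := by
    intro k hk
    have h1 := hFy k (y k) (hyk k hk)
    have hM : Real.sqrt (‖x k‖ ^ 2 + ‖y k‖ ^ 2 / 4) ^ 2 = ‖x k‖ ^ 2 + ‖y k‖ ^ 2 / 4 :=
      Real.sq_sqrt (by positivity)
    have h2 := rms_term (p := ‖x k‖) (q := ‖y k‖) (A := ‖x k + y k‖) (B := ‖x k - y k‖)
      (norm_nonneg _) (norm_nonneg _) he0.le (Real.sqrt_nonneg _) hM h1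
    have hM' : Real.sqrt (‖x k‖ ^ 2 + ‖y k‖ ^ 2 / 4) ≤ ‖x‖ + ‖y‖ := by
      rw [Real.sqrt_le_left (by positivity)]
      have h3 := apply_norm_le x k
      have h4 := apply_norm_le y k
      have h5 := norm_nonneg (x k)
      have h6 := norm_nonneg (y k)
      nlinarith [mul_nonneg (norm_nonneg x) (norm_nonneg y), mul_nonneg h5 h5]
    have h3 : 4 * Real.sqrt (‖x k‖ ^ 2 + ‖y k‖ ^ 2 / 4) * e ≤ 4 * (‖x‖ + ‖y‖) * e := by gcongr
    have e1 : ‖(x + y) k‖ = ‖x k + y k‖ := rfl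
    have e2 : ‖(x - y) k‖ = ‖x k - y k‖ := rfl
    rw [e1, e2]
    linarith
  have hsum := Finset.sum_le_sum hterm
  rw [Finset.sum_sub_distrib, Finset.sum_const, nsmul_eq_mul, ← Finset.mul_sum] at hsum
  have h5 := hee ‖y‖ (norm_nonneg y)
  have h6 : 0 ≤ η * ‖y‖ := by positivity
  nlinarith

/-- Cauchy-Schwarz in the ℓ₂-sum. -/
theorem sum_mul_norm_le (v : lp X 2) (c : ℕ → ℝ) (A : Finset ℕ) :
    ∑ k ∈ A, c k * ‖v k‖ ≤ Real.sqrt (∑ k ∈ A, c k ^ 2) * ‖v‖ := by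
  have h1 := Real.sum_mul_le_sqrt_mul_sqrt A c (fun k => ‖v k‖)
  refine h1.trans ?_
  gcongr
  refine Real.sqrt_le_iff.mpr ⟨norm_nonneg _, sum_sq_le v A⟩

/-- From `S ≤ M * √S` to `S ≤ M²`. -/
theorem sq_le_of_le_mul_sqrt {S M : ℝ} (hS : 0 ≤ S) (hM : 0 ≤ M) (h : S ≤ M * Real.sqrt S) :
    S ≤ M ^ 2 := by
  have h1 := Real.sq_sqrt hS
  have h2 := Real.sqrt_nonneg S
  by_cases h3 : Real.sqrt S = 0
  · rw [h3] at h1
    nlinarith [sq_nonneg M]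
  · have h4 : 0 < Real.sqrt S := lt_of_le_of_ne h2 (Ne.symm h3)
    have h5 : Real.sqrt S ≤ M := by
      have : Real.sqrt S * Real.sqrt S ≤ M * Real.sqrt S := by nlinarith
      exact le_of_mul_le_mul_right this h4
    nlinarith

/-- Bidual estimate. -/
theorem sum_sq_bidual_le (Φ : StrongDual ℝ (StrongDual ℝ (lp X 2))) (x : ∀ k, X k)
    (hx : ∀ k (φ : StrongDual ℝ (X k)), Φ (φ.comp (lp.evalCLM ℝ X 2 k)) = φ (x k))
    (A : Finset ℕ) : ∑ k ∈ A, ‖x k‖ ^ 2 ≤ ‖Φ‖ ^ 2 := by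
  choose φ hφ hφx using fun k => exists_dual_vector'' ℝ (x k)
  set ψ : StrongDual ℝ (lp X 2) := ∑ k ∈ A, ‖x k‖ • (φ k).comp (lp.evalCLM ℝ X 2 k) with hψ
  have hψv : ∀ v : lp X 2, ψ v = ∑ k ∈ A, ‖x k‖ * φ k (v k) := by
    intro v
    simp only [hψ, sum_apply, smul_apply,
      ContinuousLinearMap.comp_apply, smul_eq_mul]
    rfl
  have hψn : ‖ψ‖ ≤ Real.sqrt (∑ k ∈ A, ‖x k‖ ^ 2) := by
    refine ContinuousLinearMap.opNorm_le_bound _ (Real.sqrt_nonneg _) fun v => ?_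
    rw [hψv, Real.norm_eq_abs]
    refine (Finset.abs_sum_le_sum_abs _ _).trans ?_
    refine le_trans (Finset.sum_le_sum fun k _ => ?_) (sum_mul_norm_le v (fun k => ‖x k‖) A)
    rw [abs_mul, abs_of_nonneg (norm_nonneg _)]
    gcongr
    calc |φ k (v k)| = ‖φ k (v k)‖ := rfl
      _ ≤ ‖φ k‖ * ‖v k‖ := (φ k).le_opNorm _
      _ ≤ 1 * ‖v k‖ := by gcongr; exact hφ k
      _ = ‖v k‖ := one_mul _
  have hΦψ : Φ ψ = ∑ k ∈ A, ‖x k‖ ^ 2 := by
    rw [hψ, map_sum]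
    refine Finset.sum_congr rfl fun k _ => ?_
    rw [map_smul, hx, hφx, smul_eq_mul]
    have : (‖x k‖ : ℝ) * ((‖x k‖ : ℝ) : ℝ) = ‖x k‖ ^ 2 := by ring
    simpa using this
  refine sq_le_of_le_mul_sqrt (Finset.sum_nonneg fun _ _ => by positivity) Φ.opNorm_nonneg ?_
  rw [← hΦψ]
  calc Φ ψ ≤ ‖Φ ψ‖ := le_abs_self _
    _ ≤ ‖Φ‖ * ‖ψ‖ := Φ.le_opNorm _
    _ ≤ ‖Φ‖ * Real.sqrt (Φ ψ) := by
      rw [hΦψ]
      gcongr

/-- Dual estimate. -/
theorem sum_sq_dual_le (ψ : StrongDual ℝ (lp X 2)) (A : Finset ℕ) :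
    ∑ k ∈ A, ‖ψ.comp (lp.singleContinuousLinearMap ℝ X 2 k)‖ ^ 2 ≤ ‖ψ‖ ^ 2 := by
  set d : ℕ → ℝ := fun k => ‖ψ.comp (lp.singleContinuousLinearMap ℝ X 2 k)‖ with hd
  have hd0 : ∀ k, 0 ≤ d k := fun k => norm_nonneg _
  refine sq_le_of_le_mul_sqrt (Finset.sum_nonneg fun _ _ => by positivity) ψ.opNorm_nonneg ?_
  refine le_of_forall_pos_le_add fun ε hε => ?_
  obtain ⟨δ, hδ⟩ : ∃ δ : ℝ, δ = ε / (1 + ∑ k ∈ A, d k) := ⟨_, rfl⟩
  have hS0 : 0 ≤ ∑ k ∈ A, d k := Finset.sum_nonneg fun k _ => hd0 k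
  have hδ0 : 0 < δ := by rw [hδ]; positivity
  have hex : ∀ k, ∃ u : X k, ‖u‖ ≤ 1 ∧ d k - δ ≤ ψ (lp.single 2 k u) := by
    intro k
    by_cases hk : d k ≤ δ
    · refine ⟨0, by simp, ?_⟩
      simp only [lp.single_zero, map_zero]
      linarith
    · push Not at hk
      have hlt : d k - δ < ‖ψ.comp (lp.singleContinuousLinearMap ℝ X 2 k)‖ := by
        rw [hd] at hk ⊢
        simp only at hk ⊢
        linarith
      have hnn : (0 : ℝ) ≤ d k - δ := by linarith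
      obtain ⟨u, hu, hu2⟩ := (ψ.comp (lp.singleContinuousLinearMap ℝ X 2 k)).exists_lt_apply_of_lt_opNorm
        (r := (d k - δ).toNNReal) (by rwa [Real.coe_toNNReal _ hnn])
      have hu3 : d k - δ < ‖ψ (lp.single 2 k u)‖ := by
        rw [Real.coe_toNNReal _ hnn] at hu2
        simpa using hu2
      rcases le_total 0 (ψ (lp.single 2 k u)) with h0 | h0
      · refine ⟨u, by simpa using hu.le, ?_⟩
        rw [Real.norm_of_nonneg h0] at hu3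
        exact hu3.le
      · refine ⟨-u, by simpa using hu.le, ?_⟩
        rw [Real.norm_of_nonpos h0] at hu3
        rw [lp.single_neg, map_neg]
        exact hu3.le
  choose u hu hu2 using hex
  -- the test vector
  set v : lp X 2 := ∑ k ∈ A, lp.single 2 k (d k • u k) with hv
  have hvn : ‖v‖ ≤ Real.sqrt (∑ k ∈ A, d k ^ 2) := by
    refine Real.le_sqrt_of_sq_le ?_
    have := lp.norm_sum_single (p := 2) (E := X) (by norm_num) (fun k => d k • u k) A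
    simp only [ENNReal.toReal_ofNat, Real.rpow_two] at this
    rw [hv, this]
    refine Finset.sum_le_sum fun k _ => ?_
    rw [norm_smul, Real.norm_of_nonneg (hd0 k), mul_pow]
    have h1 : ‖u k‖ ^ 2 ≤ 1 := by
      have := hu k
      have h2 := norm_nonneg (u k)
      nlinarith
    have h3 := sq_nonneg (d k)
    nlinarith
  have hψv : ψ v = ∑ k ∈ A, d k * ψ (lp.single 2 k (u k)) := by
    rw [hv, map_sum]
    refine Finset.sum_congr rfl fun k _ => ?_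
    rw [lp.single_smul, map_smul, smul_eq_mul]
  have h1 : ∑ k ∈ A, d k ^ 2 - δ * ∑ k ∈ A, d k ≤ ψ v := by
    rw [hψv, Finset.mul_sum, ← Finset.sum_sub_distrib]
    refine Finset.sum_le_sum fun k _ => ?_
    have := mul_le_mul_of_nonneg_left (hu2 k) (hd0 k)
    nlinarith
  have h2 : ψ v ≤ ‖ψ‖ * Real.sqrt (∑ k ∈ A, d k ^ 2) := by
    calc ψ v ≤ ‖ψ v‖ := le_abs_self _
      _ ≤ ‖ψ‖ * ‖v‖ := ψ.le_opNorm _
      _ ≤ _ := by gcongr
  have h3 : δ * ∑ k ∈ A, d k ≤ ε := by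
    rw [hδ]
    have : ε / (1 + ∑ k ∈ A, d k) * ∑ k ∈ A, d k = ε * ((∑ k ∈ A, d k) / (1 + ∑ k ∈ A, d k)) := by
      field_simp
    rw [this]
    have h4 : (∑ k ∈ A, d k) / (1 + ∑ k ∈ A, d k) ≤ 1 := by
      rw [div_le_one (by positivity)]; linarith
    nlinarith
  linarith

/-- Tail estimate for functionals. -/
theorem exists_finset_tail (ψ : StrongDual ℝ (lp X 2)) {ε : ℝ} (hε : 0 < ε) :
    ∃ B : Finset ℕ, ∀ v : lp X 2, |ψ v - ∑ k ∈ B, ψ (lp.single 2 k (v k))| ≤ ε * ‖v‖ := by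
  set d : ℕ → ℝ := fun k => ‖ψ.comp (lp.singleContinuousLinearMap ℝ X 2 k)‖ with hd
  have hd0 : ∀ k, 0 ≤ d k := fun k => norm_nonneg _
  have hsum : Summable fun k => d k ^ 2 :=
    summable_of_sum_le (fun _ => by positivity) (fun A => sum_sq_dual_le ψ A)
  obtain ⟨B, hB⟩ := hsum.vanishing (Metric.ball_mem_nhds (0 : ℝ) (show 0 < ε ^ 2 by positivity))
  refine ⟨B, fun v => ?_⟩
  have hψk : ∀ k, |ψ (lp.single 2 k (v k))| ≤ d k * ‖v k‖ := by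
    intro k
    have := (ψ.comp (lp.singleContinuousLinearMap ℝ X 2 k)).le_opNorm (v k)
    simpa using this
  have hhs : HasSum (fun k => ψ (lp.single 2 k (v k))) (ψ v) :=
    (lp.hasSum_single (by norm_num) v).mapL ψ
  have hlim : Filter.Tendsto (fun t : Finset ℕ => |∑ k ∈ t, ψ (lp.single 2 k (v k)) -
      ∑ k ∈ B, ψ (lp.single 2 k (v k))|) Filter.atTop
      (nhds |ψ v - ∑ k ∈ B, ψ (lp.single 2 k (v k))|) :=
    Filter.Tendsto.abs (Filter.Tendsto.sub (by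
      rw [← SummationFilter.unconditional_filter]; exact hhs) tendsto_const_nhds)
  refine le_of_tendsto hlim ?_
  filter_upwards [Filter.eventually_ge_atTop B] with t ht
  have hdisj : Disjoint (t \ B) B := Finset.sdiff_disjoint
  have e1 : ∑ k ∈ t, ψ (lp.single 2 k (v k)) - ∑ k ∈ B, ψ (lp.single 2 k (v k)) =
      ∑ k ∈ t \ B, ψ (lp.single 2 k (v k)) := by
    rw [← Finset.sum_sdiff ht]; ring
  rw [e1]
  refine (Finset.abs_sum_le_sum_abs _ _).trans ?_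
  refine (Finset.sum_le_sum fun k _ => hψk k).trans ?_
  refine (sum_mul_norm_le v d (t \ B)).trans ?_
  have h2 := hB (t \ B) hdisj
  have h3 : ∑ k ∈ t \ B, d k ^ 2 < ε ^ 2 := by
    have := Metric.mem_ball.mp h2
    rw [Real.dist_eq, sub_zero] at this
    exact (le_abs_self _).trans_lt this
  gcongr
  rw [show ε = Real.sqrt (ε ^ 2) from (Real.sqrt_sq hε.le).symm]
  exact Real.sqrt_le_sqrt h3.le

/-- The ℓ₂-sum of reflexive spaces is reflexive. -/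
theorem reflexive_lp
    (h : ∀ k, Function.Surjective (NormedSpace.inclusionInDoubleDual ℝ (X k))) :
    Function.Surjective (NormedSpace.inclusionInDoubleDual ℝ (lp X 2)) := by
  intro Φ
  -- the coordinates
  have hex : ∀ k, ∃ xk : X k, ∀ φ : StrongDual ℝ (X k),
      Φ (φ.comp (lp.evalCLM ℝ X 2 k)) = φ xk := by
    intro k
    let Φk : StrongDual ℝ (StrongDual ℝ (X k)) :=
      Φ.comp (ContinuousLinearMap.compL ℝ (lp X 2) (X k) ℝ |>.flip (lp.evalCLM ℝ X 2 k))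
    obtain ⟨xk, hxk⟩ := h k Φk
    refine ⟨xk, fun φ => ?_⟩
    have := DFunLike.congr_fun hxk φ
    simpa [Φk] using this.symm
  choose x hx using hex
  have hmem : Memℓp x 2 := by
    refine memℓp_gen' (C := ‖Φ‖ ^ 2) fun A => ?_
    simp only [ENNReal.toReal_ofNat, Real.rpow_two]
    exact sum_sq_bidual_le Φ x hx A
  refine ⟨⟨x, hmem⟩, ?_⟩
  set w : lp X 2 := ⟨x, hmem⟩ with hw
  have hwk : ∀ k, w k = x k := fun k => rfl
  refine ContinuousLinearMap.ext fun ψ => ?_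
  show ψ w = Φ ψ
  refine eq_of_abs_sub_le_all fun ε hε => ?_
  obtain ⟨η, hη⟩ : ∃ η : ℝ, η = ε / (1 + ‖Φ‖ + ‖w‖) := ⟨_, rfl⟩
  have hΦ0 := Φ.opNorm_nonneg
  have hw0 := norm_nonneg w
  have hη0 : 0 < η := by rw [hη]; positivity
  obtain ⟨B, hB⟩ := exists_finset_tail ψ hη0
  -- the truncated functional
  set ψB : StrongDual ℝ (lp X 2) :=
    ∑ k ∈ B, (ψ.comp (lp.singleContinuousLinearMap ℝ X 2 k)).comp (lp.evalCLM ℝ X 2 k) with hψB
  have hψBv : ∀ v : lp X 2, ψB v = ∑ k ∈ B, ψ (lp.single 2 k (v k)) := by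
    intro v
    simp only [hψB, sum_apply, ContinuousLinearMap.comp_apply]
    rfl
  have hΦψB : Φ ψB = ψB w := by
    rw [hψB, map_sum, sum_apply]
    refine Finset.sum_congr rfl fun k _ => ?_
    rw [hx, ContinuousLinearMap.comp_apply]
    rfl
  have h1 : ‖ψ - ψB‖ ≤ η := by
    refine ContinuousLinearMap.opNorm_le_bound _ hη0.le fun v => ?_
    rw [ContinuousLinearMap.sub_apply, hψBv]
    exact hB v
  have h2 : |Φ ψ - Φ ψB| ≤ ‖Φ‖ * η := by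
    rw [← map_sub]
    calc |Φ (ψ - ψB)| = ‖Φ (ψ - ψB)‖ := rfl
      _ ≤ ‖Φ‖ * ‖ψ - ψB‖ := Φ.le_opNorm _
      _ ≤ ‖Φ‖ * η := by gcongr
  have h3 : |ψ w - ψB w| ≤ ‖w‖ * η := by
    have := hB w
    rw [← hψBv] at this
    linarith [mul_comm η ‖w‖]
  have h4 : |ψ w - Φ ψ| ≤ (‖Φ‖ + ‖w‖) * η := by
    have e : ψ w - Φ ψ = (ψ w - ψB w) - (Φ ψ - Φ ψB) := by rw [hΦψB]; ring
    rw [e]
    refine (abs_sub _ _).trans ?_
    linarith
  refine h4.trans ?_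
  rw [hη]
  have : (‖Φ‖ + ‖w‖) * (ε / (1 + ‖Φ‖ + ‖w‖)) = ε * ((‖Φ‖ + ‖w‖) / (1 + ‖Φ‖ + ‖w‖)) := by
    field_simp
  rw [this]
  have h5 : (‖Φ‖ + ‖w‖) / (1 + ‖Φ‖ + ‖w‖) ≤ 1 := by
    rw [div_le_one (by positivity)]; linarith
  nlinarith

/-- The ℓ₂-sum of separable spaces is separable. -/
theorem separable_lp (h : ∀ k, TopologicalSpace.SeparableSpace (X k)) :
    TopologicalSpace.SeparableSpace (lp X 2) := by
  have h1 : ∀ k, TopologicalSpace.IsSeparable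
      (Set.range (lp.singleContinuousLinearMap ℝ X 2 k)) := fun k =>
    TopologicalSpace.isSeparable_range (lp.singleContinuousLinearMap ℝ X 2 k).continuous
  have h2 : TopologicalSpace.IsSeparable
      (⋃ k, Set.range (lp.singleContinuousLinearMap ℝ X 2 k)) :=
    TopologicalSpace.IsSeparable.iUnion h1
  have h3 := (h2.span (R := ℝ)).closure
  have h4 : (Set.univ : Set (lp X 2)) ⊆ closure (Submodule.span ℝ
      (⋃ k, Set.range (lp.singleContinuousLinearMap ℝ X 2 k)) : Set (lp X 2)) := by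
    intro v _
    refine mem_closure_of_tendsto (lp.hasSum_single (by norm_num) v) ?_
    refine Filter.Eventually.of_forall fun t => ?_
    refine Submodule.sum_mem _ fun k _ => Submodule.subset_span ?_
    exact Set.mem_iUnion.mpr ⟨k, v k, rfl⟩
  exact TopologicalSpace.isSeparable_univ_iff.mp (h3.mono h4)

end lpsum

end Crest.Agent.S0166Lib
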