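import Mathlib
import Crest.Agent.Lib.PotentialMain
import Crest.Agent.S0166Lib.Sum

/-!
# The height-`k` model of S0166

`X k = gSpace (ExS k)`: the closed span of coordinates in `ℓ^∞(tests)`, where tests are square-summable
families with norm at most one on the tree of height `k` with potentials bounded by one.
-/

set_option autoImplicit false
set_option linter.deprecated false
set_option linter.unusedSectionVars false

namespace Crest.Agent.S0166Lib

open Crest.AnalysisR Crest.AnalysisR.TreePotential Crest.Agent.AUCGame Crest.Agent.PotLib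
open scoped InnerProductSpace

/-! ### Generic reflexivity lemmas -/

theorem reflexive_hilbert (H : Type) [NormedAddCommGroup H] [InnerProductSpace ℝ H] [CompleteSpace H] :
    Function.Surjective (NormedSpace.inclusionInDoubleDual ℝ H) := by
  intro Φ
  let φ : H →L[ℝ] ℝ := LinearMap.mkContinuous
    { toFun := fun z => Φ (InnerProductSpace.toDual ℝ H z)
      map_add' := fun a b => by rw [map_add, map_add]
      map_smul' := fun c a => by
        rw [map_smulₛₗ, map_smul]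
        simp } ‖Φ‖ (fun z => by
      refine (Φ.le_opNorm _).trans ?_
      rw [LinearIsometryEquiv.norm_map])
  refine ⟨(InnerProductSpace.toDual ℝ H).symm φ, ?_⟩
  refine ContinuousLinearMap.ext fun ψ => ?_
  obtain ⟨z, rfl⟩ := (InnerProductSpace.toDual ℝ H).surjective ψ
  show (InnerProductSpace.toDual ℝ H z) ((InnerProductSpace.toDual ℝ H).symm φ) = Φ _
  rw [InnerProductSpace.toDual_apply_apply, real_inner_comm, InnerProductSpace.toDual_symm_apply]
  rfl

theorem reflexive_of_equiv {H Y : Type} [NormedAddCommGroup H] [NormedSpace ℝ H]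
    [NormedAddCommGroup Y] [NormedSpace ℝ Y] (L : H ≃L[ℝ] Y)
    (hH : Function.Surjective (NormedSpace.inclusionInDoubleDual ℝ H)) :
    Function.Surjective (NormedSpace.inclusionInDoubleDual ℝ Y) := by
  intro Φ
  let Φ' : StrongDual ℝ (StrongDual ℝ H) :=
    Φ.comp ((ContinuousLinearMap.compL ℝ Y H ℝ).flip (L.symm : Y →L[ℝ] H))
  obtain ⟨h, hh⟩ := hH Φ'
  refine ⟨L h, ContinuousLinearMap.ext fun ψ => ?_⟩
  have e := DFunLike.congr_fun hh (ψ.comp (L : H →L[ℝ] Y))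
  have e2 : ((ψ.comp (L : H →L[ℝ] Y)).comp (L.symm : Y →L[ℝ] H)) = ψ := by
    ext z
    simp
  have e3 : Φ' (ψ.comp (L : H →L[ℝ] Y)) = Φ ψ := by
    show Φ ((ψ.comp (L : H →L[ℝ] Y)).comp (L.symm : Y →L[ℝ] H)) = Φ ψ
    rw [e2]
  rw [e3] at e
  rw [← e]
  rfl

/-! ### The model -/

/-- The extra condition. -/
def ExS (k : ℕ) (f : List ℕ → ℝ) : Prop :=
  f [] = 0 ∧ (∀ s : List ℕ, k < s.length → f s = 0) ∧ ∀ A : Finset (List ℕ), ∑ s ∈ A, f s ^ 2 ≤ 1

/-- Active vertices. -/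
def ActS (k : ℕ) (s : List ℕ) : Prop := s ≠ [] ∧ s.length ≤ k

theorem sq_le_combine' {f g h : List ℕ → ℝ} {G : Finset (List ℕ)} {a b : ℝ} (hb : 0 ≤ b)
    (h1 : ∀ s ∈ G, h s = a * f s) (h2 : ∀ s, s ∉ G → |h s| ≤ b * |g s|) (s : List ℕ) :
    h s ^ 2 ≤ a ^ 2 * f s ^ 2 + b ^ 2 * g s ^ 2 := by
  by_cases hs : s ∈ G
  · rw [h1 s hs]
    have : 0 ≤ b ^ 2 * g s ^ 2 := by positivity
    nlinarith
  · have h3 := h2 s hs
    have h4 : h s ^ 2 ≤ (b * |g s|) ^ 2 := by
      rw [← sq_abs (h s)]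
      exact pow_le_pow_left₀ (abs_nonneg _) h3 2
    rw [mul_pow, sq_abs] at h4
    have : 0 ≤ a ^ 2 * f s ^ 2 := by positivity
    linarith

theorem adm (k : ℕ) : Adm (ExS k) (ActS k) := by
  refine ⟨?_, ?_, ?_, ?_, ?_, ?_⟩
  · exact ⟨rfl, fun _ _ => rfl, fun A => by simp⟩
  · rintro f ⟨h0, h1, h2⟩
    refine ⟨by simp [h0], fun s hs => by simp [h1 s hs], fun A => by simpa using h2 A⟩
  · rintro s ⟨hs, hsk⟩
    refine ⟨by simp [hs.symm], fun u hu => ?_, fun A => ?_⟩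
    · have : u ≠ s := by
        rintro rfl
        omega
      simp [this]
    · have e : ∀ u ∈ A, (if u = s then (1 : ℝ) else 0) ^ 2 = if u = s then 1 else 0 := by
        intro u _
        split_ifs <;> norm_num
      rw [Finset.sum_congr rfl e, Finset.sum_boole]
      have : (A.filter (· = s)).card ≤ 1 := by
        rw [Finset.card_le_one]
        intro i hi j hj
        rw [(Finset.mem_filter.mp hi).2, (Finset.mem_filter.mp hj).2]
      exact_mod_cast this
  · rintro f s ⟨h0, h1, -⟩ hs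
    by_cases hs0 : s = []
    · rw [hs0, h0]
    · by_cases hsk : s.length ≤ k
      · exact absurd ⟨hs0, hsk⟩ hs
      · exact h1 s (by omega)
  · rintro f g h G a b ⟨hf0, hf1, hf2⟩ ⟨hg0, hg1, hg2⟩ hroot ha hb hab h1 h2
    refine ⟨by rw [h1 _ hroot, hf0, mul_zero], fun s hs => ?_, fun A => ?_⟩
    · by_cases hsG : s ∈ G
      · rw [h1 s hsG, hf1 s hs, mul_zero]
      · have := h2 s hsG
        rw [hg1 s hs, abs_zero, mul_zero] at this
        exact abs_nonpos_iff.mp this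
    · calc ∑ i ∈ A, h i ^ 2 ≤ ∑ i ∈ A, (a ^ 2 * f i ^ 2 + b ^ 2 * g i ^ 2) :=
            Finset.sum_le_sum fun i _ => sq_le_combine' hb h1 h2 i
        _ = a ^ 2 * ∑ i ∈ A, f i ^ 2 + b ^ 2 * ∑ i ∈ A, g i ^ 2 := by
          rw [Finset.sum_add_distrib, Finset.mul_sum, Finset.mul_sum]
        _ ≤ a ^ 2 * 1 + b ^ 2 * 1 := by
          have := hf2 A
          have := hg2 A
          gcongr
        _ ≤ 1 := by linarith
  · rintro f r A ⟨-, -, h2⟩
    have := h2 (A.image fun n => n :: r)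
    rwa [Finset.sum_image (fun a _ b _ hab => by simpa using hab)] at this

/-- Real arithmetic for the `RMS` inequality. -/
theorem rms_arith {p q M p' A B A' B' η : ℝ} (hp : 0 ≤ p) (hMp : 0 < M)
    (hM2 : M ^ 2 = p ^ 2 + q ^ 2 / 4) (h1 : p - η / 2 ≤ p') (h2 : A' ≤ A + η / 2)
    (h3 : B' ≤ B + η / 2) (hη : 0 < η)
    (hmain : p / M * p' + q / 2 / M / 2 * q ≤ (A' + B') / 2) : M - η ≤ (A + B) / 2 := by
  have ha : 0 ≤ p / M := by positivity
  have ha1 : p / M ≤ 1 := by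
    rw [div_le_one hMp]
    nlinarith [sq_nonneg q]
  have h4 : p / M * (p - η / 2) ≤ p / M * p' := by gcongr
  have h5 : p / M * p + q / 2 / M / 2 * q = M := by
    field_simp
    nlinarith
  have h6 : p / M * (η / 2) ≤ η / 2 := by nlinarith
  have h7 : p / M * (p - η / 2) = p / M * p - p / M * (η / 2) := by ring
  linarith

/-- The `RMS` inequality in the generic spaces. -/
theorem rmsHalf_gSpace {Ex : (List ℕ → ℝ) → Prop} {Act : List ℕ → Prop} (hAdm : Adm Ex Act) :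
    RMSHalf (gSpace Ex) := by
  intro x η hη
  have hxm : (x : lp (fun _ : GTest Ex => ℝ) ⊤) ∈ gSpace Ex := x.2
  obtain ⟨G, hroot, hanc, x', hx', hxx'⟩ := exists_approx hxm (show 0 < η / 2 by positivity)
  refine ⟨tail hAdm G, cof_tail hAdm G, fun y hy => ?_⟩
  -- the triangle bound
  have htri : ‖y‖ ≤ (‖x + y‖ + ‖x - y‖) / 2 := by
    have e1 : (2 : ℝ) • y = (x + y) - (x - y) := by module
    have e2 := norm_sub_le (x + y) (x - y)
    rw [← e1, norm_smul] at e2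
    have : ‖(2 : ℝ)‖ = 2 := by norm_num
    rw [this] at e2
    linarith
  have hp0 := norm_nonneg x
  have hq0 := norm_nonneg y
  obtain ⟨M, hM⟩ : ∃ M : ℝ, M = Real.sqrt (‖x‖ ^ 2 + ‖y‖ ^ 2 / 4) := ⟨_, rfl⟩
  rw [← hM]
  have hM2 : M ^ 2 = ‖x‖ ^ 2 + ‖y‖ ^ 2 / 4 := by rw [hM]; exact Real.sq_sqrt (by positivity)
  have hM0 : 0 ≤ M := by rw [hM]; exact Real.sqrt_nonneg _
  by_cases hcase : (3 / 4 : ℝ) * ‖y‖ ^ 2 ≤ ‖x‖ ^ 2
  · -- the main case
    by_cases hMz : M = 0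
    · have h0 : 0 ≤ (‖x + y‖ + ‖x - y‖) / 2 := by positivity
      rw [hMz]
      linarith
    have hMp : 0 < M := lt_of_le_of_ne hM0 (Ne.symm hMz)
    have ha : 0 ≤ ‖x‖ / M := by positivity
    have hb : 0 ≤ ‖y‖ / 2 / M := by positivity
    have hab : (‖x‖ / M) ^ 2 + (‖y‖ / 2 / M) ^ 2 ≤ 1 := by
      have : (‖x‖ / M) ^ 2 + (‖y‖ / 2 / M) ^ 2 = (‖x‖ ^ 2 + ‖y‖ ^ 2 / 4) / M ^ 2 := by
        field_simp
        ring
      rw [this, ← hM2, div_self (by positivity)]
    have hb2 : 2 * (‖y‖ / 2 / M) ≤ 1 := by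
      have : 2 * (‖y‖ / 2 / M) = ‖y‖ / M := by field_simp
      rw [this, div_le_one hMp]
      nlinarith
    have hperp := perp_of_mem_tail hAdm hy
    have hmain := avg_ge hAdm hroot hanc hx' (y.2) hperp ha hb hab hb2
    refine rms_arith hp0 hMp hM2 (p' := ‖x'‖)
      (A' := ‖x' + (y : lp (fun _ : GTest Ex => ℝ) ⊤)‖)
      (B' := ‖x' - (y : lp (fun _ : GTest Ex => ℝ) ⊤)‖) ?_ ?_ ?_ hη hmain
    · have := norm_le_norm_sub_add (x : lp (fun _ : GTest Ex => ℝ) ⊤) x'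
      have e3 : ‖x‖ = ‖(x : lp (fun _ : GTest Ex => ℝ) ⊤)‖ := rfl
      rw [e3]
      linarith
    · have h3 : x' + (y : lp (fun _ : GTest Ex => ℝ) ⊤) =
          ((x : lp (fun _ : GTest Ex => ℝ) ⊤) + (y : lp (fun _ : GTest Ex => ℝ) ⊤)) -
            ((x : lp (fun _ : GTest Ex => ℝ) ⊤) - x') := by abel
      have e1 : ‖x + y‖ = ‖(x : lp (fun _ : GTest Ex => ℝ) ⊤) + (y : lp (fun _ : GTest Ex => ℝ) ⊤)‖ := rfl
      rw [h3, e1]
      refine (norm_sub_le _ _).trans ?_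
      linarith
    · have h3 : x' - (y : lp (fun _ : GTest Ex => ℝ) ⊤) =
          ((x : lp (fun _ : GTest Ex => ℝ) ⊤) - (y : lp (fun _ : GTest Ex => ℝ) ⊤)) -
            ((x : lp (fun _ : GTest Ex => ℝ) ⊤) - x') := by abel
      have e2 : ‖x - y‖ = ‖(x : lp (fun _ : GTest Ex => ℝ) ⊤) - (y : lp (fun _ : GTest Ex => ℝ) ⊤)‖ := rfl
      rw [h3, e2]
      refine (norm_sub_le _ _).trans ?_
      linarith
  · push Not at hcase
    have h1 : M ≤ ‖y‖ := by
      rw [hM]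
      refine Real.sqrt_le_iff.mpr ⟨hq0, ?_⟩
      nlinarith
    linarith

end Crest.Agent.S0166Lib
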