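import Mathlib
import Crest.Agent.S0166Lib.Model

/-!
# `gSpace (ExS k)` is isomorphic to a Hilbert space, hence reflexive
-/

set_option autoImplicit false
set_option linter.deprecated false
set_option linter.unusedSectionVars false

namespace Crest.Agent.S0166Lib

open Crest.AnalysisR Crest.AnalysisR.TreePotential Crest.Agent.AUCGame Crest.Agent.PotLib
open scoped InnerProductSpace

/-- Active vertices as a type. -/
abbrev Vtx (k : ℕ) : Type := {s : List ℕ // ActS k s}

/-- The Hilbert space. -/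
abbrev HS (k : ℕ) : Type := lp (fun _ : Vtx k => ℝ) 2

variable {k : ℕ}

theorem sum_vtx {f : List ℕ → ℝ} (hf : ∀ A : Finset (List ℕ), ∑ s ∈ A, f s ^ 2 ≤ 1)
    (A : Finset (Vtx k)) : ∑ s ∈ A, f s.1 ^ 2 ≤ 1 := by
  classical
  have := hf (A.image Subtype.val)
  rwa [Finset.sum_image Subtype.val_injective.injOn] at this

/-- Restriction of a test to the active vertices. -/
noncomputable def vec (f : GTest (ExS k)) : HS k :=
  ⟨fun s => f.1 s.1, memℓp_gen' (C := 1) (fun A => by
    simp only [ENNReal.toReal_ofNat, Real.rpow_two, Real.norm_eq_abs, sq_abs]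
    exact sum_vtx f.2.2.2.2 A)⟩

theorem vec_apply (f : GTest (ExS k)) (s : Vtx k) : vec f s = f.1 s.1 := rfl

theorem norm_vec_le (f : GTest (ExS k)) : ‖vec f‖ ≤ 1 := by
  refine lp.norm_le_of_forall_sum_le (p := 2) (by norm_num) zero_le_one fun A => ?_
  simp only [ENNReal.toReal_ofNat, Real.rpow_two, Real.norm_eq_abs, sq_abs, one_pow, vec_apply]
  exact sum_vtx f.2.2.2.2 A

/-- The map to `ℓ^∞(tests)`, as a function. -/
noncomputable def Jfun (x : HS k) : lp (fun _ : GTest (ExS k) => ℝ) ⊤ :=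
  ⟨fun f => ⟪vec f, x⟫_ℝ, memℓp_infty ⟨‖x‖, by
    rintro _ ⟨f, rfl⟩
    refine (abs_real_inner_le_norm _ _).trans ?_
    have := norm_vec_le f
    have h0 := norm_nonneg x
    nlinarith⟩⟩

/-- The map to `ℓ^∞(tests)`. -/
noncomputable def J (k : ℕ) : HS k →L[ℝ] lp (fun _ : GTest (ExS k) => ℝ) ⊤ :=
  LinearMap.mkContinuous
    { toFun := Jfun
      map_add' := fun x y => by
        ext f
        exact inner_add_right _ _ _
      map_smul' := fun c x => by
        ext f
        exact inner_smul_right _ _ _ } 1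
    (fun x => by
      rw [one_mul]
      refine lp.norm_le_of_forall_le (norm_nonneg _) fun f => ?_
      refine (abs_real_inner_le_norm _ _).trans ?_
      have := norm_vec_le f
      have h0 := norm_nonneg x
      nlinarith)

theorem J_apply (x : HS k) (f : GTest (ExS k)) : J k x f = ⟪vec f, x⟫_ℝ := rfl

/-- A bound on potentials. -/
theorem abs_pot_le {f : List ℕ → ℝ} {c : ℝ} (hc : 0 ≤ c) (h : ∀ s, |f s| ≤ c)
    (hk : ∀ s : List ℕ, k < s.length → f s = 0) (s : List ℕ) :
    |pathPotential f s| ≤ ((min s.length k : ℕ) + 1) * c := by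
  induction s with
  | nil =>
    simp only [pathPotential, List.length_nil]
    simpa using h []
  | cons a v ih =>
    simp only [pathPotential, List.length_cons]
    by_cases hv : v.length + 1 ≤ k
    · have h1 : min (v.length + 1) k = v.length + 1 := min_eq_left hv
      have h2 : min v.length k = v.length := min_eq_left (by omega)
      rw [h1]
      rw [h2] at ih
      refine (abs_add_le _ _).trans ?_
      have := h (a :: v)
      push_cast
      linarith
    · have h1 := hk (a :: v) (by simp; omega)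
      rw [h1, add_zero]
      refine ih.trans ?_
      have h2 : min v.length k ≤ min (v.length + 1) k := by omega
      gcongr

theorem sum_sq_le_HS (x : HS k) (A : Finset (Vtx k)) : ∑ s ∈ A, (x s) ^ 2 ≤ ‖x‖ ^ 2 := by
  have h := lp.hasSum_norm (p := 2) (by norm_num) x
  simp only [ENNReal.toReal_ofNat, Real.rpow_two, Real.norm_eq_abs, sq_abs] at h
  exact sum_le_hasSum A (fun _ _ => by positivity) h

/-- `J` is bounded below. -/
theorem le_norm_J (x : HS k) : ‖x‖ ≤ (k + 1) * ‖J k x‖ := by
  classical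
  by_cases hx : x = 0
  · subst hx
    simp
  have hxn : 0 < ‖x‖ := norm_pos_iff.mpr hx
  have hk0 : (0 : ℝ) < k + 1 := by positivity
  obtain ⟨c, hc⟩ : ∃ c : ℝ, c = 1 / ((k + 1) * ‖x‖) := ⟨_, rfl⟩
  have hc0 : 0 < c := by rw [hc]; positivity
  let g : List ℕ → ℝ := fun s => if h : ActS k s then c * x ⟨s, h⟩ else 0
  have hgA : ∀ s : Vtx k, g s.1 = c * x s := fun s => by
    simp only [g, dif_pos s.2]
  have hgN : ∀ s, ¬ ActS k s → g s = 0 := fun s hs => by
    simp only [g, dif_neg hs]
  have hcx : c * ‖x‖ = 1 / (k + 1) := by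
    rw [hc]
    field_simp
  have hg1 : ∀ s, |g s| ≤ 1 / (k + 1) := by
    intro s
    by_cases hs : ActS k s
    · rw [hgA ⟨s, hs⟩, abs_mul, abs_of_pos hc0, ← hcx]
      gcongr
      exact lp.norm_apply_le_norm (by norm_num) x ⟨s, hs⟩
    · rw [hgN s hs, abs_zero]
      positivity
  have hgk : ∀ s : List ℕ, k < s.length → g s = 0 := by
    intro s hs
    refine hgN s fun h => ?_
    have := h.2
    omega
  have hpot : ∀ s, |pathPotential g s| ≤ 1 := by
    intro s
    refine (abs_pot_le (k := k) (by positivity) hg1 hgk s).trans ?_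
    have h1 : ((min s.length k : ℕ) : ℝ) ≤ k := by
      exact_mod_cast min_le_right _ _
    rw [mul_one_div, div_le_one hk0]
    linarith
  have hsq : ∀ A : Finset (List ℕ), ∑ s ∈ A, g s ^ 2 ≤ 1 := by
    intro A
    have e1 : ∑ s ∈ A, g s ^ 2 = ∑ s ∈ A.filter (ActS k), g s ^ 2 := by
      rw [Finset.sum_filter]
      refine Finset.sum_congr rfl fun s _ => ?_
      split_ifs with h
      · rfl
      · rw [hgN s h]; norm_num
    rw [e1, ← Finset.sum_subtype_eq_sum_filter]
    have e2 : ∀ s ∈ A.subtype (ActS k), g s.1 ^ 2 = c ^ 2 * (x s) ^ 2 := by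
      intro s _
      rw [hgA s, mul_pow]
    rw [Finset.sum_congr rfl e2, ← Finset.mul_sum]
    have h3 := sum_sq_le_HS x (A.subtype (ActS k))
    have h4 : c ^ 2 * ‖x‖ ^ 2 = (1 / (k + 1)) ^ 2 := by
      rw [← hcx]; ring
    have h5 : (1 / ((k : ℝ) + 1)) ^ 2 ≤ 1 := by
      have h6 : 1 / ((k : ℝ) + 1) ≤ 1 := by
        rw [div_le_one hk0]
        have : (0 : ℝ) ≤ k := by positivity
        linarith
      have h7 : 0 ≤ 1 / ((k : ℝ) + 1) := by positivity
      nlinarith
    have h8 : c ^ 2 * ∑ s ∈ A.subtype (ActS k), (x s) ^ 2 ≤ c ^ 2 * ‖x‖ ^ 2 :=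
      mul_le_mul_of_nonneg_left h3 (by positivity)
    linarith
  have hEx : ExS k g := by
    refine ⟨hgN [] fun h => h.1 rfl, hgk, hsq⟩
  let t : GTest (ExS k) := ⟨g, hpot, hEx⟩
  have hvec : vec t = c • x := by
    ext s
    exact hgA s
  have hval : J k x t = ‖x‖ / (k + 1) := by
    rw [J_apply, hvec, real_inner_smul_left, real_inner_self_eq_norm_sq, hc]
    field_simp
  have hle : J k x t ≤ ‖J k x‖ := ev_le_norm t _
  rw [hval] at hle
  rw [div_le_iff₀ hk0] at hle
  linarith

theorem J_single (s : Vtx k) : J k (lp.single 2 s (1 : ℝ)) = gcoord (ExS k) s.1 := by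
  ext f
  rw [J_apply, gcoord_apply, lp.inner_single_right, vec_apply]
  simp

theorem gcoord_of_not_act {s : List ℕ} (hs : ¬ ActS k s) : gcoord (ExS k) s = 0 := by
  ext f
  rw [gcoord_apply]
  exact (adm k).inactive f.1 s f.2.2 hs

theorem J_single' (s : Vtx k) (a : ℝ) : J k (lp.single 2 s a) = a • gcoord (ExS k) s.1 := by
  have : lp.single 2 s a = a • lp.single (E := fun _ : Vtx k => ℝ) 2 s (1 : ℝ) := by
    rw [← lp.single_smul]
    simp
  rw [this, map_smul, J_single]

/-- The range of `J` lies in the space. -/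
theorem J_mem (x : HS k) : J k x ∈ gSpace (ExS k) := by
  have h := (lp.hasSum_single (p := 2) (by norm_num) x).mapL (J k)
  refine mem_closure_of_tendsto h ?_
  refine Filter.Eventually.of_forall fun t => ?_
  refine Submodule.sum_mem _ fun s _ => ?_
  rw [J_single']
  exact Submodule.smul_mem _ _ (Submodule.subset_span ⟨_, rfl⟩)

/-- The space lies in the range of `J`. -/
theorem mem_range_J {z : lp (fun _ : GTest (ExS k) => ℝ) ⊤} (hz : z ∈ gSpace (ExS k)) :
    ∃ x, J k x = z := by
  let R : Submodule ℝ (lp (fun _ : GTest (ExS k) => ℝ) ⊤) :=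
    LinearMap.range ((J k : _ →L[ℝ] _) : HS k →ₗ[ℝ] _)
  have hcl : IsClosed (R : Set (lp (fun _ : GTest (ExS k) => ℝ) ⊤)) := by
    have hanti : AntilipschitzWith ⟨(k : ℝ) + 1, by positivity⟩ (J k) :=
      ContinuousLinearMap.antilipschitz_of_bound (J k) (fun x => le_norm_J x)
    have h2 := hanti.isClosed_range (J k).uniformContinuous
    have h3 : (R : Set (lp (fun _ : GTest (ExS k) => ℝ) ⊤)) = Set.range (J k) := LinearMap.coe_range _
    rw [h3]
    exact h2
  have hle : Submodule.span ℝ (Set.range (gcoord (ExS k))) ≤ R := by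
    refine Submodule.span_le.mpr ?_
    rintro _ ⟨s, rfl⟩
    by_cases hs : ActS k s
    · exact ⟨lp.single 2 ⟨s, hs⟩ (1 : ℝ), J_single ⟨s, hs⟩⟩
    · rw [gcoord_of_not_act hs]
      exact Submodule.zero_mem _
  exact Submodule.topologicalClosure_minimal _ hle hcl hz

/-- The isomorphism. -/
noncomputable def isoJ (k : ℕ) : HS k ≃L[ℝ] gSpace (ExS k) :=
  ContinuousLinearEquiv.ofBijective ((J k).codRestrict (gSpace (ExS k)) J_mem)
    (by
      rw [LinearMap.ker_eq_bot]
      intro x y hxy
      have h1 : J k x = J k y := congrArg Subtype.val hxy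
      have h2 : ‖x - y‖ ≤ (k + 1) * ‖J k (x - y)‖ := le_norm_J _
      rw [map_sub, h1, sub_self, norm_zero, mul_zero] at h2
      exact sub_eq_zero.mp (norm_le_zero_iff.mp h2))
    (by
      rw [LinearMap.range_eq_top]
      rintro ⟨z, hz⟩
      obtain ⟨x, hx⟩ := mem_range_J hz
      exact ⟨x, Subtype.ext hx⟩)

theorem reflexive_gSpace (k : ℕ) :
    Function.Surjective (NormedSpace.inclusionInDoubleDual ℝ (gSpace (ExS k))) :=
  reflexive_of_equiv (isoJ k) (reflexive_hilbert (HS k))

end Crest.Agent.S0166Lib
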