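import Mathlib

/-!
# S0166 library: `ℓ²`-sums of reflexive Banach spaces are reflexive.
-/

set_option autoImplicit false

namespace Crest.Agent.S0166Lib

open scoped ENNReal NNReal

section General

variable {ι : Type} [DecidableEq ι] {Y : ι → Type} [∀ i, NormedAddCommGroup (Y i)]
  [∀ i, NormedSpace ℝ (Y i)]

/-- The `i`-th block functional of a functional on an `ℓ²`-sum. -/
noncomputable def blockDual (ℓ : StrongDual ℝ (lp Y 2)) (i : ι) : StrongDual ℝ (Y i) :=
  ℓ.comp (lp.singleContinuousLinearMap ℝ Y 2 i)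

@[simp] lemma blockDual_apply (ℓ : StrongDual ℝ (lp Y 2)) (i : ι) (v : Y i) :
    blockDual ℓ i v = ℓ (lp.single 2 i v) := rfl

lemma two_toReal_pos : 0 < (2 : ℝ≥0∞).toReal := by norm_num

/-- Key estimate: the block norms of a functional are square summable. -/
lemma sum_blockDual_sq_le (ℓ : StrongDual ℝ (lp Y 2)) (s : Finset ι) :
    ∑ i ∈ s, ‖blockDual ℓ i‖ ^ 2 ≤ ‖ℓ‖ ^ 2 := by
  classical
  set d : ι → ℝ := fun i => ‖blockDual ℓ i‖ with hd
  set D2 : ℝ := ∑ i ∈ s, d i ^ 2 with hD2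
  have hD2nn : 0 ≤ D2 := Finset.sum_nonneg fun i _ => sq_nonneg _
  -- it suffices: for all ε > 0, D2 - ε * Σ d ≤ ‖ℓ‖ * √D2
  have key : ∀ ε : ℝ, 0 < ε → D2 - ε * ∑ i ∈ s, d i ≤ ‖ℓ‖ * Real.sqrt D2 := by
    intro ε hε
    have hchoose : ∀ i, ∃ v : Y i, ‖v‖ ≤ 1 ∧ d i - ε ≤ blockDual ℓ i v := by
      intro i
      by_cases hdi : d i - ε < 0
      · exact ⟨0, by simp, by simpa using hdi.le⟩
      · push Not at hdi
        have hlt : d i - ε < ‖blockDual ℓ i‖ := by simp only [hd]; linarith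
        obtain ⟨v, hv1, hv2⟩ := (blockDual ℓ i).exists_lt_apply_of_lt_opNorm hlt
        rcases le_total 0 (blockDual ℓ i v) with h | h
        · refine ⟨v, hv1.le, ?_⟩
          rw [Real.norm_of_nonneg h] at hv2
          exact hv2.le
        · refine ⟨-v, by simpa using hv1.le, ?_⟩
          rw [Real.norm_of_nonpos h] at hv2
          rw [map_neg]
          exact hv2.le
    choose v hv1 hv2 using hchoose
    set w : lp Y 2 := ∑ i ∈ s, lp.single 2 i (d i • v i) with hw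
    have hwnorm : ‖w‖ ≤ Real.sqrt D2 := by
      have h1 := lp.norm_sum_single (p := 2) (E := Y) two_toReal_pos (fun i => d i • v i) s
      have h2 : ‖w‖ ^ 2 ≤ D2 := by
        have h3 : ‖w‖ ^ (2 : ℝ≥0∞).toReal = ‖w‖ ^ 2 := by
          simp [Real.rpow_two]
        rw [← h3, hw, h1]
        apply Finset.sum_le_sum
        intro i _
        have h4 : ‖d i • v i‖ ≤ d i := by
          rw [norm_smul, Real.norm_of_nonneg (norm_nonneg _)]
          calc d i * ‖v i‖ ≤ d i * 1 := by gcongr; exact hv1 i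
            _ = d i := mul_one _
        have h5 : ‖d i • v i‖ ^ (2 : ℝ≥0∞).toReal = ‖d i • v i‖ ^ 2 := by
          simp [Real.rpow_two]
        rw [h5]
        exact pow_le_pow_left₀ (norm_nonneg _) h4 2
      exact Real.le_sqrt_of_sq_le h2
    have hlw : D2 - ε * ∑ i ∈ s, d i ≤ ℓ w := by
      rw [hw, map_sum, hD2, Finset.mul_sum, ← Finset.sum_sub_distrib]
      apply Finset.sum_le_sum
      intro i _
      have h6 : ℓ (lp.single 2 i (d i • v i)) = d i * blockDual ℓ i (v i) := by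
        rw [← blockDual_apply, map_smul, smul_eq_mul]
      rw [h6]
      have h7 : 0 ≤ d i := norm_nonneg _
      have h8 := hv2 i
      nlinarith
    calc D2 - ε * ∑ i ∈ s, d i ≤ ℓ w := hlw
      _ ≤ ‖ℓ w‖ := le_abs_self _
      _ ≤ ‖ℓ‖ * ‖w‖ := ℓ.le_opNorm w
      _ ≤ ‖ℓ‖ * Real.sqrt D2 := by gcongr
  have key2 : D2 ≤ ‖ℓ‖ * Real.sqrt D2 := by
    refine le_of_forall_pos_le_add fun δ hδ => ?_
    have hsum : 0 ≤ ∑ i ∈ s, d i := Finset.sum_nonneg fun i _ => norm_nonneg _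
    have := key (δ / (∑ i ∈ s, d i + 1)) (by positivity)
    have h9 : δ / (∑ i ∈ s, d i + 1) * ∑ i ∈ s, d i ≤ δ := by
      rw [div_mul_eq_mul_div, div_le_iff₀ (by positivity)]
      nlinarith
    linarith
  rcases eq_or_lt_of_le hD2nn with h0 | hpos
  · rw [← h0]; positivity
  · have h10 : Real.sqrt D2 ≤ ‖ℓ‖ := by
      have h11 : 0 < Real.sqrt D2 := Real.sqrt_pos.mpr hpos
      have h12 : Real.sqrt D2 * Real.sqrt D2 = D2 := Real.mul_self_sqrt hD2nn
      nlinarith
    calc D2 = Real.sqrt D2 ^ 2 := (Real.sq_sqrt hD2nn).symm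
      _ ≤ ‖ℓ‖ ^ 2 := pow_le_pow_left₀ (Real.sqrt_nonneg _) h10 2

lemma memℓp_blockDual (ℓ : StrongDual ℝ (lp Y 2)) :
    Memℓp (fun i => blockDual ℓ i) 2 := by
  apply memℓp_gen' (C := ‖ℓ‖ ^ 2)
  intro s
  have := sum_blockDual_sq_le ℓ s
  simpa [Real.rpow_two] using this

/-- The functional as an element of the `ℓ²`-sum of duals. -/
noncomputable def dualVec (ℓ : StrongDual ℝ (lp Y 2)) :
    lp (fun i => StrongDual ℝ (Y i)) 2 :=
  ⟨fun i => blockDual ℓ i, memℓp_blockDual ℓ⟩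

/-- The pairing map from the `ℓ²`-sum of duals to the dual of the `ℓ²`-sum. -/
noncomputable def pairingL : lp (fun i => StrongDual ℝ (Y i)) 2 →L[ℝ] StrongDual ℝ (lp Y 2) :=
  lp.dualPairing 2 2 (𝕜 := ℝ) (H := ℝ) (fun i => ContinuousLinearMap.id ℝ (Y i →L[ℝ] ℝ))
    (K := 1) (fun i => by simpa using ContinuousLinearMap.norm_id_le)

lemma pairingL_apply (w : lp (fun i => StrongDual ℝ (Y i)) 2) (y : lp Y 2) :
    pairingL w y = ∑' i, (w i) (y i) := by
  rfl

lemma pairingL_dualVec (ℓ : StrongDual ℝ (lp Y 2)) : pairingL (dualVec ℓ) = ℓ := by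
  ext y
  rw [pairingL_apply]
  have h1 := lp.hasSum_single (p := 2) (E := Y) (by norm_num) y
  have h2 := ℓ.hasSum h1
  exact h2.tsum_eq

/-- `ℓ²`-sums of reflexive spaces are reflexive. -/
theorem reflexive_lp_two
    (hY : ∀ i, Function.Surjective (NormedSpace.inclusionInDoubleDual ℝ (Y i))) :
    Function.Surjective (NormedSpace.inclusionInDoubleDual ℝ (lp Y 2)) := by
  intro φ
  -- the functional on the `ℓ²`-sum of duals
  set φ' : StrongDual ℝ (lp (fun i => StrongDual ℝ (Y i)) 2) := φ.comp pairingL with hφ'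
  choose x hx using fun i => hY i (blockDual φ' i)
  have hxnorm : ∀ i, ‖x i‖ = ‖blockDual φ' i‖ := by
    intro i
    rw [← hx i]
    exact ((NormedSpace.inclusionInDoubleDualLi (E := Y i) ℝ).norm_map (x i)).symm
  have hmem : Memℓp x 2 := by
    have := memℓp_blockDual φ'
    apply memℓp_gen' (C := ‖φ'‖ ^ 2)
    intro s
    have h := sum_blockDual_sq_le φ' s
    simpa [Real.rpow_two, hxnorm] using h
  refine ⟨⟨x, hmem⟩, ?_⟩
  ext ℓ
  change ℓ ⟨x, hmem⟩ = φ ℓ
  have h1 : φ ℓ = φ' (dualVec ℓ) := by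
    rw [hφ', ContinuousLinearMap.comp_apply, pairingL_dualVec]
  have h2 := lp.hasSum_single (p := 2) (E := fun i => StrongDual ℝ (Y i)) (by norm_num) (dualVec ℓ)
  have h3 := φ'.hasSum h2
  have h4 : ∀ i, φ' (lp.single 2 i (dualVec ℓ i)) = ℓ (lp.single 2 i (x i)) := by
    intro i
    rw [← blockDual_apply φ' i, ← hx i]
    rfl
  simp only [h4] at h3
  have h5 := lp.hasSum_single (p := 2) (E := Y) (by norm_num) (⟨x, hmem⟩ : lp Y 2)
  have h6 := ℓ.hasSum h5
  rw [h1]
  exact h6.unique h3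

end General

end Crest.Agent.S0166Lib
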