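import Mathlib

/-!
# S0166 library: closed subspaces of finite codimension.

Weakly null sequences get close to such a subspace; bounded sequences have two terms whose
difference is close to it.
-/

set_option autoImplicit false

namespace Crest.Agent.S0166Lib

open Filter Topology

section
variable {V : Type} [NormedAddCommGroup V] [NormedSpace ℝ V]

/-- From smallness in the quotient to closeness to the subspace. -/
lemma near_of_quot_small {S : Submodule ℝ V} {v : V} {ε : ℝ}
    (h : ‖(Submodule.Quotient.mk v : V ⧸ S)‖ < ε) : ∃ s ∈ S, ‖v - s‖ < ε := by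
  have hpos : 0 < ε - ‖(Submodule.Quotient.mk v : V ⧸ S)‖ := by linarith
  obtain ⟨m, hm1, hm2⟩ := Submodule.Quotient.norm_mk_lt (Submodule.Quotient.mk v : V ⧸ S) hpos
  refine ⟨v - m, ?_, ?_⟩
  · rw [Submodule.Quotient.eq] at hm1
    have := S.neg_mem hm1
    simpa using this
  · simp only [sub_sub_cancel]
    linarith

/-- Weakly null sequences come close to a closed subspace of finite codimension. -/
lemma near_of_weakNull (S : Submodule ℝ V) (hS : IsClosed (S : Set V))
    (hfd : FiniteDimensional ℝ (V ⧸ S)) (w : ℕ → V)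
    (hw : ∀ φ : StrongDual ℝ V, Tendsto (fun n => φ (w n)) atTop (𝓝 0)) (ε : ℝ) (hε : 0 < ε) :
    ∃ n, ∃ s ∈ S, ‖w n - s‖ < ε := by
  haveI : IsClosed (S : Set V) := hS
  have hQ : Tendsto (fun n => S.mkQL (w n)) atTop (𝓝 0) := by
    let b := Module.finBasis ℝ (V ⧸ S)
    let e : (V ⧸ S) ≃L[ℝ] (Fin (Module.finrank ℝ (V ⧸ S)) → ℝ) :=
      b.equivFun.toContinuousLinearEquiv
    have h1 : Tendsto (fun n => e (S.mkQL (w n))) atTop (𝓝 0) := by
      rw [tendsto_pi_nhds]
      intro j
      let φ : StrongDual ℝ V :=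
        (ContinuousLinearMap.proj (R := ℝ) (φ := fun _ : Fin (Module.finrank ℝ (V ⧸ S)) => ℝ) j).comp
          (e.toContinuousLinearMap.comp S.mkQL)
      exact hw φ
    have h2 := e.symm.continuous.tendsto (0 : Fin (Module.finrank ℝ (V ⧸ S)) → ℝ)
    have h3 := h2.comp h1
    simpa [Function.comp_def] using h3
  have h4 := hQ.norm
  rw [norm_zero] at h4
  obtain ⟨n, hn⟩ := (h4.eventually (gt_mem_nhds hε)).exists
  obtain ⟨s, hs, hs2⟩ := near_of_quot_small (S := S) (v := w n) (ε := ε) hn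
  exact ⟨n, s, hs, hs2⟩

/-- Bounded sequences have two terms with difference close to a closed subspace of finite
codimension. -/
lemma near_of_bdd (S : Submodule ℝ V) (hS : IsClosed (S : Set V))
    (hfd : FiniteDimensional ℝ (V ⧸ S)) (c : ℕ → V) (M : ℝ) (hc : ∀ n, ‖c n‖ ≤ M)
    (ε : ℝ) (hε : 0 < ε) :
    ∃ i j, i ≠ j ∧ ∃ s ∈ S, ‖c i - c j - s‖ < ε := by
  haveI : IsClosed (S : Set V) := hS
  haveI : ProperSpace (V ⧸ S) := FiniteDimensional.proper_real _
  have hb : Bornology.IsBounded (Metric.closedBall (0 : V ⧸ S) M) := Metric.isBounded_closedBall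
  have hmem : ∀ n, S.mkQL (c n) ∈ Metric.closedBall (0 : V ⧸ S) M := by
    intro n
    rw [mem_closedBall_zero_iff]
    exact (Submodule.Quotient.norm_mk_le S (c n)).trans (hc n)
  obtain ⟨a, -, φ, hφ, hlim⟩ := tendsto_subseq_of_bounded hb hmem
  have hcau := hlim.cauchySeq
  rw [Metric.cauchySeq_iff] at hcau
  obtain ⟨N, hN⟩ := hcau ε hε
  have h1 := hN (N + 1) (by omega) N le_rfl
  rw [dist_eq_norm] at h1
  simp only [Function.comp_apply] at h1
  rw [← map_sub] at h1
  obtain ⟨s, hs, hs2⟩ := near_of_quot_small (S := S) (v := c (φ (N + 1)) - c (φ N)) (ε := ε) h1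
  refine ⟨φ (N + 1), φ N, ?_, s, hs, hs2⟩
  exact (hφ (Nat.lt_succ_self N)).ne'

end

end Crest.Agent.S0166Lib
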