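import Crest.Agent.S0166Lib.Tests

/-!
# The midpoint inequality: `√(4‖x‖² + ‖y‖²) ≤ ‖x + y‖ + ‖x - y‖` asymptotically
-/

set_option autoImplicit false

namespace Crest.Agent.S0166Lib

open Crest.AnalysisR Crest.AnalysisR.TreePotential

/-- A finite set of vertices closed under taking parents. -/
def ParentClosed (G : Finset (ℕ × List ℕ)) : Prop := ∀ k n v, (k, n :: v) ∈ G → (k, v) ∈ G

theorem exists_midpoint_tests (G : Finset (ℕ × List ℕ)) (hG : ParentClosed G) (f g : Test)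
    {a b : ℝ} (ha : 0 ≤ a) (hb : 0 ≤ b) (hab : a ^ 2 + b ^ 2 ≤ 1) :
    ∃ h₁ h₂ : Test,
      (∀ k s, (k, s) ∈ G → h₁.1 k s = a * f.1 k s ∧ h₂.1 k s = a * f.1 k s) ∧
      (∀ k s, (k, s) ∉ G → h₁.1 k s - h₂.1 k s = b * g.1 k s) := by
  classical
  obtain ⟨cf, cf0, cf1, cf2⟩ := f.2
  obtain ⟨cg, cg0, cg1, cg2⟩ := g.2
  set c : ℕ → ℝ := fun k => Real.sqrt (a ^ 2 * cf k ^ 2 + b ^ 2 * cg k ^ 2) with hc
  have hX : ∀ k, 0 ≤ a ^ 2 * cf k ^ 2 + b ^ 2 * cg k ^ 2 := fun k => by positivity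
  have c0 : ∀ k, 0 ≤ c k := fun k => Real.sqrt_nonneg _
  have csq : ∀ k, c k ^ 2 = a ^ 2 * cf k ^ 2 + b ^ 2 * cg k ^ 2 := fun k => Real.sq_sqrt (hX k)
  have hacf : ∀ k, a * cf k ≤ c k := by
    intro k
    apply Real.le_sqrt_of_sq_le
    have : 0 ≤ b ^ 2 * cg k ^ 2 := by positivity
    nlinarith
  have hbcg : ∀ k, b * cg k ≤ c k := by
    intro k
    apply Real.le_sqrt_of_sq_le
    have : 0 ≤ a ^ 2 * cf k ^ 2 := by positivity
    nlinarith
  let Gk : ℕ → List ℕ → Prop := fun k s => (k, s) ∈ G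
  have hGk : ∀ k n v, Gk k (n :: v) → Gk k v := fun k n v h => hG k n v h
  let h₁ : ℕ → List ℕ → ℝ := fun k => coefOf (P₁ (Gk k) (f.1 k) (g.1 k) a b (c k))
  let h₂ : ℕ → List ℕ → ℝ := fun k => coefOf (P₂ (Gk k) (f.1 k) (g.1 k) a b (c k))
  have hsum : ∀ K : Finset ℕ, ∑ k ∈ K, c k ^ 2 ≤ 1 := by
    intro K
    have e : ∑ k ∈ K, c k ^ 2 = a ^ 2 * ∑ k ∈ K, cf k ^ 2 + b ^ 2 * ∑ k ∈ K, cg k ^ 2 := by
      rw [Finset.mul_sum, Finset.mul_sum, ← Finset.sum_add_distrib]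
      exact Finset.sum_congr rfl fun k _ => csq k
    rw [e]
    have h1 := mul_le_mul_of_nonneg_left (cf1 K) (sq_nonneg a)
    have h2 := mul_le_mul_of_nonneg_left (cg1 K) (sq_nonneg b)
    linarith
  have hcoef : ∀ k s, h₁ k s ^ 2 ≤ (a * f.1 k s) ^ 2 + (b * g.1 k s) ^ 2 ∧
      h₂ k s ^ 2 ≤ (a * f.1 k s) ^ 2 + (b * g.1 k s) ^ 2 := by
    intro k s
    by_cases hs : Gk k s
    · have e1 : h₁ k s = a * f.1 k s :=
        coef₁_of_mem (hGk k) hs ha (cf0 k) (hacf k) (cf2 k).1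
      have e2 : h₂ k s = a * f.1 k s :=
        coef₂_of_mem (hGk k) hs ha (cf0 k) (hacf k) (cf2 k).1
      rw [e1, e2]
      have : 0 ≤ (b * g.1 k s) ^ 2 := sq_nonneg _
      constructor <;> linarith
    · obtain ⟨e1, e2, -⟩ := coef_of_not_mem (f := f.1 k) (g := g.1 k) (a := a) (b := b)
        hs (c0 k)
      have : 0 ≤ (a * f.1 k s) ^ 2 := sq_nonneg _
      constructor
      · exact e1.trans (by linarith)
      · exact e2.trans (by linarith)
  have hsq : ∀ k (A : Finset (List ℕ)), ∑ s ∈ A, ((a * f.1 k s) ^ 2 + (b * g.1 k s) ^ 2) ≤ c k ^ 2 := by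
    intro k A
    have e : ∑ s ∈ A, ((a * f.1 k s) ^ 2 + (b * g.1 k s) ^ 2)
        = a ^ 2 * ∑ s ∈ A, f.1 k s ^ 2 + b ^ 2 * ∑ s ∈ A, g.1 k s ^ 2 := by
      rw [Finset.mul_sum, Finset.mul_sum, ← Finset.sum_add_distrib]
      refine Finset.sum_congr rfl fun s _ => ?_
      ring
    rw [e, csq]
    have h1 := mul_le_mul_of_nonneg_left ((cf2 k).2 A) (sq_nonneg a)
    have h2 := mul_le_mul_of_nonneg_left ((cg2 k).2 A) (sq_nonneg b)
    linarith
  have t1 : IsTest h₁ := by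
    refine isTest_of _ c c0 hsum (fun k s => ?_) (fun k A => ?_)
    · simp only [h₁]
      rw [pathPotential_coefOf]
      exact P₁_abs_le (c0 k) s
    · exact (Finset.sum_le_sum fun s _ => (hcoef k s).1).trans (hsq k A)
  have t2 : IsTest h₂ := by
    refine isTest_of _ c c0 hsum (fun k s => ?_) (fun k A => ?_)
    · simp only [h₂]
      rw [pathPotential_coefOf]
      exact P₂_abs_le (c0 k) ha hb (cf0 k) (cg0 k) (hacf k) (hbcg k) (cf2 k).1 (cg2 k).1 s
    · exact (Finset.sum_le_sum fun s _ => (hcoef k s).2).trans (hsq k A)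
  refine ⟨⟨h₁, t1⟩, ⟨h₂, t2⟩, fun k s hs => ⟨?_, ?_⟩, fun k s hs => ?_⟩
  · exact coef₁_of_mem (hGk k) hs ha (cf0 k) (hacf k) (cf2 k).1
  · exact coef₂_of_mem (hGk k) hs ha (cf0 k) (hacf k) (cf2 k).1
  · exact (coef_of_not_mem (f := f.1 k) (g := g.1 k) (a := a) (b := b) hs (c0 k)).2.2

/-- Vertices in `G` as a spanning set. -/
noncomputable def spanOf (G : Finset (ℕ × List ℕ)) : Submodule ℝ XX :=
  Submodule.span ℝ ((fun v : ℕ × List ℕ => uu v.1 v.2) '' (G : Set (ℕ × List ℕ)))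

/-- The coordinates on `G`, as one continuous linear map. -/
noncomputable def coordsOn (G : Finset (ℕ × List ℕ)) : XX →L[ℝ] (G → ℝ) :=
  ContinuousLinearMap.pi fun v => ev (deltaT v.1.1 v.1.2)

/-- Elements vanishing on `G`. -/
noncomputable def annih (G : Finset (ℕ × List ℕ)) : Submodule ℝ XX :=
  LinearMap.ker (coordsOn G).toLinearMap

lemma mem_annih {G : Finset (ℕ × List ℕ)} {y : XX} :
    y ∈ annih G ↔ ∀ v ∈ G, ev (deltaT v.1 v.2) y = 0 := by
  simp only [annih, LinearMap.mem_ker, ContinuousLinearMap.coe_coe]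
  constructor
  · intro h v hv
    have := congrFun h ⟨v, hv⟩
    simpa [coordsOn] using this
  · intro h
    funext v
    simpa [coordsOn] using h v.1 v.2

lemma isClosed_annih (G : Finset (ℕ × List ℕ)) : IsClosed (annih G : Set XX) :=
  (coordsOn G).isClosed_ker

instance finiteDimensional_quot_annih (G : Finset (ℕ × List ℕ)) :
    FiniteDimensional ℝ (XX ⧸ annih G) := by
  have e := (coordsOn G).toLinearMap.quotKerEquivRange
  exact Module.Finite.equiv e.symm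

/-- Evaluations vanish on a test that is zero on `G` ... the difference identity. -/
lemma ev_diff_on_annih {G : Finset (ℕ × List ℕ)} {h₁ h₂ g : Test} {b a : ℝ} {f : Test}
    (H1 : ∀ k s, (k, s) ∈ G → h₁.1 k s = a * f.1 k s ∧ h₂.1 k s = a * f.1 k s)
    (H2 : ∀ k s, (k, s) ∉ G → h₁.1 k s - h₂.1 k s = b * g.1 k s)
    {y : XX} (hy : y ∈ annih G) : ev h₁ y - ev h₂ y = b * ev g y := by
  classical
  have key : ev h₁ - ev h₂ - b • ev g
      = -(b • ∑ v ∈ G, (g.1 v.1 v.2) • ev (deltaT v.1 v.2)) := by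
    refine clm_ext fun k s hs => ?_
    simp only [_root_.sub_apply, _root_.smul_apply,
      _root_.neg_apply, _root_.sum_apply, ev_uu _ hs, smul_eq_mul]
    have e : ∀ v ∈ G, g.1 v.1 v.2 * (deltaT v.1 v.2).1 k s
        = if v = (k, s) then g.1 k s else 0 := by
      intro v _
      rw [deltaT_apply]
      by_cases hv : v = (k, s)
      · subst hv; simp
      · have : ¬ (k = v.1 ∧ s = v.2) := by
          rintro ⟨rfl, rfl⟩; exact hv rfl
        simp [hv, this]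
    rw [Finset.sum_congr rfl e, Finset.sum_ite_eq' G (k, s)]
    by_cases hv : (k, s) ∈ G
    · obtain ⟨e1, e2⟩ := H1 k s hv
      simp [hv, e1, e2]
    · have := H2 k s hv
      simp [hv]; linarith
  have := congrArg (fun L : XX →L[ℝ] ℝ => L y) key
  simp only [_root_.sub_apply, _root_.smul_apply,
    _root_.neg_apply, _root_.sum_apply, smul_eq_mul] at this
  have h0 : ∑ v ∈ G, g.1 v.1 v.2 * ev (deltaT v.1 v.2) y = 0 :=
    Finset.sum_eq_zero fun v hv => by rw [mem_annih.1 hy v hv, mul_zero]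
  rw [h0] at this
  linarith

lemma ev_on_spanOf {G : Finset (ℕ × List ℕ)} {h f : Test} {a : ℝ}
    (H : ∀ k s, (k, s) ∈ G → h.1 k s = a * f.1 k s) {z : XX} (hz : z ∈ spanOf G) :
    ev h z = a * ev f z := by
  induction hz using Submodule.span_induction with
  | mem z hz =>
      obtain ⟨⟨k, s⟩, hv, rfl⟩ := hz
      simp only [ev_uu']
      split_ifs
      · exact H k s hv
      · simp
  | zero => simp
  | add x y _ _ hx hy => simp only [map_add, hx, hy]; ring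
  | smul c x _ hx => simp only [map_smul, hx, smul_eq_mul]; ring

/-- The core inequality. -/
theorem rms_core {G : Finset (ℕ × List ℕ)} (hG : ParentClosed G) {z y : XX}
    (hz : z ∈ spanOf G) (hy : y ∈ annih G) :
    Real.sqrt (4 * ‖z‖ ^ 2 + ‖y‖ ^ 2) ≤ ‖z + y‖ + ‖z - y‖ := by
  set X := ‖z‖ with hX
  set Y := ‖y‖ with hY
  set R := Real.sqrt (4 * X ^ 2 + Y ^ 2) with hR
  have hX0 : 0 ≤ X := norm_nonneg _
  have hY0 : 0 ≤ Y := norm_nonneg _
  have hsq : 0 ≤ 4 * X ^ 2 + Y ^ 2 := by positivity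
  have hRsq : R ^ 2 = 4 * X ^ 2 + Y ^ 2 := Real.sq_sqrt hsq
  have hR0 : 0 ≤ R := Real.sqrt_nonneg _
  have hrhs : 0 ≤ ‖z + y‖ + ‖z - y‖ := by positivity
  rcases hR0.eq_or_lt with h0 | hpos
  · rw [← h0]; exact hrhs
  refine le_of_forall_pos_le_add fun ε hε => ?_
  set a := 2 * X / R with ha
  set b := Y / R with hb
  have ha0 : 0 ≤ a := by positivity
  have hb0 : 0 ≤ b := by positivity
  have hab : a ^ 2 + b ^ 2 = 1 := by
    rw [ha, hb, div_pow, div_pow, ← add_div, hRsq]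
    rw [show (2 * X) ^ 2 + Y ^ 2 = 4 * X ^ 2 + Y ^ 2 by ring]
    exact div_self (ne_of_gt (by rw [← hRsq]; positivity))
  have ha1 : a ≤ 1 := by nlinarith [sq_nonneg b]
  have hb1 : b ≤ 1 := by nlinarith [sq_nonneg a]
  have hε3 : 0 < ε / 3 := by positivity
  obtain ⟨f, hf⟩ := exists_test_near' z hε3
  obtain ⟨g, hg⟩ := exists_test_near' y hε3
  obtain ⟨h₁, h₂, H1, H2⟩ := exists_midpoint_tests G hG f g ha0 hb0 hab.le
  have e1 : ev h₁ z = a * ev f z := ev_on_spanOf (fun k s hs => (H1 k s hs).1) hz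
  have e2 : ev h₂ z = a * ev f z := ev_on_spanOf (fun k s hs => (H1 k s hs).2) hz
  have e3 : ev h₁ y - ev h₂ y = b * ev g y := ev_diff_on_annih H1 H2 hy
  have l1 := ev_le h₁ (z + y)
  have l2 := ev_le h₂ (z - y)
  rw [map_add] at l1
  rw [map_sub] at l2
  have main : 2 * a * X + b * Y = R := by
    rw [ha, hb]
    field_simp
    nlinarith [hRsq]
  have l3 : a * (X - ε / 3) ≤ a * ev f z :=
    mul_le_mul_of_nonneg_left hf.le ha0
  have l4 : b * (Y - ε / 3) ≤ b * ev g y :=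
    mul_le_mul_of_nonneg_left hg.le hb0
  have : a * (ε / 3) ≤ ε / 3 := by nlinarith
  have : b * (ε / 3) ≤ ε / 3 := by nlinarith
  nlinarith

/-- Every element of the dense span lies in some `spanOf G` with `G` closed under parents. -/
lemma exists_parentClosed {z : XX} (hz : z ∈ Submodule.span ℝ uSet) :
    ∃ G : Finset (ℕ × List ℕ), ParentClosed G ∧ z ∈ spanOf G := by
  classical
  induction hz using Submodule.span_induction with
  | mem z hz =>
      obtain ⟨k, s, -, rfl⟩ := hz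
      refine ⟨s.tails.toFinset.image (fun t => (k, t)), ?_, Submodule.subset_span ?_⟩
      · intro k' n v hv
        simp only [Finset.mem_image, List.mem_toFinset, List.mem_tails, Prod.mk.injEq] at hv ⊢
        obtain ⟨t, ht, rfl, rfl⟩ := hv
        exact ⟨v, (List.suffix_cons n v).trans ht, rfl, rfl⟩
      · refine ⟨(k, s), ?_, rfl⟩
        simp
  | zero => exact ⟨∅, fun k n v hv => by simp at hv, Submodule.zero_mem _⟩
  | add x y _ _ hx hy =>
      obtain ⟨G1, h1, h1'⟩ := hx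
      obtain ⟨G2, h2, h2'⟩ := hy
      refine ⟨G1 ∪ G2, ?_, ?_⟩
      · intro k n v hv
        rcases Finset.mem_union.1 hv with hv | hv
        · exact Finset.mem_union_left _ (h1 k n v hv)
        · exact Finset.mem_union_right _ (h2 k n v hv)
      · have m1 : spanOf G1 ≤ spanOf (G1 ∪ G2) := by
          apply Submodule.span_mono
          apply Set.image_mono
          simp
        have m2 : spanOf G2 ≤ spanOf (G1 ∪ G2) := by
          apply Submodule.span_mono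
          apply Set.image_mono
          simp
        exact Submodule.add_mem _ (m1 h1') (m2 h2')
  | smul c x _ hx =>
      obtain ⟨G1, h1, h1'⟩ := hx
      exact ⟨G1, h1, Submodule.smul_mem _ c h1'⟩

lemma sqrt_lip (A B Y : ℝ) (hB : 0 ≤ B) :
    Real.sqrt (4 * A ^ 2 + Y ^ 2) ≤ Real.sqrt (4 * B ^ 2 + Y ^ 2) + 2 * |A - B| := by
  apply Real.sqrt_le_iff.2
  have h0 : 0 ≤ Real.sqrt (4 * B ^ 2 + Y ^ 2) := Real.sqrt_nonneg _
  have h1 : 0 ≤ |A - B| := abs_nonneg _
  refine ⟨by positivity, ?_⟩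
  have h2 : (Real.sqrt (4 * B ^ 2 + Y ^ 2)) ^ 2 = 4 * B ^ 2 + Y ^ 2 :=
    Real.sq_sqrt (by positivity)
  have h3 : 2 * B ≤ Real.sqrt (4 * B ^ 2 + Y ^ 2) := by
    apply Real.le_sqrt_of_sq_le
    nlinarith [sq_nonneg Y]
  have h4 : A - B ≤ |A - B| := le_abs_self _
  have h5 : (|A - B|) ^ 2 = (A - B) ^ 2 := sq_abs _
  nlinarith [mul_le_mul_of_nonneg_left h3 h1, mul_le_mul_of_nonneg_left h4 hB]

/-- The asymptotic midpoint inequality in the space. -/
theorem rms (x : XX) {η : ℝ} (hη : 0 < η) :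
    ∃ S : Submodule ℝ XX, IsClosed (S : Set XX) ∧ FiniteDimensional ℝ (XX ⧸ S) ∧
      ∀ y ∈ S, Real.sqrt (4 * ‖x‖ ^ 2 + ‖y‖ ^ 2) - η ≤ ‖x + y‖ + ‖x - y‖ := by
  have hd := dense_span_uSet
  obtain ⟨z, hxz, hz⟩ := Metric.dense_iff.1 hd x (η / 4) (by positivity)
  have hxz' : ‖x - z‖ < η / 4 := by
    rw [Metric.mem_ball, dist_comm, dist_eq_norm] at hxz
    exact hxz
  obtain ⟨G, hG, hzG⟩ := exists_parentClosed hz
  refine ⟨annih G, isClosed_annih G, inferInstance, fun y hy => ?_⟩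
  have core := rms_core hG hzG hy
  have l1 := sqrt_lip ‖x‖ ‖z‖ ‖y‖ (norm_nonneg _)
  have l2 : |‖x‖ - ‖z‖| ≤ ‖x - z‖ := abs_norm_sub_norm_le x z
  have l3 : ‖z + y‖ ≤ ‖x + y‖ + ‖x - z‖ := by
    have : z + y = (x + y) - (x - z) := by abel
    rw [this]; exact norm_sub_le _ _
  have l4 : ‖z - y‖ ≤ ‖x - y‖ + ‖x - z‖ := by
    have : z - y = (x - y) - (x - z) := by abel
    rw [this]; exact norm_sub_le _ _
  linarith

end Crest.Agent.S0166Lib
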