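import Crest.Agent.S0166Lib.Comp

/-!
# Reflexivity of the space
-/

set_option autoImplicit false

namespace Crest.Agent.S0166Lib

open Crest.AnalysisR Crest.AnalysisR.TreePotential Filter Topology

/-- Potentials of a function supported on one level. -/
lemma pot_level (f : List ℕ → ℝ) (l : ℕ) (hsupp : ∀ t, t.length ≠ l → f t = 0)
    (hb : ∀ t, |f t| ≤ 1) (s : List ℕ) :
    (s.length < l → pathPotential f s = 0) ∧ |pathPotential f s| ≤ 1 := by
  induction s with
  | nil =>
      simp only [pathPotential, List.length_nil]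
      exact ⟨fun h => hsupp [] (by simp; omega), hb []⟩
  | cons n v ih =>
      simp only [pathPotential, List.length_cons]
      by_cases h : v.length + 1 = l
      · have h1 : pathPotential f v = 0 := ih.1 (by omega)
        rw [h1, zero_add]
        exact ⟨fun h' => by omega, hb _⟩
      · have h1 : f (n :: v) = 0 := hsupp _ (by simpa using h)
        rw [h1, add_zero]
        exact ⟨fun h' => ih.1 (by omega), ih.2⟩

/-- Bound on one level. -/
lemma level_bound (k l : ℕ) (B : Finset (List ℕ)) (hB : ∀ s ∈ B, s.length = l) (y : XX) :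
    ∑ s ∈ B, (ev (deltaT k s) y) ^ 2 ≤ ‖y‖ ^ 2 := by
  classical
  set α : List ℕ → ℝ := fun s => ev (deltaT k s) y with hα
  set S2 := ∑ s ∈ B, α s ^ 2 with hS2
  by_cases hS : S2 ≤ 0
  · exact hS.trans (sq_nonneg _)
  push Not at hS
  set R := Real.sqrt S2 with hR
  have hR0 : 0 < R := Real.sqrt_pos.2 hS
  have hRR : R ^ 2 = S2 := Real.sq_sqrt hS.le
  set f : List ℕ → ℝ := fun s => if s ∈ B then α s / R else 0 with hf
  have hf2 : ∀ A : Finset (List ℕ), ∑ s ∈ A, f s ^ 2 ≤ 1 := by
    intro A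
    have e : ∀ s ∈ A, f s ^ 2 = if s ∈ B then α s ^ 2 / S2 else 0 := by
      intro s _
      simp only [hf]
      split_ifs
      · rw [div_pow, hRR]
      · simp
    rw [Finset.sum_congr rfl e, Finset.sum_ite_mem]
    calc ∑ s ∈ A ∩ B, α s ^ 2 / S2 ≤ ∑ s ∈ B, α s ^ 2 / S2 :=
          Finset.sum_le_sum_of_subset_of_nonneg Finset.inter_subset_right
            fun _ _ _ => by positivity
      _ = S2 / S2 := by rw [hS2, Finset.sum_div]
      _ = 1 := div_self hS.ne'
  have hfU : UnitF f := by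
    refine ⟨fun s => (pot_level f l (fun t ht => ?_) (fun t => ?_) s).2, hf2⟩
    · simp only [hf]
      rw [if_neg]
      exact fun hm => ht (hB t hm)
    · have := hf2 {t}
      simp only [Finset.sum_singleton] at this
      exact (sq_le_one_iff_abs_le_one _).1 this
  have e : ev (compT k f hfU) = ∑ s ∈ B, (α s / R) • ev (deltaT k s) := by
    refine clm_ext fun j t ht => ?_
    rw [ev_uu _ ht, compT_apply, _root_.sum_apply]
    have e2 : ∀ s ∈ B, ((α s / R) • ev (deltaT k s)) (uu j t)
        = if t = s then (if j = k then α s / R else 0) else 0 := by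
      intro s _
      rw [_root_.smul_apply, ev_delta_uu ht, smul_eq_mul]
      by_cases h1 : j = k <;> by_cases h2 : t = s <;> simp [h1, h2]
    rw [Finset.sum_congr rfl e2, Finset.sum_ite_eq B t]
    simp only [hf]
    by_cases h1 : j = k <;> by_cases h2 : t ∈ B <;> simp [h1, h2]
  have h1 := ev_le (compT k f hfU) y
  rw [e, _root_.sum_apply] at h1
  have e3 : ∑ s ∈ B, ((α s / R) • ev (deltaT k s)) y = S2 / R := by
    rw [hS2, Finset.sum_div]
    refine Finset.sum_congr rfl fun s _ => ?_
    rw [_root_.smul_apply, smul_eq_mul]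
    show α s / R * α s = _
    ring
  rw [e3, div_le_iff₀ hR0] at h1
  exact sq_le_of_le_mul_sqrt (norm_nonneg _) h1

lemma ev_delta_invalid {k : ℕ} {s : List ℕ} (hs : ¬ s.length ≤ k) : ev (deltaT k s) = 0 := by
  refine clm_ext fun j t ht => ?_
  rw [ev_delta_uu ht]
  rw [if_neg]
  · simp
  · rintro ⟨rfl, rfl⟩
    exact hs ht

/-- `(G2)` -/
lemma sum_delta_sq_le (k : ℕ) (A : Finset (List ℕ)) (y : XX) :
    ∑ s ∈ A, (ev (deltaT k s) y) ^ 2 ≤ (k + 1) * ‖y‖ ^ 2 := by
  classical
  have e1 : ∑ s ∈ A with s.length ≤ k, (ev (deltaT k s) y) ^ 2 = ∑ s ∈ A, (ev (deltaT k s) y) ^ 2 := by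
    refine Finset.sum_filter_of_ne fun s _ hne => ?_
    by_contra hs
    apply hne
    rw [ev_delta_invalid hs]
    simp
  rw [← e1]
  have e2 := Finset.sum_fiberwise_of_maps_to (s := A.filter (fun s => s.length ≤ k))
    (t := Finset.range (k + 1)) (g := fun s => s.length)
    (fun s hs => by
      have := (Finset.mem_filter.1 hs).2
      exact Finset.mem_range.2 (by omega))
    (fun s => (ev (deltaT k s) y) ^ 2)
  rw [← e2]
  calc _ ≤ ∑ _l ∈ Finset.range (k + 1), ‖y‖ ^ 2 := by
        refine Finset.sum_le_sum fun l _ => ?_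
        refine level_bound k l _ (fun s hs => ?_) y
        exact (Finset.mem_filter.1 hs).2
    _ = _ := by simp

/-- The dual estimate. -/
lemma norm_sum_delta_sq_le (k : ℕ) (A : Finset (List ℕ)) (γ : List ℕ → ℝ) :
    ‖∑ s ∈ A, γ s • ev (deltaT k s)‖ ^ 2 ≤ ∑ s ∈ A, ((k + 1 : ℝ) * γ s ^ 2) := by
  rw [← Finset.mul_sum]
  set S2 := (k + 1 : ℝ) * ∑ s ∈ A, γ s ^ 2 with hS2
  have hS0 : 0 ≤ S2 := mul_nonneg (by positivity) (Finset.sum_nonneg fun _ _ => sq_nonneg _)
  have : ‖∑ s ∈ A, γ s • ev (deltaT k s)‖ ≤ Real.sqrt S2 := by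
    refine ContinuousLinearMap.opNorm_le_bound _ (Real.sqrt_nonneg _) fun y => ?_
    rw [_root_.sum_apply, Real.norm_eq_abs]
    have e : ∀ s ∈ A, (γ s • ev (deltaT k s)) y = γ s * ev (deltaT k s) y := fun s _ => by
      rw [_root_.smul_apply, smul_eq_mul]
    rw [Finset.sum_congr rfl e]
    refine abs_le_of_sq_le_sq ?_ (by positivity)
    rw [mul_pow, Real.sq_sqrt hS0]
    refine (Finset.sum_mul_sq_le_sq_mul_sq _ _ _).trans ?_
    have h2 := sum_delta_sq_le k A y
    calc _ ≤ (∑ s ∈ A, γ s ^ 2) * ((k + 1) * ‖y‖ ^ 2) :=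
          mul_le_mul_of_nonneg_left h2 (Finset.sum_nonneg fun _ _ => sq_nonneg _)
      _ = _ := by rw [hS2]; ring
  calc _ ≤ Real.sqrt S2 ^ 2 := pow_le_pow_left₀ (ContinuousLinearMap.opNorm_nonneg _) this 2
    _ = S2 := Real.sq_sqrt hS0

instance : CompleteSpace XX :=
  (Submodule.isClosed_topologicalClosure _).completeSpace_coe

/-- The coordinate functionals determine a functional on a component. -/
lemma component_rep (k : ℕ) (φ ψ : XX →L[ℝ] ℝ)
    (h : HasSum (fun s => φ (uu k s) • ev (deltaT k s)) ψ) : ψ = φ.comp (P k) := by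
  classical
  refine clm_ext fun j t ht => ?_
  have h1 : HasSum (fun s => (φ (uu k s) • ev (deltaT k s)) (uu j t)) (ψ (uu j t)) :=
    h.mapL (ContinuousLinearMap.apply ℝ ℝ (uu j t))
  have e : ∀ s, (φ (uu k s) • ev (deltaT k s)) (uu j t)
      = if s = t then (if j = k then φ (uu k t) else 0) else 0 := by
    intro s
    rw [_root_.smul_apply, smul_eq_mul, ev_delta_uu ht]
    by_cases h1 : j = k <;> by_cases h2 : s = t
    · subst h2; simp [h1]
    · have : t ≠ s := fun e => h2 e.symm
      simp [h1, h2, this]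
    · simp [h1, h2]
    · simp [h1, h2]
  have h2 : HasSum (fun s => (φ (uu k s) • ev (deltaT k s)) (uu j t))
      (if j = k then φ (uu k t) else 0) := by
    have : (fun s => (φ (uu k s) • ev (deltaT k s)) (uu j t)) =
        fun s => if s = t then (if j = k then φ (uu k t) else 0) else 0 := funext e
    rw [this]
    exact hasSum_ite_eq t _
  rw [h1.unique h2, ContinuousLinearMap.comp_apply, P_uu]
  by_cases h3 : j = k
  · subst h3; simp
  · simp [h3]

/-- The space is reflexive. -/
theorem xx_reflexive : Function.Surjective (NormedSpace.inclusionInDoubleDual ℝ XX) :=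
  surjective_of_two_level (E := XX) P P_idem sum_norm_P_sq_le norm_sum_sq_le tendsto_sum_P
    (fun k => (k + 1 : ℝ)) (fun k => by positivity) uu (fun k s => ev (deltaT k s))
    norm_sum_uu_sq_le norm_sum_delta_sq_le
    (fun k s => by rw [P_uu, if_pos rfl]) component_rep

end Crest.Agent.S0166Lib
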