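import Crest.Agent.S0166Lib.Basic

/-!
# Test constructions: delta tests and the clipped midpoint tests
-/

set_option autoImplicit false

namespace Crest.Agent.S0166Lib

open Crest.AnalysisR Crest.AnalysisR.TreePotential

/-! ### Delta tests -/

/-- potential of a point mass -/
lemma pathPotential_delta (s t : List ℕ) :
    pathPotential (fun t' => if t' = s then (1 : ℝ) else 0) t = if s <:+ t then 1 else 0 := by
  induction t with
  | nil =>
      simp only [pathPotential, List.suffix_nil]
      by_cases h : s = []
      · simp [h]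
      · simp [h, Ne.symm h]
  | cons a v ih =>
      simp only [pathPotential, ih]
      by_cases h : s = a :: v
      · subst h
        have : ¬ (a :: v) <:+ v := by
          intro hh
          have := hh.length_le
          simp at this
        simp [this]
      · have h2 : (a :: v = s) = False := by
          simp only [eq_iff_iff, iff_false]; exact fun e => h e.symm
        by_cases h3 : s <:+ v
        · have : s <:+ a :: v := h3.trans (List.suffix_cons a v)
          simp [h2, h3, this]
        · have : ¬ s <:+ a :: v := by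
            intro hh
            rcases List.suffix_cons_iff.1 hh with e | e
            · exact h e
            · exact h3 e
          simp [h2, h3, this]

lemma isTest_delta (k : ℕ) (s : List ℕ) :
    IsTest (fun k' t => if k' = k then (if t = s then (1 : ℝ) else 0) else 0) := by
  refine isTest_of _ (fun k' => if k' = k then 1 else 0) (fun k' => by split_ifs <;> norm_num)
    (fun K => ?_) (fun k' t => ?_) (fun k' A => ?_)
  · have : ∀ k' ∈ K, ((if k' = k then (1 : ℝ) else 0) ^ 2) = if k' = k then 1 else 0 := by
      intro k' _; split_ifs <;> norm_num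
    rw [Finset.sum_congr rfl this, Finset.sum_ite_eq' K k]
    split_ifs <;> norm_num
  · by_cases h : k' = k
    · simp only [h, if_true]
      rw [pathPotential_delta]
      split_ifs <;> norm_num
    · simp only [h, if_false]
      rw [pathPotential_zero]; simp
  · by_cases h : k' = k
    · simp only [h, if_true]
      have : ∀ t ∈ A, ((if t = s then (1 : ℝ) else 0) ^ 2) = if t = s then 1 else 0 := by
        intro t _; split_ifs <;> norm_num
      rw [Finset.sum_congr rfl this, Finset.sum_ite_eq' A s]
      split_ifs <;> norm_num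
    · simp [h]

/-- The delta test at a vertex. -/
noncomputable def deltaT (k : ℕ) (s : List ℕ) : Test := ⟨_, isTest_delta k s⟩

lemma deltaT_apply (k : ℕ) (s : List ℕ) (k' : ℕ) (t : List ℕ) :
    (deltaT k s).1 k' t = if k' = k ∧ t = s then 1 else 0 := by
  simp only [deltaT]
  by_cases h : k' = k <;> by_cases h2 : t = s <;> simp [h, h2]

lemma ev_delta_uu {k k' : ℕ} {s t : List ℕ} (ht : t.length ≤ k') :
    ev (deltaT k s) (uu k' t) = if k' = k ∧ t = s then 1 else 0 := by
  rw [ev_uu _ ht, deltaT_apply]

lemma ev_uu' (h : Test) (k : ℕ) (s : List ℕ) :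
    ev h (uu k s) = if s.length ≤ k then h.1 k s else 0 := by
  by_cases hs : s.length ≤ k
  · rw [ev_uu h hs, if_pos hs]
  · rw [uu_of_invalid hs, if_neg hs, map_zero]

/-! ### Coefficient families from potentials -/

/-- The coefficient family with prescribed potential. -/
def coefOf (P : List ℕ → ℝ) : List ℕ → ℝ
  | [] => P []
  | n :: v => P (n :: v) - P v

lemma pathPotential_coefOf (P : List ℕ → ℝ) (s : List ℕ) : pathPotential (coefOf P) s = P s := by
  induction s with
  | nil => rfl
  | cons a v ih => simp [pathPotential, ih, coefOf]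

/-! ### Exit potentials -/

/-- The potential of `φ` at the last vertex of the root path of `s` inside `G`, or `0`. -/
def exitPot (G : List ℕ → Prop) [DecidablePred G] (φ : List ℕ → ℝ) : List ℕ → ℝ
  | [] => if G [] then pathPotential φ [] else 0
  | n :: v => if G (n :: v) then pathPotential φ (n :: v) else exitPot G φ v

lemma abs_exitPot_le (G : List ℕ → Prop) [DecidablePred G] (φ : List ℕ → ℝ) {c : ℝ} (hc : 0 ≤ c)
    (H : ∀ s, |pathPotential φ s| ≤ c) (s : List ℕ) : |exitPot G φ s| ≤ c := by
  induction s with
  | nil =>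
      simp only [exitPot]
      split_ifs
      · exact H _
      · simpa using hc
  | cons a v ih =>
      simp only [exitPot]
      split_ifs
      · exact H _
      · exact ih

/-- clipping to `[-c, c]` -/
def clip (c x : ℝ) : ℝ := max (-c) (min c x)

lemma clip_abs_le {c : ℝ} (hc : 0 ≤ c) (x : ℝ) : |clip c x| ≤ c := by
  unfold clip
  rw [abs_le]
  constructor
  · exact le_max_left _ _
  · exact max_le (by linarith) (min_le_left _ _)

lemma clip_of_abs_le {c x : ℝ} (h : |x| ≤ c) : clip c x = x := by
  unfold clip
  rw [abs_le] at h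
  rw [min_eq_right h.2, max_eq_right h.1]

lemma clip_zero {c : ℝ} (hc : 0 ≤ c) : clip c 0 = 0 := clip_of_abs_le (by simpa using hc)

/-- The increment of the clip lies between `0` and the increment of the argument. -/
lemma clip_increment {c : ℝ} (hc : 0 ≤ c) (z δ : ℝ) :
    (clip c (z + δ) - clip c z) ^ 2 ≤ δ ^ 2 ∧ (clip c (z + δ) - clip c z - δ) ^ 2 ≤ δ ^ 2 := by
  unfold clip
  rcases le_total 0 δ with h | h
  · have h1 : max (-c) (min c z) ≤ max (-c) (min c (z + δ)) :=
      max_le_max le_rfl (min_le_min le_rfl (by linarith))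
    have h2 : max (-c) (min c (z + δ)) ≤ max (-c) (min c z) + δ := by
      apply max_le
      · have := le_max_left (-c) (min c z); linarith
      · rcases le_total c z with h3 | h3
        · rw [min_eq_left (by linarith), min_eq_left h3]
          have := le_max_right (-c) c
          have h5 : c ≤ max (-c) c := this
          linarith
        · rw [min_eq_right h3]
          have h5 := le_max_right (-c) z
          have h6 : min c (z + δ) ≤ z + δ := min_le_right _ _
          linarith
    set A := max (-c) (min c z)
    set B := max (-c) (min c (z + δ))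
    constructor
    · nlinarith
    · nlinarith
  · have h1 : max (-c) (min c (z + δ)) ≤ max (-c) (min c z) :=
      max_le_max le_rfl (min_le_min le_rfl (by linarith))
    have h2 : max (-c) (min c z) + δ ≤ max (-c) (min c (z + δ)) := by
      rcases le_total z (-c) with h3 | h3
      · have h4 : min c z = z := min_eq_right (by linarith)
        rw [h4, max_eq_left h3]
        have := le_max_left (-c) (min c (z + δ)); linarith
      · have h4 : max (-c) (min c z) = min c z := max_eq_right (le_min (by linarith) h3)
        rw [h4]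
        refine le_trans ?_ (le_max_right _ _)
        apply le_min
        · have := min_le_left c z; linarith
        · have := min_le_right c z; linarith
    set A := max (-c) (min c z)
    set B := max (-c) (min c (z + δ))
    constructor
    · nlinarith
    · nlinarith

/-! ### One component of the midpoint construction -/

section Component

variable (G : List ℕ → Prop) [DecidablePred G]

/-- The relative potential of `g` from the exit. -/
def qPot (g : List ℕ → ℝ) (s : List ℕ) : ℝ := pathPotential g s - exitPot G g s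

/-- First midpoint potential. -/
noncomputable def P₁ (f g : List ℕ → ℝ) (a b c : ℝ) (s : List ℕ) : ℝ :=
  clip c (a * exitPot G f s + b * qPot G g s)

/-- Second midpoint potential. -/
noncomputable def P₂ (f g : List ℕ → ℝ) (a b c : ℝ) (s : List ℕ) : ℝ :=
  P₁ G f g a b c s - b * qPot G g s

variable {G}

lemma qPot_of_mem {g : List ℕ → ℝ} {s : List ℕ} (hs : G s) : qPot G g s = 0 := by
  unfold qPot
  cases s with
  | nil => simp [exitPot, hs]
  | cons a v => simp [exitPot, hs]

lemma exitPot_of_mem {φ : List ℕ → ℝ} {s : List ℕ} (hs : G s) :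
    exitPot G φ s = pathPotential φ s := by
  cases s with
  | nil => simp [exitPot, hs]
  | cons a v => simp [exitPot, hs]

lemma exitPot_nil_of_not_mem {φ : List ℕ → ℝ} (hs : ¬ G []) : exitPot G φ [] = 0 := by
  simp [exitPot, hs]

lemma exitPot_cons_of_not_mem {φ : List ℕ → ℝ} {n : ℕ} {v : List ℕ} (hs : ¬ G (n :: v)) :
    exitPot G φ (n :: v) = exitPot G φ v := by
  simp [exitPot, hs]

lemma qPot_nil_of_not_mem {g : List ℕ → ℝ} (hs : ¬ G []) : qPot G g [] = g [] := by
  simp [qPot, exitPot, hs, pathPotential]

lemma qPot_cons_of_not_mem {g : List ℕ → ℝ} {n : ℕ} {v : List ℕ} (hs : ¬ G (n :: v)) :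
    qPot G g (n :: v) = qPot G g v + g (n :: v) := by
  simp only [qPot, exitPot, hs, if_false, pathPotential]
  ring

lemma abs_qPot_le {g : List ℕ → ℝ} {c : ℝ} (hc : 0 ≤ c)
    (H : ∀ s, |pathPotential g s| ≤ c) (s : List ℕ) : |qPot G g s| ≤ 2 * c := by
  unfold qPot
  have h1 := H s
  have h2 := abs_exitPot_le G g hc H s
  rw [abs_le] at *
  constructor <;> linarith [h1.1, h1.2, h2.1, h2.2]

variable {f g : List ℕ → ℝ} {a b c cf cg : ℝ}

lemma P₁_abs_le (hc : 0 ≤ c) (s : List ℕ) : |P₁ G f g a b c s| ≤ c := clip_abs_le hc _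

lemma P₂_abs_le (hc : 0 ≤ c) (ha : 0 ≤ a) (hb : 0 ≤ b) (hcf : 0 ≤ cf) (hcg : 0 ≤ cg)
    (hacf : a * cf ≤ c) (hbcg : b * cg ≤ c)
    (Hf : ∀ s, |pathPotential f s| ≤ cf) (Hg : ∀ s, |pathPotential g s| ≤ cg) (s : List ℕ) :
    |P₂ G f g a b c s| ≤ c := by
  have h1 := abs_exitPot_le G f hcf Hf s
  have h2 := abs_qPot_le (G := G) hcg Hg s
  set e := exitPot G f s
  set q := qPot G g s
  have hae : |a * e| ≤ c := by
    rw [abs_mul, abs_of_nonneg ha]
    exact (mul_le_mul_of_nonneg_left h1 ha).trans hacf
  have hbq : |b * q| ≤ 2 * c := by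
    rw [abs_mul, abs_of_nonneg hb]
    calc b * |q| ≤ b * (2 * cg) := mul_le_mul_of_nonneg_left h2 hb
      _ = 2 * (b * cg) := by ring
      _ ≤ 2 * c := by linarith
  rw [abs_le] at hae hbq
  unfold P₂ P₁
  unfold clip
  change |max (-c) (min c (a * e + b * q)) - b * q| ≤ c
  rw [abs_le]
  rcases le_total (a * e + b * q) c with h3 | h3
  · rw [min_eq_right h3]
    rcases le_total (-c) (a * e + b * q) with h4 | h4
    · rw [max_eq_right h4]
      constructor <;> linarith [hae.1, hae.2]
    · rw [max_eq_left h4]
      constructor <;> linarith [hae.1, hae.2, hbq.1, hbq.2]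
  · rw [min_eq_left h3, max_eq_right (by linarith)]
    constructor <;> linarith [hae.1, hae.2, hbq.1, hbq.2]

lemma P₁_of_mem {s : List ℕ} (hs : G s) (ha : 0 ≤ a) (hcf : 0 ≤ cf)
    (hacf : a * cf ≤ c) (Hf : ∀ s, |pathPotential f s| ≤ cf) :
    P₁ G f g a b c s = a * pathPotential f s := by
  unfold P₁
  rw [qPot_of_mem hs, exitPot_of_mem hs, mul_zero, add_zero]
  apply clip_of_abs_le
  rw [abs_mul, abs_of_nonneg ha]
  exact (mul_le_mul_of_nonneg_left (Hf s) ha).trans hacf

lemma P₂_of_mem {s : List ℕ} (hs : G s) (ha : 0 ≤ a) (hcf : 0 ≤ cf)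
    (hacf : a * cf ≤ c) (Hf : ∀ s, |pathPotential f s| ≤ cf) :
    P₂ G f g a b c s = a * pathPotential f s := by
  unfold P₂
  rw [P₁_of_mem hs ha hcf hacf Hf, qPot_of_mem hs]; ring

/-- Coefficients on `G` (which is closed under taking parents). -/
lemma coef₁_of_mem (hG : ∀ n v, G (n :: v) → G v) {s : List ℕ} (hs : G s) (ha : 0 ≤ a) (hcf : 0 ≤ cf)
    (hacf : a * cf ≤ c) (Hf : ∀ s, |pathPotential f s| ≤ cf) :
    coefOf (P₁ G f g a b c) s = a * f s := by
  cases s with
  | nil =>
      simp only [coefOf]
      rw [P₁_of_mem hs ha hcf hacf Hf]; rfl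
  | cons n v =>
      simp only [coefOf]
      rw [P₁_of_mem hs ha hcf hacf Hf, P₁_of_mem (hG n v hs) ha hcf hacf Hf]
      simp only [pathPotential]; ring

lemma coef₂_of_mem (hG : ∀ n v, G (n :: v) → G v) {s : List ℕ} (hs : G s) (ha : 0 ≤ a) (hcf : 0 ≤ cf)
    (hacf : a * cf ≤ c) (Hf : ∀ s, |pathPotential f s| ≤ cf) :
    coefOf (P₂ G f g a b c) s = a * f s := by
  cases s with
  | nil =>
      simp only [coefOf]
      rw [P₂_of_mem hs ha hcf hacf Hf]; rfl
  | cons n v =>
      simp only [coefOf]
      rw [P₂_of_mem hs ha hcf hacf Hf, P₂_of_mem (hG n v hs) ha hcf hacf Hf]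
      simp only [pathPotential]; ring

/-- Coefficients off `G`: differences and size. -/
lemma coef_of_not_mem {s : List ℕ} (hs : ¬ G s) (hc : 0 ≤ c) :
    coefOf (P₁ G f g a b c) s ^ 2 ≤ (b * g s) ^ 2 ∧
    coefOf (P₂ G f g a b c) s ^ 2 ≤ (b * g s) ^ 2 ∧
    coefOf (P₁ G f g a b c) s - coefOf (P₂ G f g a b c) s = b * g s := by
  cases s with
  | nil =>
      simp only [coefOf, P₂, P₁]
      rw [qPot_nil_of_not_mem hs, exitPot_nil_of_not_mem hs, mul_zero, zero_add]
      have := clip_increment hc 0 (b * g [])
      rw [clip_zero hc, sub_zero, zero_add] at this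
      exact ⟨this.1, this.2, by ring⟩
  | cons n v =>
      simp only [coefOf, P₂, P₁]
      rw [qPot_cons_of_not_mem hs, exitPot_cons_of_not_mem hs]
      have key := clip_increment hc (a * exitPot G f v + b * qPot G g v) (b * g (n :: v))
      have e1 : a * exitPot G f v + b * (qPot G g v + g (n :: v))
          = a * exitPot G f v + b * qPot G g v + b * g (n :: v) := by ring
      rw [e1]
      set A := clip c (a * exitPot G f v + b * qPot G g v + b * g (n :: v))
      set B := clip c (a * exitPot G f v + b * qPot G g v)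
      refine ⟨key.1, ?_, by ring⟩
      have e2 : A - b * (qPot G g v + g (n :: v)) - (B - b * qPot G g v)
          = A - B - b * g (n :: v) := by ring
      rw [e2]
      exact key.2

end Component

end Crest.Agent.S0166Lib
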